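/-
R11 (S0012): the irrationality exponent of π is 2.  Definitions and basic lemmas.

Overview of the proof (Roth-type method on `𝔾ₐ^m × 𝔾ₘ`).  `PR m = ℂ[y, x₁, …, x_m]`, variable `0` is `y`,
variable `j.succ` is `x_j`.  The invariant derivations are `DD m 0 = y ∂_y + ∑ ∂_{x_j}` and
`DD m j.succ = ∂_{x_j}`.
* `Count`    : lattice points in simplices and boxes.
* `Abstract` : a Hilbert-function inequality by Noetherian induction (replaces intersection theory).
* `Trans`    : the ideals `VI` (vanishing along a prime to weighted order `n`), lower bound of the rank.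
* `Bezout`   : multiplicity ≤ degree along a minimal prime.
* `Product`  : Faltings' product theorem for the derivations `DD`.
* `Zero`     : the sharp (Dyson type) zero estimate.
* `Siegel`   : the auxiliary polynomial (pigeonhole + Taylor expansion).
* `Liou`     : Cauchy estimate + Liouville inequality; `Link` : coefficients → derivations.
* `Core`, `Params` : assembly and choice of parameters.
-/
import Mathlib

set_option autoImplicit false

namespace Crest.Agent.R11

open MvPolynomial

/-- `ℂ[y, x₁, …, x_m]`; variable `0` is `y`, variable `j.succ` is `x_j`. -/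
abbrev PR (m : ℕ) := MvPolynomial (Fin (m + 1)) ℂ

section iter

variable {R : Type*} [CommRing R] [Algebra ℂ R] {ι : Type*}

/-- Apply the derivations `D i`, `i ∈ l`, one after the other (head of the list first). -/
def iterD (D : ι → Derivation ℂ R R) : List ι → R → R
  | [], f => f
  | i :: l, f => iterD D l (D i f)

/-- Weight of a list of indices. -/
def wtL (w : ι → ℝ) (l : List ι) : ℝ := (l.map w).sum

@[simp] theorem iterD_nil (D : ι → Derivation ℂ R R) (f : R) : iterD D [] f = f := rfl

@[simp] theorem iterD_cons (D : ι → Derivation ℂ R R) (i : ι) (l : List ι) (f : R) :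
    iterD D (i :: l) f = iterD D l (D i f) := rfl

theorem iterD_append (D : ι → Derivation ℂ R R) (l l' : List ι) (f : R) :
    iterD D (l ++ l') f = iterD D l' (iterD D l f) := by
  induction l generalizing f with
  | nil => rfl
  | cons i l ih => simp [ih]

@[simp] theorem iterD_zero (D : ι → Derivation ℂ R R) (l : List ι) : iterD D l 0 = 0 := by
  induction l with
  | nil => rfl
  | cons i l ih => simp [ih]

theorem iterD_add (D : ι → Derivation ℂ R R) (l : List ι) (f g : R) :
    iterD D l (f + g) = iterD D l f + iterD D l g := by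
  induction l generalizing f g with
  | nil => rfl
  | cons i l ih => simp [ih]

theorem iterD_smul (D : ι → Derivation ℂ R R) (l : List ι) (a : ℂ) (f : R) :
    iterD D l (a • f) = a • iterD D l f := by
  induction l generalizing f with
  | nil => rfl
  | cons i l ih => simp [ih]

theorem iterD_sum {κ : Type*} (D : ι → Derivation ℂ R R) (l : List ι) (s : Finset κ) (f : κ → R) :
    iterD D l (∑ a ∈ s, f a) = ∑ a ∈ s, iterD D l (f a) := by
  classical
  induction s using Finset.induction_on with
  | empty => simp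
  | insert a s ha ih => simp [Finset.sum_insert ha, iterD_add, ih]

theorem iterD_comp {κ : Type*} (D : ι → Derivation ℂ R R) (φ : κ → ι) (l : List κ) (f : R) :
    iterD (fun a => D (φ a)) l f = iterD D (l.map φ) f := by
  induction l generalizing f with
  | nil => rfl
  | cons i l ih => simp [ih]

@[simp] theorem wtL_nil (w : ι → ℝ) : wtL w [] = 0 := rfl

@[simp] theorem wtL_cons (w : ι → ℝ) (i : ι) (l : List ι) : wtL w (i :: l) = w i + wtL w l := by
  simp [wtL]

theorem wtL_append (w : ι → ℝ) (l l' : List ι) : wtL w (l ++ l') = wtL w l + wtL w l' := by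
  simp [wtL]

theorem wtL_comp {κ : Type*} (w : ι → ℝ) (φ : κ → ι) (l : List κ) :
    wtL (fun a => w (φ a)) l = wtL w (l.map φ) := by
  induction l with
  | nil => rfl
  | cons i l ih => simp [ih]

theorem wtL_nonneg {w : ι → ℝ} (hw : ∀ i, 0 ≤ w i) (l : List ι) : 0 ≤ wtL w l := by
  induction l with
  | nil => simp
  | cons i l ih => simpa using add_nonneg (hw i) ih

theorem wtL_mul (w : ι → ℝ) (a : ℝ) (l : List ι) : wtL (fun i => a * w i) l = a * wtL w l := by
  induction l with
  | nil => simp
  | cons i l ih => simp [ih, mul_add]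

/-- The ideal of elements vanishing along `q` to weighted order `n` in the directions `D`.
For nonnegative weights the multiplier `g` can be dropped, see `mem_VI` in `Trans`. -/
def VI (D : ι → Derivation ℂ R R) (w : ι → ℝ) (q : Ideal R) (n : ℝ) : Ideal R where
  carrier := {f | ∀ (g : R) (l : List ι), wtL w l < n → iterD D l (g * f) ∈ q}
  zero_mem' := by intro g l _; simp
  add_mem' := by
    intro a b ha hb g l hl
    rw [mul_add, iterD_add]
    exact q.add_mem (ha g l hl) (hb g l hl)
  smul_mem' := by
    intro c x hx g l hl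
    rw [smul_eq_mul, ← mul_assoc]
    exact hx _ l hl

end iter

/-- The invariant derivations of `𝔾ₘ × 𝔾ₐ^m` : `DD m 0 = y ∂_y + ∑ ∂_{x_j}`, `DD m j.succ = ∂_{x_j}`. -/
noncomputable def DD (m : ℕ) : Fin (m + 1) → Derivation ℂ (PR m) (PR m) :=
  Fin.cons ((X 0 : PR m) • pderiv 0 + ∑ j : Fin m, pderiv j.succ) (fun j => pderiv j.succ)

theorem derivation_sum_apply {R : Type*} [CommRing R] [Algebra ℂ R] {κ : Type*} (s : Finset κ)
    (D : κ → Derivation ℂ R R) (f : R) : (∑ a ∈ s, D a) f = ∑ a ∈ s, D a f := by
  classical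
  induction s using Finset.induction_on with
  | empty => simp
  | insert a s ha ih => simp [Finset.sum_insert ha, ih]

theorem DD_zero (m : ℕ) (f : PR m) :
    DD m 0 f = X 0 * pderiv 0 f + ∑ j : Fin m, pderiv j.succ f := by
  simp [DD, derivation_sum_apply]

theorem DD_succ (m : ℕ) (j : Fin m) : DD m j.succ = pderiv j.succ := by
  simp [DD]

/-- The constant of the product theorem. -/
noncomputable def Gam (m : ℕ) (Θ ε : ℝ) : ℝ :=
  ((m + 1).factorial : ℝ) * (Θ * (m + 1) / ε) ^ (m + 1)

/-- Truncated logarithm `∑_{1 ≤ i ≤ n} (-1)^(i+1) y^i / i` in the variable `0`. -/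
noncomputable def lg (m n : ℕ) : PR m :=
  ∑ i ∈ Finset.range (n + 1), C ((-1) ^ (i + 1) / (i : ℂ)) * X 0 ^ i

/-- Local coordinates at the point `(1, c)` : `y = 1 + u`, `x_j = c_j + w_j + lg (n j) (u)`. -/
noncomputable def psi {m : ℕ} (c : Fin m → ℂ) (n : Fin m → ℕ) : PR m →ₐ[ℂ] PR m :=
  aeval (Fin.cons (1 + X 0) (fun j => C (c j) + X j.succ + lg m (n j)))

/-- The auxiliary polynomial `∑ c_e ∏ (Q_j x_j)^{e_j} y^{e_0}`. -/
noncomputable def auxP {m : ℕ} (E : Finset (Fin (m + 1) →₀ ℕ)) (c : (Fin (m + 1) →₀ ℕ) → ℤ)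
    (Q : Fin m → ℕ) : PR m :=
  ∑ e ∈ E, monomial e ((c e : ℂ) * ∏ j : Fin m, (Q j : ℂ) ^ e j.succ)

/-- The entire function `P (e^z, z + ω₁, …, z + ω_m)`. -/
noncomputable def auxF {m : ℕ} (P : PR m) (z : ℂ) (ω : Fin m → ℂ) : ℂ :=
  eval (Fin.cons (Complex.exp z) (fun j => z + ω j)) P

end Crest.Agent.R11
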