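/-
R11: a Hilbert function inequality by Noetherian induction (this replaces intersection theory).
-/
import Crest.Agent.R11.Defs

set_option autoImplicit false

namespace Crest.Agent.R11

universe u v

section aux

variable {D : Type u} [CommRing D] [IsDomain D]

theorem abs_exact_le {A B C : Type v} [AddCommGroup A] [AddCommGroup B] [AddCommGroup C]
    [Module D A] [Module D B] [Module D C] (φ : A →ₗ[D] B) (ψ : B →ₗ[D] C)
    (h : LinearMap.ker ψ ≤ LinearMap.range φ) :
    Module.rank D B ≤ Module.rank D A + Module.rank D C := by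
  rw [← ψ.rank_range_add_rank_ker, add_comm]
  exact add_le_add ((Submodule.rank_mono h).trans (rank_range_le φ)) (Submodule.rank_le _)

theorem abs_le_exact {A B C : Type v} [AddCommGroup A] [AddCommGroup B] [AddCommGroup C]
    [Module D A] [Module D B] [Module D C] (φ : A →ₗ[D] B) (ψ : B →ₗ[D] C)
    (hφ : Function.Injective φ) (hψ : Function.Surjective ψ) (h : ∀ x, ψ (φ x) = 0) :
    Module.rank D A + Module.rank D C ≤ Module.rank D B := by
  rw [← ψ.rank_range_add_rank_ker, add_comm, rank_range_of_surjective ψ hψ]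
  refine add_le_add le_rfl ?_
  exact (φ.codRestrict (LinearMap.ker ψ) h).rank_le_of_injective
    fun x y hxy => hφ (congrArg Subtype.val hxy)

theorem abs_rank_le_of_torsion {A : Type v} [AddCommGroup A] [Module D A] (W : Submodule D A)
    (h : ∀ x, ∃ a : D, a ≠ 0 ∧ a • x ∈ W) : Module.rank D A ≤ Module.rank D W := by
  have h0 : Module.rank D (A ⧸ W) = 0 := by
    rw [rank_eq_zero_iff]
    intro x
    obtain ⟨x, rfl⟩ := W.mkQ_surjective x
    obtain ⟨a, ha, hx⟩ := h x
    exact ⟨a, ha, by rw [← map_smul, Submodule.mkQ_apply, Submodule.Quotient.mk_eq_zero]; exact hx⟩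
  rw [← W.rank_quotient_add_rank, h0, zero_add]

/-- a finitely generated algebraic algebra is torsion modulo a finitely generated submodule -/
theorem abs_alg {A : Type v} [CommRing A] [Algebra D A] [Algebra.FiniteType D A]
    [Algebra.IsAlgebraic D A] :
    ∃ T : Finset A, ∀ x : A, ∃ a : D, a ≠ 0 ∧ a • x ∈ Submodule.span D (T : Set A) := by
  classical
  obtain ⟨s, hs⟩ := Algebra.FiniteType.out (R := D) (A := A)
  obtain ⟨y, hy, hint⟩ := Algebra.IsAlgebraic.exists_integral_multiples D s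
  obtain ⟨T, hT⟩ := fg_adjoin_of_finite (R := D) (s := ((s.image fun z => y • z : Finset A) : Set A))
    (Finset.finite_toSet _) (by
      intro x hx
      obtain ⟨z, hz, rfl⟩ := Finset.mem_image.1 (Finset.mem_coe.1 hx)
      exact hint z hz)
  refine ⟨T, fun x => ?_⟩
  rw [hT]
  have hx : x ∈ Algebra.adjoin D (s : Set A) := hs ▸ Algebra.mem_top
  simp only [Subalgebra.mem_toSubmodule]
  induction hx using Algebra.adjoin_induction with
  | mem z hz =>
    exact ⟨y, hy, Algebra.subset_adjoin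
      (Finset.mem_coe.2 (Finset.mem_image_of_mem _ (Finset.mem_coe.1 hz)))⟩
  | algebraMap r => exact ⟨1, one_ne_zero, by rw [one_smul]; exact Subalgebra.algebraMap_mem _ r⟩
  | add x z _ _ hx hz =>
    obtain ⟨a, ha, hx⟩ := hx
    obtain ⟨b, hb, hz⟩ := hz
    refine ⟨a * b, mul_ne_zero ha hb, ?_⟩
    rw [smul_add]
    refine add_mem ?_ ?_
    · rw [mul_comm, mul_smul]; exact Subalgebra.smul_mem _ hx _
    · rw [mul_smul]; exact Subalgebra.smul_mem _ hz _
  | mul x z _ _ hx hz =>
    obtain ⟨a, ha, hx⟩ := hx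
    obtain ⟨b, hb, hz⟩ := hz
    refine ⟨a * b, mul_ne_zero ha hb, ?_⟩
    rw [← smul_mul_smul_comm]
    exact mul_mem hx hz

variable {R : Type v} [CommRing R] [Algebra D R]

/-- the quotient map as a `D`-linear map -/
noncomputable def absMk (D : Type u) [CommRing D] [Algebra D R] (J : Ideal R) : R →ₗ[D] R ⧸ J :=
  (Ideal.Quotient.mkₐ D J).toLinearMap

/-- multiplication by `f` between quotients -/
noncomputable def absMul (D : Type u) [CommRing D] [Algebra D R] (f : R) (K' K : Ideal R)
    (h : ∀ x ∈ K', f * x ∈ K) : (R ⧸ K') →ₗ[D] R ⧸ K :=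
  (Submodule.mapQ K' K (LinearMap.mulLeft R f) fun x hx => h x hx).restrictScalars D

omit [IsDomain D] in
theorem absMk_apply (J : Ideal R) (x : R) : absMk D J x = Ideal.Quotient.mk J x := rfl

omit [IsDomain D] in
theorem absMul_mk (f : R) (K' K : Ideal R) (h : ∀ x ∈ K', f * x ∈ K) (x : R) :
    absMul D f K' K h (Ideal.Quotient.mk K' x) = Ideal.Quotient.mk K (f * x) := rfl

theorem abs_A (f : R) (K' K L : Ideal R) (h1 : ∀ x ∈ K', f * x ∈ K) (h2 : K ≤ L)
    (h3 : ∀ x ∈ L, ∃ y, x - f * y ∈ K) :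
    Module.rank D (R ⧸ K) ≤ Module.rank D (R ⧸ K') + Module.rank D (R ⧸ L) := by
  refine abs_exact_le (absMul D f K' K h1)
    (absMul D 1 K L fun x hx => by rw [one_mul]; exact h2 hx) fun x hx => ?_
  obtain ⟨x, rfl⟩ := Ideal.Quotient.mk_surjective x
  rw [LinearMap.mem_ker, absMul_mk, one_mul, Ideal.Quotient.eq_zero_iff_mem] at hx
  obtain ⟨y, hy⟩ := h3 x hx
  refine ⟨Ideal.Quotient.mk K' y, ?_⟩
  rw [absMul_mk, eq_comm, Ideal.Quotient.eq]
  exact hy

theorem abs_B (f : R) (J' J L : Ideal R) (U W : Submodule D R) (h1 : ∀ x, f * x ∈ J ↔ x ∈ J')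
    (h2 : J ≤ L) (hf : f ∈ L) (hUW : ∀ x ∈ U, f * x ∈ W) :
    Module.rank D (U.map (absMk D J')) + Module.rank D (W.map (absMk D L)) ≤
      Module.rank D (W.map (absMk D J)) := by
  refine abs_le_exact
    ((absMul D f J' J fun x hx => (h1 x).2 hx).restrict (p := U.map (absMk D J'))
      (q := W.map (absMk D J)) ?_)
    ((absMul D 1 J L fun x hx => by rw [one_mul]; exact h2 hx).restrict
      (p := W.map (absMk D J)) (q := W.map (absMk D L)) ?_) ?_ ?_ ?_
  · rintro _ ⟨x, hx, rfl⟩
    exact ⟨f * x, hUW x hx, rfl⟩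
  · rintro _ ⟨x, hx, rfl⟩
    exact ⟨x, hx, by rw [absMk_apply, absMk_apply, absMul_mk, one_mul]⟩
  · rw [injective_iff_map_eq_zero]
    rintro ⟨_, x, hx, rfl⟩ h
    have h' : Ideal.Quotient.mk J (f * x) = 0 := congrArg Subtype.val h
    rw [Ideal.Quotient.eq_zero_iff_mem, h1] at h'
    exact Subtype.ext (Ideal.Quotient.eq_zero_iff_mem.2 h')
  · rintro ⟨_, x, hx, rfl⟩
    refine ⟨⟨absMk D J x, x, hx, rfl⟩, Subtype.ext ?_⟩
    show Ideal.Quotient.mk L (1 * x) = Ideal.Quotient.mk L x
    rw [one_mul]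
  · rintro ⟨_, x, hx, rfl⟩
    refine Subtype.ext ?_
    show Ideal.Quotient.mk L (1 * (f * x)) = 0
    rw [one_mul, Ideal.Quotient.eq_zero_iff_mem]
    exact L.mul_mem_right x hf

theorem abs_rank_zero (K : Ideal R) {a : D} (ha : a ≠ 0) (h : algebraMap D R a ∈ K) :
    Module.rank D (R ⧸ K) = 0 := by
  rw [rank_eq_zero_iff]
  intro x
  obtain ⟨x, rfl⟩ := Ideal.Quotient.mk_surjective x
  refine ⟨a, ha, ?_⟩
  rw [← absMk_apply (D := D), ← map_smul, absMk_apply, Ideal.Quotient.eq_zero_iff_mem,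
    Algebra.smul_def]
  exact K.mul_mem_right x h

theorem abs_A' (f : R) (J' J I' I : Ideal R) (h1 : ∀ x ∈ J', f * x ∈ J)
    (h2 : ∀ x ∈ I', f * x ∈ J ⊔ I) :
    Module.rank D (R ⧸ (J ⊔ I)) ≤
      Module.rank D (R ⧸ (J' ⊔ I')) + Module.rank D (R ⧸ ((J ⊔ Ideal.span {f}) ⊔ I)) := by
  refine abs_A f _ _ _ (fun x hx => ?_) (sup_le_sup_right le_sup_left _) fun x hx => ?_
  · obtain ⟨y, hy, z, hz, rfl⟩ := Submodule.mem_sup.1 hx
    rw [mul_add]
    exact add_mem (Ideal.mem_sup_left (h1 y hy)) (h2 z hz)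
  · obtain ⟨y, hy, z, hz, rfl⟩ := Submodule.mem_sup.1 hx
    obtain ⟨y₁, hy₁, y₂, hy₂, rfl⟩ := Submodule.mem_sup.1 hy
    obtain ⟨c, rfl⟩ := Ideal.mem_span_singleton'.1 hy₂
    refine ⟨c, ?_⟩
    rw [show y₁ + c * f + z - f * c = y₁ + z by ring]
    exact add_mem (Ideal.mem_sup_left hy₁) (Ideal.mem_sup_right hz)

omit [IsDomain D] in
theorem abs_lt_sup {J : Ideal R} {f : R} (hf : f ∉ J) : J < J ⊔ Ideal.span {f} :=
  lt_of_le_of_ne le_sup_left fun h => hf (h ▸ Ideal.mem_sup_right (Ideal.mem_span_singleton_self f))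

end aux

/-- `F` is an exhaustive multiplicative filtration of `R` by `D`-submodules, `I n` are ideals, trivial for
`n ≤ 0`.  Every prime `p` is of one of three kinds.  Then `rank R/I n ≤ rank F (n + C)`.

Proof.  Put `ℓ(J,n) = rank_D R/(J ⊔ I n)` and `h(J,N) = rank_D (image of F N in R/J)` (monotone in `N`).
Show by Noetherian induction on the ideal `J` (`WellFoundedGT`, all larger ideals known) that
`∃ C ≥ 0, ∀ n, ℓ(J,n) ≤ h(J,n+C)`; for `J = ⊥` this is the claim.  Two inequalities
(`IsDomain.hasRankNullity`, `LinearMap.rank_range_add_rank_ker` / `rank_quotient_add_rank`):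
* (A) if `f * J' ⊆ J` and `f * I n' ⊆ J ⊔ I n` then `ℓ(J,n) ≤ ℓ(J',n') + ℓ(J ⊔ (f), n)`: the kernel of the
  surjection `R/(J ⊔ I n) → R/(J ⊔ (f) ⊔ I n)` is the image of multiplication by `f` from `R/(J' ⊔ I n')`;
* (B) if `f ∈ F b` then `h((J:f),N) + h(J ⊔ (f),N+b) ≤ h(J,N+b)`: multiplication by `f` embeds the image
  of `F N` in `R/(J:f)` into the kernel of the surjection (image of `F (N+b)` in `R/J`) → (image in
  `R/(J ⊔ (f))`).
Cases: `J = ⊤` trivial.  `J` not prime: `f g ∈ J`, `f, g ∉ J`; `(J:f) ∋ g` and `J ⊔ (f)` are larger; use (A)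
with `J' = (J:f)`, `n' = n`, and (B), monotonicity.  `J = p` prime: kind 1: `R/(p ⊔ I n)` is killed by `a ≠ 0`,
so has rank `0` (`rank_eq_zero_iff`).  Kind 2: `R/p` is algebraic and of finite type over `D`, so it has finite
rank (e.g. some `a ≠ 0` in `D` makes `a • generators` integral; or localise at `Frac D`), a maximal independent
family is finite and lies in the image of one `F C`; for `n ≤ 0`, `ℓ = 0`, for `n > 0` use monotonicity.
Kind 3: `(p:Q) = p`; (A) with `J' = p`, `n' = n - b`, (B), and induction on `⌈n/b⌉₊` with the constant of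
`p ⊔ (Q)`. -/
theorem abstract_bound {D : Type u} {R : Type v} [CommRing D] [IsDomain D] [CommRing R] [Algebra D R]
    [IsNoetherianRing R] [Algebra.FiniteType D R]
    (F : ℝ → Submodule D R) (hmono : Monotone F)
    (hmul : ∀ a b : ℝ, ∀ f ∈ F a, ∀ g ∈ F b, f * g ∈ F (a + b))
    (hex : ∀ f : R, ∃ b, f ∈ F b)
    (I : ℝ → Ideal R) (hI : ∀ n ≤ 0, I n = ⊤)
    (hp : ∀ p : Ideal R, p.IsPrime →
      (∀ n, ∃ a : D, a ≠ 0 ∧ algebraMap D R a ∈ p ⊔ I n) ∨
      Algebra.IsAlgebraic D (R ⧸ p) ∨
      (∃ Q, Q ∉ p ∧ ∃ b : ℝ, 0 < b ∧ Q ∈ F b ∧ ∀ n, ∀ f ∈ I (n - b), Q * f ∈ p ⊔ I n)) :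
    ∃ C : ℝ, 0 ≤ C ∧ ∀ n, Module.rank D (R ⧸ I n) ≤ Module.rank D (F (n + C)) := by
  have hm : ∀ (J : Ideal R) {a b : ℝ}, a ≤ b →
      Module.rank D ((F a).map (absMk D J)) ≤ Module.rank D ((F b).map (absMk D J)) :=
    fun J a b h => Submodule.rank_mono (Submodule.map_mono (hmono h))
  have h0 : ∀ (J : Ideal R) (n : ℝ), n ≤ 0 → Module.rank D (R ⧸ (J ⊔ I n)) = 0 := fun J n hn =>
    abs_rank_zero _ (one_ne_zero (α := D)) (Ideal.mem_sup_right (hI n hn ▸ Submodule.mem_top))
  have key : ∀ J : Ideal R, ∃ C : ℝ, 0 ≤ C ∧ ∀ n,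
      Module.rank D (R ⧸ (J ⊔ I n)) ≤ Module.rank D ((F (n + C)).map (absMk D J)) := by
    intro J
    induction J using WellFoundedGT.induction with
    | ind J ih =>
      by_cases hJ : J.IsPrime
      · rcases hp J hJ with h | h | ⟨Q, hQ, b, hb, hQF, hQI⟩
        · refine ⟨0, le_rfl, fun n => ?_⟩
          obtain ⟨a, ha, haJ⟩ := h n
          rw [abs_rank_zero _ ha haJ]
          exact zero_le
        · obtain ⟨T, hT⟩ := abs_alg (D := D) (A := R ⧸ J)
          have hC : ∀ T : Finset (R ⧸ J), ∃ C : ℝ, 0 ≤ C ∧ ∀ t ∈ T, t ∈ (F C).map (absMk D J) := by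
            classical
            intro T
            induction T using Finset.induction_on with
            | empty => exact ⟨0, le_rfl, by simp⟩
            | insert t T _ ihT =>
              obtain ⟨C, hC0, hC⟩ := ihT
              obtain ⟨x, rfl⟩ := Ideal.Quotient.mk_surjective t
              obtain ⟨b, hb⟩ := hex x
              refine ⟨max C b, le_max_of_le_left hC0, fun t ht => ?_⟩
              rcases Finset.mem_insert.1 ht with rfl | ht
              · exact ⟨x, hmono (le_max_right C b) hb, rfl⟩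
              · exact Submodule.map_mono (hmono (le_max_left C b)) (hC t ht)
          obtain ⟨C, hC0, hC⟩ := hC T
          refine ⟨C, hC0, fun n => ?_⟩
          rcases le_total n 0 with hn | hn
          · rw [h0 J n hn]; exact zero_le
          · have e1 : Module.rank D (R ⧸ (J ⊔ I n)) ≤ Module.rank D (R ⧸ J) := by
              refine (absMul D 1 J (J ⊔ I n) fun x hx => ?_).rank_le_of_surjective fun x => ?_
              · rw [one_mul]; exact Ideal.mem_sup_left hx
              · obtain ⟨x, rfl⟩ := Ideal.Quotient.mk_surjective x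
                exact ⟨Ideal.Quotient.mk J x, by rw [absMul_mk, one_mul]⟩
            refine e1.trans ((abs_rank_le_of_torsion ((F C).map (absMk D J)) fun x => ?_).trans
              (hm J (by linarith)))
            obtain ⟨a, ha, hx⟩ := hT x
            exact ⟨a, ha, Submodule.span_le.2 (fun t ht => hC t ht) hx⟩
        · obtain ⟨C, hC0, hC⟩ := ih _ (abs_lt_sup hQ)
          have hk : ∀ k : ℕ, ∀ n, n ≤ k * b →
              Module.rank D (R ⧸ (J ⊔ I n)) ≤ Module.rank D ((F (n + C)).map (absMk D J)) := by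
            intro k
            induction k with
            | zero =>
              intro n hn
              rw [h0 J n (by simpa using hn)]; exact zero_le
            | succ k ihk =>
              intro n hn
              refine (abs_A' (D := D) Q J J (I (n - b)) (I n) (fun x hx => J.mul_mem_left Q hx)
                (hQI n)).trans ?_
              refine (add_le_add (ihk (n - b) (by push_cast at hn; linarith)) (hC n)).trans ?_
              refine abs_B Q J J _ _ _ (fun x => ⟨fun hx => (hJ.mem_or_mem hx).resolve_left hQ,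
                fun hx => J.mul_mem_left Q hx⟩) le_sup_left
                (Ideal.mem_sup_right (Ideal.mem_span_singleton_self Q)) fun x hx => ?_
              have := hmul _ _ Q hQF x hx
              rwa [show b + (n - b + C) = n + C by ring] at this
          refine ⟨C, hC0, fun n => ?_⟩
          obtain ⟨k, hk'⟩ := exists_nat_ge (n / b)
          exact hk k n (by rwa [div_le_iff₀ hb] at hk')
      · rcases Ideal.not_isPrime_iff.1 hJ with rfl | ⟨f, hf, g, hg, hfg⟩
        · refine ⟨0, le_rfl, fun n => ?_⟩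
          rw [abs_rank_zero _ (one_ne_zero (α := D)) (Ideal.mem_sup_left Submodule.mem_top)]
          exact zero_le
        · let J' : Ideal R := Submodule.comap (LinearMap.mulLeft R f) J
          have hJ' : ∀ x, f * x ∈ J ↔ x ∈ J' := fun x => Iff.rfl
          have hlt : J < J' := lt_of_le_of_ne (fun x hx => (hJ' x).1 (J.mul_mem_left f hx))
            fun h => hg (h ▸ (hJ' g).1 hfg)
          obtain ⟨C₁, hC₁, h₁⟩ := ih _ hlt
          obtain ⟨C₂, hC₂, h₂⟩ := ih _ (abs_lt_sup hf)
          obtain ⟨b, hb⟩ := hex f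
          have hb1 := le_abs_self b
          have hb2 := abs_nonneg b
          refine ⟨C₁ + C₂ + |b|, by linarith, fun n => ?_⟩
          refine (abs_A' (D := D) f J' J (I n) (I n) (fun x hx => (hJ' x).2 hx)
            (fun x hx => Ideal.mem_sup_right ((I n).mul_mem_left f hx))).trans ?_
          refine (add_le_add ((h₁ n).trans (hm J' (b := n + (C₁ + C₂ + |b|) - b) (by linarith)))
            ((h₂ n).trans (hm _ (b := n + (C₁ + C₂ + |b|)) (by linarith)))).trans ?_
          refine abs_B f J' J _ _ _ hJ' le_sup_left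
            (Ideal.mem_sup_right (Ideal.mem_span_singleton_self f)) fun x hx => ?_
          have := hmul _ _ f hb x hx
          rwa [add_sub_cancel] at this
  obtain ⟨C, hC0, hC⟩ := key ⊥
  refine ⟨C, hC0, fun n => ?_⟩
  have := hC n
  rw [bot_sup_eq] at this
  exact this.trans (rank_map_le _ _)

end Crest.Agent.R11
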