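/-
R11: lattice points in simplices and boxes, and a limit lemma.
-/
import Crest.Agent.R11.Defs

set_option autoImplicit false

namespace Crest.Agent.R11

theorem cnt_pow_sub {y z : ℝ} (hz : 0 ≤ z) (hzy : z ≤ y) (m : ℕ) :
    (m + 1) * (y - z) * z ^ m ≤ y ^ (m + 1) - z ^ (m + 1) ∧
      y ^ (m + 1) - z ^ (m + 1) ≤ (m + 1) * (y - z) * y ^ m := by
  induction m with
  | zero => simp
  | succ m ih =>
    obtain ⟨h1, h2⟩ := ih
    have hy : 0 ≤ y := hz.trans hzy
    have hd : 0 ≤ y - z := sub_nonneg.2 hzy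
    have e : y ^ (m + 1 + 1) - z ^ (m + 1 + 1) =
        y * (y ^ (m + 1) - z ^ (m + 1)) + (y - z) * z ^ (m + 1) := by ring
    have h3 : z ^ (m + 1) ≤ y ^ (m + 1) := pow_le_pow_left₀ hz hzy _
    have h4 : z * ((m + 1) * (y - z) * z ^ m) ≤ y * (y ^ (m + 1) - z ^ (m + 1)) :=
      mul_le_mul hzy h1 (by positivity) hy
    have h5 := mul_le_mul_of_nonneg_left h2 hy
    have h6 := mul_le_mul_of_nonneg_left h3 hd
    rw [e]
    push_cast
    constructor
    · calc ((m : ℝ) + 1 + 1) * (y - z) * z ^ (m + 1)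
          = z * ((m + 1) * (y - z) * z ^ m) + (y - z) * z ^ (m + 1) := by ring
        _ ≤ _ := by linarith
    · calc _ ≤ y * ((m + 1) * (y - z) * y ^ m) + (y - z) * y ^ (m + 1) := by linarith
        _ = _ := by ring

theorem cnt_slice_upper {m : ℕ} (E : Finset (Fin (m + 1) →₀ ℕ)) (K : ℕ) (hK : ∀ e ∈ E, e 0 < K)
    (b : ℕ → ℝ) (h : ∀ k < K, ∀ E' : Finset (Fin m →₀ ℕ),
      (∀ e ∈ E', Finsupp.cons k e ∈ E) → (E'.card : ℝ) ≤ b k) :
    (E.card : ℝ) ≤ ∑ k ∈ Finset.range K, b k := by
  classical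
  rw [Finset.card_eq_sum_card_fiberwise (f := fun e : Fin (m + 1) →₀ ℕ => e 0)
    (t := Finset.range K) fun e he => Finset.mem_coe.2 (Finset.mem_range.2 (hK e he))]
  push_cast
  refine Finset.sum_le_sum fun k hk => ?_
  have h1 : ((E.filter fun e => e 0 = k).image Finsupp.tail).card =
      (E.filter fun e => e 0 = k).card := by
    refine Finset.card_image_of_injOn fun e he e' he' hee => ?_
    rw [← Finsupp.cons_tail e, ← Finsupp.cons_tail e', hee, (Finset.mem_filter.1 he).2,
      (Finset.mem_filter.1 he').2]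
  rw [← h1]
  refine h k (Finset.mem_range.1 hk) _ fun e he => ?_
  obtain ⟨e', he', rfl⟩ := Finset.mem_image.1 he
  rw [← (Finset.mem_filter.1 he').2, Finsupp.cons_tail]
  exact (Finset.mem_filter.1 he').1

theorem cnt_slice_lower {m : ℕ} (K : ℕ) (F : ℕ → Finset (Fin m →₀ ℕ)) :
    ∃ E : Finset (Fin (m + 1) →₀ ℕ), (∀ e ∈ E, e 0 < K ∧ e.tail ∈ F (e 0)) ∧
      E.card = ∑ k ∈ Finset.range K, (F k).card := by
  classical
  refine ⟨((Finset.range K).sigma F).image fun p => Finsupp.cons p.1 p.2, ?_, ?_⟩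
  · intro e he
    obtain ⟨p, hp, rfl⟩ := Finset.mem_image.1 he
    simpa using hp
  · rw [Finset.card_image_of_injective, Finset.card_sigma]
    rintro ⟨k, e⟩ ⟨k', e'⟩ h
    have h1 : k = k' := by simpa using congrArg (fun f : Fin (m + 1) →₀ ℕ => f 0) h
    have h2 : e = e' := by simpa using congrArg Finsupp.tail h
    rw [h1, h2]

theorem cnt_upper_fin : ∀ (m : ℕ) (w : Fin m → ℝ) (_ : ∀ i, 0 < w i) (X : ℝ) (_ : 0 ≤ X)
    (E : Finset (Fin m →₀ ℕ)) (_ : ∀ e ∈ E, ∑ i, (e i : ℝ) * w i ≤ X),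
    (E.card : ℝ) ≤ (X + ∑ i, w i) ^ m / (m.factorial * ∏ i, w i)
  | 0, w, _, X, _, E, _ => by
      have : E.card ≤ 1 := Finset.card_le_one.2 fun a _ b _ => Subsingleton.elim a b
      simpa using this
  | m + 1, w, hw, X, hX, E, hE => by
      have hw0 := hw 0
      have hP : 0 < ∏ j : Fin m, w j.succ := Finset.prod_pos fun j _ => hw _
      have hS : 0 ≤ ∑ j : Fin m, w j.succ := Finset.sum_nonneg fun j _ => (hw _).le
      have hk : ∀ k : ℕ, k < ⌊X / w 0⌋₊ + 1 → 0 ≤ X - k * w 0 := by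
        intro k hk
        have h1 : (k : ℝ) ≤ X / w 0 := (Nat.le_floor_iff (by positivity)).1 (Nat.le_of_lt_succ hk)
        rw [le_div_iff₀ hw0] at h1
        linarith
      have h := cnt_slice_upper E (⌊X / w 0⌋₊ + 1) (fun e he => by
          refine Nat.lt_succ_of_le (Nat.le_floor ?_)
          have h1 := hE e he
          rw [Fin.sum_univ_succ] at h1
          have h2 : 0 ≤ ∑ j : Fin m, (e j.succ : ℝ) * w j.succ :=
            Finset.sum_nonneg fun j _ => mul_nonneg (Nat.cast_nonneg _) (hw _).le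
          rw [le_div_iff₀ hw0]
          linarith)
        (fun k => (X - k * w 0 + ∑ j : Fin m, w j.succ) ^ m /
          (m.factorial * ∏ j : Fin m, w j.succ))
        (fun k hk' E' hE' => cnt_upper_fin m (fun j => w j.succ) (fun j => hw _) _ (hk k hk') E'
          fun e he => by
            have h1 := hE _ (hE' e he)
            rw [Fin.sum_univ_succ] at h1
            simp only [Finsupp.cons_zero, Finsupp.cons_succ] at h1
            linarith)
      refine h.trans ?_
      set S := ∑ j : Fin m, w j.succ with hSd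
      set P := ∏ j : Fin m, w j.succ with hPd
      set K := ⌊X / w 0⌋₊ with hK
      have htel := Finset.sum_range_sub' (fun k : ℕ => (X - k * w 0 + S + w 0) ^ (m + 1)) (K + 1)
      have hle : (m + 1) * w 0 * ∑ k ∈ Finset.range (K + 1), (X - k * w 0 + S) ^ m ≤
          (X + (w 0 + S)) ^ (m + 1) := by
        rw [Finset.mul_sum]
        refine le_trans (Finset.sum_le_sum fun k hk' => ?_) (htel.le.trans ?_)
        · have h1 := hk k (Finset.mem_range.1 hk')
          have h2 := (cnt_pow_sub (y := X - k * w 0 + S + w 0) (z := X - k * w 0 + S)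
            (by linarith) (by linarith) m).1
          have h3 : X - ((k + 1 : ℕ) : ℝ) * w 0 + S + w 0 = X - k * w 0 + S := by
            push_cast; ring
          rw [h3]
          rwa [add_sub_cancel_left] at h2
        · have h1 := hk K (Nat.lt_succ_self K)
          have h3 : X - ((K + 1 : ℕ) : ℝ) * w 0 + S + w 0 = X - K * w 0 + S := by
            push_cast; ring
          have h4 : X - ((0 : ℕ) : ℝ) * w 0 + S + w 0 = X + (w 0 + S) := by
            push_cast; ring
          rw [h3, h4]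
          have : 0 ≤ (X - K * w 0 + S) ^ (m + 1) := by positivity
          linarith
      rw [← Finset.sum_div, Fin.sum_univ_succ, Fin.prod_univ_succ, Nat.factorial_succ,
        div_le_div_iff₀ (by positivity) (by positivity)]
      push_cast
      calc _ = ((m + 1) * w 0 * ∑ k ∈ Finset.range (K + 1), (X - k * w 0 + S) ^ m) *
            (m.factorial * P) := by ring
        _ ≤ _ := mul_le_mul_of_nonneg_right hle (by positivity)

theorem cnt_lower_fin : ∀ (m : ℕ) (w : Fin m → ℝ) (_ : ∀ i, 0 < w i) (X : ℝ) (_ : 0 < X),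
    ∃ E : Finset (Fin m →₀ ℕ), (∀ e ∈ E, ∑ i, (e i : ℝ) * w i < X) ∧
      X ^ m / (m.factorial * ∏ i, w i) ≤ E.card
  | 0, w, _, X, hX => ⟨{0}, by simpa using hX, by simp⟩
  | m + 1, w, hw, X, hX => by
      have hw0 := hw 0
      have hP : 0 < ∏ j : Fin m, w j.succ := Finset.prod_pos fun j _ => hw _
      have hk : ∀ k : ℕ, k < ⌈X / w 0⌉₊ → 0 < X - k * w 0 := by
        intro k hk
        have h1 : (k : ℝ) < X / w 0 := Nat.lt_ceil.1 hk
        rw [lt_div_iff₀ hw0] at h1
        linarith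
      have hF : ∀ k : ℕ, ∃ F : Finset (Fin m →₀ ℕ), k < ⌈X / w 0⌉₊ →
          (∀ e ∈ F, ∑ j, (e j : ℝ) * w j.succ < X - k * w 0) ∧
          (X - k * w 0) ^ m / (m.factorial * ∏ j : Fin m, w j.succ) ≤ F.card := by
        intro k
        by_cases h : k < ⌈X / w 0⌉₊
        · obtain ⟨F, hF⟩ := cnt_lower_fin m (fun j => w j.succ) (fun j => hw _) _ (hk k h)
          exact ⟨F, fun _ => hF⟩
        · exact ⟨∅, fun h' => absurd h' h⟩
      choose F hF using hF
      obtain ⟨E, h1, h2⟩ := cnt_slice_lower ⌈X / w 0⌉₊ F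
      refine ⟨E, fun e he => ?_, ?_⟩
      · have h3 := (hF _ (h1 e he).1).1 _ (h1 e he).2
        simp only [Finsupp.tail_apply] at h3
        rw [Fin.sum_univ_succ]
        linarith
      · rw [h2]
        push_cast
        refine le_trans ?_ (Finset.sum_le_sum fun k hk' => (hF k (Finset.mem_range.1 hk')).2)
        set P := ∏ j : Fin m, w j.succ with hPd
        set K := ⌈X / w 0⌉₊ with hK
        have htel := Finset.sum_range_sub' (fun k : ℕ => (max (X - k * w 0) 0) ^ (m + 1)) K
        have hle : X ^ (m + 1) ≤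
            (m + 1) * w 0 * ∑ k ∈ Finset.range K, (X - k * w 0) ^ m := by
          rw [Finset.mul_sum]
          refine le_trans (le_trans (le_of_eq ?_) htel.ge) (Finset.sum_le_sum fun k hk' => ?_)
          · have h3 : X / w 0 ≤ K := Nat.le_ceil _
            rw [div_le_iff₀ hw0] at h3
            rw [max_eq_right (a := X - K * w 0) (by linarith)]
            simp [hX.le]
          · have h3 := hk k (Finset.mem_range.1 hk')
            have h4 : X - ((k + 1 : ℕ) : ℝ) * w 0 = X - k * w 0 - w 0 := by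
              push_cast; ring
            rw [max_eq_left h3.le, h4]
            have h5 := (cnt_pow_sub (y := X - k * w 0) (z := max (X - k * w 0 - w 0) 0)
              (le_max_right _ _) (max_le (by linarith) h3.le) m).2
            refine h5.trans (mul_le_mul_of_nonneg_right
              (mul_le_mul_of_nonneg_left ?_ (by positivity)) (by positivity))
            linarith [le_max_left (X - k * w 0 - w 0) 0]
        rw [← Finset.sum_div, Fin.prod_univ_succ, Nat.factorial_succ,
          div_le_div_iff₀ (by positivity) (by positivity)]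
        push_cast
        calc _ ≤ ((m + 1) * w 0 * ∑ k ∈ Finset.range K, (X - k * w 0) ^ m) *
              (m.factorial * P) := mul_le_mul_of_nonneg_right hle (by positivity)
          _ = _ := by ring

/-- Upper bound for the number of lattice points of a simplex.
Proof: reduce to `ι = Fin c` (or induct with `Fintype.induction_empty_option` / on a `Finset`), split off one
coordinate `k` of weight `w`, and telescope with `c * w * y^(c-1) ≤ (y+w)^c - y^c` for `y ≥ 0`.
(Alternatively: the unit boxes `e + [0,1)^ι` are disjoint and lie in the simplex of size `X + ∑ w`.) -/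
theorem count_upper {ι : Type*} [Fintype ι] (w : ι → ℝ) (hw : ∀ i, 0 < w i) (X : ℝ) (hX : 0 ≤ X)
    (E : Finset (ι →₀ ℕ)) (hE : ∀ e ∈ E, ∑ i, (e i : ℝ) * w i ≤ X) :
    (E.card : ℝ) ≤ (X + ∑ i, w i) ^ Fintype.card ι / ((Fintype.card ι).factorial * ∏ i, w i) := by
  set φ := Fintype.equivFin ι
  have h := cnt_upper_fin (Fintype.card ι) (fun j => w (φ.symm j)) (fun j => hw _) X hX
    (E.map (Finsupp.equivCongrLeft φ).toEmbedding) (by
      intro e he
      obtain ⟨e', he', rfl⟩ := Finset.mem_map.1 he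
      have := hE e' he'
      rw [← Equiv.sum_comp φ.symm] at this
      simpa using this)
  rwa [Finset.card_map, Equiv.sum_comp φ.symm w, Equiv.prod_comp φ.symm w] at h

/-- Lower bound for the number of lattice points of an open simplex.
Proof: induction as above with `y^c - (max (y-w) 0)^c ≤ c * w * y^(c-1)` for `y > 0`
(the slice `k` is used for all `k` with `X - k w > 0`). -/
theorem count_lower {ι : Type*} [Fintype ι] (w : ι → ℝ) (hw : ∀ i, 0 < w i) (X : ℝ) (hX : 0 < X) :
    ∃ E : Finset (ι →₀ ℕ), (∀ e ∈ E, ∑ i, (e i : ℝ) * w i < X) ∧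
      X ^ Fintype.card ι / ((Fintype.card ι).factorial * ∏ i, w i) ≤ E.card := by
  set φ := Fintype.equivFin ι
  obtain ⟨E, h1, h2⟩ := cnt_lower_fin (Fintype.card ι) (fun j => w (φ.symm j)) (fun j => hw _) X hX
  refine ⟨E.map (Finsupp.equivCongrLeft φ.symm).toEmbedding, ?_, ?_⟩
  · intro e he
    obtain ⟨e', he', rfl⟩ := Finset.mem_map.1 he
    have := h1 e' he'
    rw [← Equiv.sum_comp φ.symm]
    simpa using this
  · rwa [Finset.card_map, ← Equiv.prod_comp φ.symm w]

/-- Interval × simplex, upper bound (`Finsupp.tail`, `Finsupp.cons`). -/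
theorem count_mixed_upper (m : ℕ) (lam : Fin m → ℝ) (hlam : ∀ j, 0 < lam j) (A L : ℝ) (hA : 0 ≤ A)
    (hL : 0 ≤ L) (E : Finset (Fin (m + 1) →₀ ℕ))
    (hE : ∀ e ∈ E, (e 0 : ℝ) ≤ L ∧ ∑ j : Fin m, (e j.succ : ℝ) * lam j ≤ A) :
    (E.card : ℝ) ≤ (L + 1) * ((A + ∑ j, lam j) ^ m / (m.factorial * ∏ j, lam j)) := by
  have h := cnt_slice_upper E (⌊L⌋₊ + 1)
    (fun e he => Nat.lt_succ_of_le (Nat.le_floor (hE e he).1))
    (fun _ => (A + ∑ j, lam j) ^ m / (m.factorial * ∏ j, lam j)) (fun k _ E' hE' =>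
      cnt_upper_fin m lam hlam A hA E' fun e he => by simpa using (hE _ (hE' e he)).2)
  refine h.trans ?_
  rw [Finset.sum_const, Finset.card_range, nsmul_eq_mul]
  have h1 : 0 < ∏ j, lam j := Finset.prod_pos fun j _ => hlam j
  have h2 : 0 ≤ ∑ j, lam j := Finset.sum_nonneg fun j _ => (hlam j).le
  refine mul_le_mul_of_nonneg_right ?_ (by positivity)
  push_cast
  linarith [Nat.floor_le hL]

/-- Interval × simplex, lower bound (there are `⌊L⌋₊ + 1 ≥ L` choices of `e 0`). -/
theorem count_mixed_lower (m : ℕ) (lam : Fin m → ℝ) (hlam : ∀ j, 0 < lam j) (A L : ℝ) (hA : 0 < A)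
    (hL : 0 ≤ L) :
    ∃ E : Finset (Fin (m + 1) →₀ ℕ),
      (∀ e ∈ E, (e 0 : ℝ) ≤ L ∧ ∑ j : Fin m, (e j.succ : ℝ) * lam j ≤ A) ∧
      L * (A ^ m / (m.factorial * ∏ j, lam j)) ≤ E.card := by
  obtain ⟨F, h1, h2⟩ := cnt_lower_fin m lam hlam A hA
  obtain ⟨E, h3, h4⟩ := cnt_slice_lower (⌊L⌋₊ + 1) (fun _ => F)
  refine ⟨E, fun e he => ⟨?_, ?_⟩, ?_⟩
  · have h5 : e 0 ≤ ⌊L⌋₊ := Nat.le_of_lt_succ (h3 e he).1
    exact (Nat.le_floor_iff hL).1 h5
  · exact (h1 _ (h3 e he).2).le
  · rw [h4, Finset.sum_const, Finset.card_range, smul_eq_mul]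
    have h5 : 0 < ∏ j, lam j := Finset.prod_pos fun j _ => hlam j
    push_cast
    exact mul_le_mul (Nat.lt_floor_add_one L).le h2 (by positivity) (by positivity)

/-- Lattice points of a box in the coordinates `B`. -/
theorem count_box {σ : Type*} (B : Finset σ) (d : σ → ℝ) (hd : ∀ v, 0 ≤ d v)
    (E : Finset (σ →₀ ℕ)) (hE : ∀ e ∈ E, (∀ v ∈ B, (e v : ℝ) ≤ d v) ∧ ∀ v ∉ B, e v = 0) :
    (E.card : ℝ) ≤ ∏ v ∈ B, (d v + 1) := by
  classical
  have h1 : E ⊆ B.finsupp fun v => Finset.range (⌊d v⌋₊ + 1) := by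
    intro e he
    rw [Finset.mem_finsupp_iff]
    refine ⟨fun v hv => ?_, fun v hv => ?_⟩
    · by_contra h
      exact Finsupp.mem_support_iff.1 hv ((hE e he).2 v h)
    · exact Finset.mem_range.2 (Nat.lt_succ_of_le (Nat.le_floor ((hE e he).1 v hv)))
  have h2 := Finset.card_le_card h1
  rw [Finset.card_finsupp] at h2
  have h3 : (E.card : ℝ) ≤ ∏ v ∈ B, ((⌊d v⌋₊ : ℝ) + 1) := by
    simp only [Finset.card_range] at h2
    exact_mod_cast h2
  refine h3.trans (Finset.prod_le_prod (fun v _ => by positivity) fun v _ => ?_)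
  linarith [Nat.floor_le (hd v)]

/-- Exponent vectors with bounded coordinates form a finite set. -/
theorem finite_exps {σ : Type*} [Finite σ] (d : σ → ℝ) :
    {e : σ →₀ ℕ | ∀ v, (e v : ℝ) ≤ d v}.Finite := by
  classical
  have := Fintype.ofFinite σ
  refine (Finset.finite_toSet
    ((Finset.univ : Finset σ).finsupp fun v => Finset.range (⌊d v⌋₊ + 1))).subset ?_
  intro e he
  rw [Finset.mem_coe, Finset.mem_finsupp_iff]
  exact ⟨Finset.subset_univ _, fun v _ =>
    Finset.mem_range.2 (Nat.lt_succ_of_le (Nat.le_floor (he v)))⟩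

/-- Comparison of leading coefficients. -/
theorem le_of_forall_pow_le (α β C : ℝ) (c : ℕ)
    (h : ∀ n : ℝ, 0 < n → α * n ^ c ≤ β * (n + C) ^ c) : α ≤ β := by
  have h1 : Filter.Tendsto (fun n : ℝ => β * (1 + C * n⁻¹) ^ c) Filter.atTop
      (nhds (β * (1 + C * 0) ^ c)) :=
    (((tendsto_inv_atTop_zero.const_mul C).const_add 1).pow c).const_mul β
  rw [mul_zero, add_zero, one_pow, mul_one] at h1
  refine ge_of_tendsto h1 ?_
  filter_upwards [Filter.eventually_gt_atTop 0] with n hn
  have h2 : n + C = (1 + C * n⁻¹) * n := by field_simp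
  have h3 := h n hn
  rw [h2, mul_pow, ← mul_assoc] at h3
  exact le_of_mul_le_mul_right h3 (pow_pos hn c)

end Crest.Agent.R11
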