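/-
R11: the ideals `VI D w q n` and the rank of `R ⧸ VI` for a transversal family of derivations.
-/
import Crest.Agent.R11.Defs

set_option autoImplicit false

namespace Crest.Agent.R11

variable {R : Type*} [CommRing R] [Algebra ℂ R] {ι : Type*}

/-- Induction on `l` generalizing `f g n`: `D i (g * f) = g * D i f + f * D i g`. -/
theorem mem_VI {D : ι → Derivation ℂ R R} {w : ι → ℝ} (hw : ∀ i, 0 ≤ w i) {q : Ideal R} {n : ℝ}
    {f : R} : f ∈ VI D w q n ↔ ∀ l : List ι, wtL w l < n → iterD D l f ∈ q := by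
  refine ⟨fun h l hl => by simpa using h 1 l hl, fun h g l hl => ?_⟩
  induction l generalizing f g n with
  | nil => exact q.mul_mem_left g (h [] hl)
  | cons i l ih =>
    rw [wtL_cons] at hl
    rw [iterD_cons, Derivation.leibniz, iterD_add, smul_eq_mul, smul_eq_mul, mul_comm f]
    refine q.add_mem (ih (n := n - w i) (fun l' hl' => h (i :: l') ?_) g (by linarith))
      (ih h _ (by linarith [hw i]))
    rw [wtL_cons]
    linarith

theorem VI_eq_top (D : ι → Derivation ℂ R R) {w : ι → ℝ} (hw : ∀ i, 0 ≤ w i) (q : Ideal R) {n : ℝ}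
    (hn : n ≤ 0) : VI D w q n = ⊤ := by
  refine eq_top_iff.2 fun f _ g l hl => ?_
  exact absurd hl (not_lt.2 (hn.trans (wtL_nonneg hw l)))

theorem VI_anti (D : ι → Derivation ℂ R R) (w : ι → ℝ) (q : Ideal R) {a b : ℝ} (h : a ≤ b) :
    VI D w q b ≤ VI D w q a := by
  exact fun f hf g l hl => hf g l (hl.trans_le h)

theorem VI_le (D : ι → Derivation ℂ R R) (w : ι → ℝ) (q : Ideal R) {n : ℝ} (hn : 0 < n) :
    VI D w q n ≤ q := by
  intro f hf
  simpa using hf 1 [] hn

theorem iterD_mem_VI {D : ι → Derivation ℂ R R} {w : ι → ℝ} (hw : ∀ i, 0 ≤ w i) {q : Ideal R} {n : ℝ}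
    {f : R} (hf : f ∈ VI D w q n) (l : List ι) : iterD D l f ∈ VI D w q (n - wtL w l) := by
  rw [mem_VI hw] at hf ⊢
  intro l' hl'
  rw [← iterD_append]
  refine hf _ ?_
  rw [wtL_append]
  linarith

/-- Induction on the list generalizing `a b f g`; for the empty list `0 < a + b` gives `0 < a` or `0 < b`. -/
theorem mul_mem_VI {D : ι → Derivation ℂ R R} {w : ι → ℝ} (hw : ∀ i, 0 ≤ w i) {q : Ideal R} {a b : ℝ}
    {f g : R} (hf : f ∈ VI D w q a) (hg : g ∈ VI D w q b) : f * g ∈ VI D w q (a + b) := by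
  rw [mem_VI hw]
  intro l hl
  induction l generalizing a b f g with
  | nil =>
    rw [wtL_nil] at hl
    rcases lt_or_ge 0 a with ha | ha
    · exact q.mul_mem_right g (VI_le D w q ha hf)
    · exact q.mul_mem_left f (VI_le D w q (by linarith) hg)
  | cons i l ih =>
    rw [wtL_cons] at hl
    rw [iterD_cons, Derivation.leibniz, iterD_add, smul_eq_mul, smul_eq_mul]
    have h1 := iterD_mem_VI hw hf [i]
    have h2 := iterD_mem_VI hw hg [i]
    simp only [iterD_cons, iterD_nil, wtL_cons, wtL_nil, add_zero] at h1 h2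
    exact q.add_mem (ih hf h2 (by linarith)) (ih hg h1 (by linarith))

theorem pow_mem_VI {D : ι → Derivation ℂ R R} {w : ι → ℝ} (hw : ∀ i, 0 ≤ w i) {q : Ideal R} {a : ℝ}
    {f : R} (hf : f ∈ VI D w q a) (k : ℕ) : f ^ k ∈ VI D w q (k * a) := by
  induction k with
  | zero => rw [VI_eq_top D hw q (by simp)]; trivial
  | succ k ih =>
    rw [pow_succ, Nat.cast_succ, add_mul, one_mul]
    exact mul_mem_VI hw ih hf

theorem tr_le_VI (D : ι → Derivation ℂ R R) {w : ι → ℝ} (hw : ∀ i, 0 ≤ w i) {μ : ℝ}
    (hμ : ∀ i, μ ≤ w i) (q : Ideal R) : q ≤ VI D w q μ := by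
  intro f hf
  rw [mem_VI hw]
  intro l hl
  cases l with
  | nil => exact hf
  | cons i l =>
    rw [wtL_cons] at hl
    linarith [hμ i, wtL_nonneg hw l]

/-- `q ≤ VI μ` where `μ > 0` is a lower bound of the weights; so a power of any element of `q` is in `VI n`. -/
theorem exists_pow_mem_VI [Finite ι] (D : ι → Derivation ℂ R R) {w : ι → ℝ} (hw : ∀ i, 0 < w i)
    (q : Ideal R) (n : ℝ) : ∃ M : ℕ, ∀ f ∈ q, f ^ M ∈ VI D w q n := by
  obtain ⟨μ, hμ, hμw⟩ : ∃ μ : ℝ, 0 < μ ∧ ∀ i, μ ≤ w i := by
    rcases isEmpty_or_nonempty ι with h | h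
    · exact ⟨1, one_pos, fun i => isEmptyElim i⟩
    · obtain ⟨i, hi⟩ := Finite.exists_min w
      exact ⟨w i, hw i, hi⟩
  obtain ⟨M, hM⟩ := exists_nat_ge (n / μ)
  refine ⟨M, fun f hf => VI_anti D w q ((div_le_iff₀ hμ).1 hM) ?_⟩
  exact pow_mem_VI (fun i => (hw i).le) (tr_le_VI D (fun i => (hw i).le) hμw q hf) M

/-- If `p ⊔ q = ⊤`-type information: an element congruent to `a` modulo `p` lying in `q` gives `a^M ∈ p ⊔ VI`. -/
theorem exists_pow_mem_sup_VI [Finite ι] (D : ι → Derivation ℂ R R) {w : ι → ℝ} (hw : ∀ i, 0 < w i)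
    (p q : Ideal R) (n : ℝ) {a : R} (ha : a ∈ p ⊔ q) : ∃ M : ℕ, a ^ M ∈ p ⊔ VI D w q n := by
  obtain ⟨M, hM⟩ := exists_pow_mem_VI D hw q n
  obtain ⟨x, hx, y, hy, rfl⟩ := Submodule.mem_sup.1 ha
  refine ⟨M, Submodule.mem_sup.2 ⟨(x + y) ^ M - y ^ M, ?_, y ^ M, hM y hy, by ring⟩⟩
  refine Ideal.mem_of_dvd _ (sub_dvd_pow_sub_pow (x + y) y M) ?_
  simpa using hx

theorem tr_exists_weights [Fintype ι] (rk : ι → ℕ) : ∃ w' : ι → ℝ, (∀ i, 1 ≤ w' i) ∧
    (∀ i, w' i < 2) ∧ Function.Injective w' ∧ ∀ i l, rk i < rk l → w' i < w' l := by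
  let t := Fintype.equivFin ι
  let u : ι → ℕ := fun i => rk i * Fintype.card ι + t i
  have hu : ∀ i l, rk i < rk l → u i < u l := by
    intro i l h
    have h1 := (t i).2
    have h2 : (rk i + 1) * Fintype.card ι ≤ rk l * Fintype.card ι := Nat.mul_le_mul_right _ h
    simp only [u]
    nlinarith
  have hui : Function.Injective u := by
    intro i l h
    rcases lt_trichotomy (rk i) (rk l) with h1 | h1 | h1
    · exact absurd h (hu _ _ h1).ne
    · simp only [u, h1, add_right_inj] at h
      exact t.injective (Fin.ext h)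
    · exact absurd h (hu _ _ h1).ne'
  let B : ℝ := (Finset.univ.sup u : ℕ) + 1
  have hB : 0 < B := by positivity
  refine ⟨fun i => 1 + u i / B, fun i => ?_, fun i => ?_, fun i l h => ?_, fun i l h => ?_⟩
  · have : (0 : ℝ) ≤ u i / B := by positivity
    linarith
  · have h1 : u i ≤ Finset.univ.sup u := Finset.le_sup (Finset.mem_univ i)
    have h2 : (u i : ℝ) ≤ (Finset.univ.sup u : ℕ) := by exact_mod_cast h1
    have : (u i : ℝ) / B < 1 := by
      rw [div_lt_one hB]
      simp only [B]
      linarith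
    linarith
  · simp only [add_right_inj] at h
    have := (div_left_inj' hB.ne').1 h
    exact hui (by exact_mod_cast this)
  · have h1 : (u i : ℝ) < u l := by exact_mod_cast hu i l h
    have := div_lt_div_of_pos_right h1 hB
    linarith

theorem tr_wtL_eq (w : ι → ℝ) (l : List ι) : wtL w l = ((l : Multiset ι).map w).sum := by
  simp [wtL]

theorem tr_sum_count [Fintype ι] [DecidableEq ι] (w : ι → ℝ) (s : Multiset ι) :
    (s.map w).sum = ∑ i, (s.count i : ℝ) * w i := by
  induction s using Multiset.induction_on with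
  | empty => simp
  | cons a s ih =>
    simp only [Multiset.map_cons, Multiset.sum_cons, ih, Multiset.count_cons, Nat.cast_add,
      add_mul, Finset.sum_add_distrib]
    simp [add_comm]

section key

variable (q : Ideal R) (D : ι → Derivation ℂ R R) {w : ι → ℝ} (h1 : ∀ i, 1 ≤ w i)
  (h2 : ∀ i, w i < 2) (hinj : Function.Injective w) (f : ι → R) (hf : ∀ i, f i ∈ q)
  (hd : ∀ i, D i (f i) ∉ q) (ho : ∀ i l, w i < w l → D i (f l) ∈ q)

include h1 h2 hf ho in
theorem tr_f_mem (k : ι) : f k ∈ VI D w q (w k) := by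
  have hw : ∀ i, 0 ≤ w i := fun i => zero_le_one.trans (h1 i)
  rw [mem_VI hw]
  intro l hl
  match l, hl with
  | [], _ => exact hf k
  | [i], hl => exact ho i k (by simpa using hl)
  | i :: j :: l, hl =>
    simp only [wtL_cons] at hl
    linarith [h1 i, h1 j, h2 k, wtL_nonneg hw l]

include h1 h2 hf ho in
theorem tr_mon_mem (s : Multiset ι) : (s.map f).prod ∈ VI D w q (s.map w).sum := by
  have hw : ∀ i, 0 ≤ w i := fun i => zero_le_one.trans (h1 i)
  induction s using Multiset.induction_on with
  | empty => rw [VI_eq_top D hw q (by simp)]; trivial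
  | cons a s ih =>
    simp only [Multiset.map_cons, Multiset.sum_cons, Multiset.prod_cons]
    exact mul_mem_VI hw (tr_f_mem q D h1 h2 f hf ho a) ih

include h1 h2 hinj hf ho in
theorem tr_deriv [DecidableEq ι] (i : ι) (s : Multiset ι) :
    ∃ c : ℝ, (s.map w).sum - w i < c ∧
      D i (s.map f).prod - (s.count i : R) * D i (f i) * ((s.erase i).map f).prod ∈ VI D w q c := by
  have hw : ∀ i, 0 ≤ w i := fun i => zero_le_one.trans (h1 i)
  induction s using Multiset.induction_on with
  | empty => exact ⟨0, by simp; linarith [h1 i], by simp⟩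
  | cons k s ih =>
    obtain ⟨c, hc, hr⟩ := ih
    have hfr := mul_mem_VI hw (tr_f_mem q D h1 h2 f hf ho k) hr
    have hs := tr_mon_mem q D h1 h2 f hf ho s
    simp only [Multiset.map_cons, Multiset.sum_cons, Multiset.prod_cons, Derivation.leibniz,
      smul_eq_mul]
    by_cases hk : k = i
    · subst hk
      refine ⟨w k + c, by linarith, ?_⟩
      rw [Multiset.erase_cons_head, Multiset.count_cons_self]
      convert hfr using 1
      by_cases hks : k ∈ s
      · have : (s.map f).prod = f k * ((s.erase k).map f).prod := by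
          conv_lhs => rw [← Multiset.cons_erase hks]
          simp
        push_cast
        linear_combination (-(s.count k : R) * D k (f k)) * this
      · rw [Multiset.count_eq_zero_of_notMem hks]
        push_cast
        ring
    · rw [Multiset.erase_cons_tail _ hk, Multiset.count_cons_of_ne (Ne.symm hk)]
      have key : ∃ c' : ℝ, w k + (s.map w).sum - w i < c' ∧
          (s.map f).prod * D i (f k) ∈ VI D w q c' := by
        rcases lt_or_gt_of_ne (fun e => hk (hinj e)) with h | h
        · exact ⟨_, by linarith, Ideal.mul_mem_right _ _ hs⟩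
        · exact ⟨_, by linarith [h1 i, h2 k], mul_mem_VI hw hs (tr_le_VI D hw h1 q (ho i k h))⟩
      obtain ⟨c', hc', hr'⟩ := key
      refine ⟨min (w k + c) c', lt_min (by linarith) hc', ?_⟩
      have := Ideal.add_mem _ (VI_anti D w q (min_le_left (w k + c) c') hfr)
        (VI_anti D w q (min_le_right (w k + c) c') hr')
      convert this using 1
      simp only [Multiset.map_cons, Multiset.prod_cons]
      ring

include h1 h2 hinj hf hd ho in
theorem tr_key [q.IsPrime] (l : List ι) (a : R) (s : Multiset ι) (hs : wtL w l ≤ (s.map w).sum) :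
    (s ≠ l → iterD D l (a * (s.map f).prod) ∈ q) ∧
      (s = l → a ∉ q → iterD D l (a * (s.map f).prod) ∉ q) := by
  classical
  have hw : ∀ i, 0 ≤ w i := fun i => zero_le_one.trans (h1 i)
  induction l generalizing a s with
  | nil =>
    refine ⟨fun h => ?_, fun h ha => by simpa [h] using ha⟩
    obtain ⟨k, hk⟩ := Multiset.exists_mem_of_ne_zero (by simpa using h)
    rw [← Multiset.cons_erase hk, Multiset.map_cons, Multiset.prod_cons]
    exact q.mul_mem_left _ (q.mul_mem_right _ (hf k))
  | cons i l ih =>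
    rw [wtL_cons] at hs
    obtain ⟨c, hc, hr⟩ := tr_deriv q D h1 h2 hinj f hf ho i s
    have hm := tr_mon_mem q D h1 h2 f hf ho s
    have e1 : D i (a * (s.map f).prod) =
        (a * (D i (s.map f).prod - (s.count i : R) * D i (f i) * ((s.erase i).map f).prod) +
          D i a * (s.map f).prod) + (a * (s.count i : R) * D i (f i)) * ((s.erase i).map f).prod := by
      rw [Derivation.leibniz, smul_eq_mul, smul_eq_mul]
      ring
    have e2 : iterD D l
        (a * (D i (s.map f).prod - (s.count i : R) * D i (f i) * ((s.erase i).map f).prod) +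
          D i a * (s.map f).prod) ∈ q := by
      rw [iterD_add]
      exact q.add_mem (hr a l (by linarith)) (hm _ l (by linarith [h1 i]))
    rw [iterD_cons, e1, iterD_add, q.add_mem_iff_right e2]
    by_cases hi : i ∈ s
    · have e3 : s = i ::ₘ s.erase i := (Multiset.cons_erase hi).symm
      have e4 : wtL w l ≤ ((s.erase i).map w).sum := by
        rw [e3, Multiset.map_cons, Multiset.sum_cons] at hs
        linarith
      obtain ⟨i1, i2⟩ := ih (a * (s.count i : R) * D i (f i)) (s.erase i) e4
      refine ⟨fun h => i1 fun h' => h ?_, fun h ha => i2 ?_ fun h' => ?_⟩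
      · rw [e3, h', Multiset.cons_coe]
      · rw [h, ← Multiset.cons_coe, Multiset.erase_cons_head]
      · rcases Ideal.IsPrime.mem_or_mem inferInstance h' with h' | h'
        · rcases Ideal.IsPrime.mem_or_mem inferInstance h' with h' | h'
          · exact ha h'
          · have hu : IsUnit (s.count i : R) := by
              have hne : (s.count i : ℂ) ≠ 0 := by
                exact_mod_cast (Multiset.count_pos.2 hi).ne'
              simpa using (IsUnit.mk0 _ hne).map (algebraMap ℂ R)
            exact Ideal.IsPrime.ne_top' (q.eq_top_of_isUnit_mem h' hu)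
        · exact hd i h'
    · refine ⟨fun _ => ?_, fun h => absurd (h ▸ by simp) hi⟩
      rw [Multiset.count_eq_zero_of_notMem hi]
      simp

end key

/-- Lower bound for the rank of `R ⧸ VI n` over a ring `D₀` meeting the prime `q` trivially, given a
triangular family `f` (transversality of the derivations `D`).

Proof.  The classes of the monomials `f^e = ∏ f i ^ e i`, `e ∈ E`, are `D₀`-linearly independent.
Choose auxiliary weights `w' i ∈ [1, 2)`, injective, with `rk i < rk l → w' i < w' l`
(e.g. `1 + (rk i + t i) / N` with `t : ι → [0,1)` injective).  Then `q ≤ VI w' 1`, and `f l ∈ VI w' (w' l)`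
(a list of `w'`-weight `< 2` is `[]` or `[i]`, and `w' i < w' l` gives `i ≠ l`, `rk i ≤ rk l`).
Let `W e = ∑ e i * w' i`.  Key claim, by induction on a list `l` with count vector `e`, for all `a : R` and
`e'` with `W e ≤ W e'`: (1) `e' ≠ e → iterD D l (a * f^e') ∈ q`; (2) `e' = e, a ∉ q → iterD D l (a * f^e) ∉ q`.
Step `l = i :: l'`: `D i (a f^e') = D i a * f^e' + ∑_k e'_k * a * D i (f k) * f^(e'-k)`.  The first term is in
`VI w' (W e')` and `wtL w' l' < W e'`; a term `k ≠ i` with `w' k < w' i` is in `VI w' (W e' - w' k)`, with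
`w' i < w' k` it is in `VI w' (W e' - w' k + 1)` because `D i (f k) ∈ q`; so these die.  The term `k = i` is
`a' * f^(e'-i)` with `a' = e'_i * a * D i (f i)` (`∉ q` in case (2): `q` is prime and `e'_i` is a unit of the
`ℂ`-algebra `R`), use the induction hypothesis.
Finally if `∑ a_e f^e ∈ VI D w q n` with some `a_e ≠ 0`, take such an `e` with `W e` minimal and a list `l` with
count vector `e`; `wtL w l < n` so `iterD D l (∑ …) ∈ q`, contradiction. -/
theorem card_le_rank [Fintype ι] {D₀ : Type*} [CommRing D₀] [Algebra D₀ R] (q : Ideal R) [q.IsPrime]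
    (hD₀ : ∀ a : D₀, algebraMap D₀ R a ∈ q → a = 0)
    (D : ι → Derivation ℂ R R) (w : ι → ℝ) (hw : ∀ i, 0 ≤ w i)
    (f : ι → R) (rk : ι → ℕ) (hf : ∀ i, f i ∈ q) (hd : ∀ i, D i (f i) ∉ q)
    (ho : ∀ i l, i ≠ l → rk i ≤ rk l → D i (f l) ∈ q)
    (n : ℝ) (E : Finset (ι →₀ ℕ)) (hE : ∀ e ∈ E, ∑ i, (e i : ℝ) * w i < n) :
    (E.card : Cardinal) ≤ Module.rank D₀ (R ⧸ VI D w q n) := by
  classical
  obtain ⟨w', h1, h2, hinj, hrk⟩ := tr_exists_weights rk
  have ho' : ∀ i l, w' i < w' l → D i (f l) ∈ q := fun i l h =>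
    ho i l (fun e => by rw [e] at h; exact lt_irrefl _ h)
      (not_lt.1 fun h' => lt_asymm h (hrk _ _ h'))
  have hq : q ≠ ⊤ := Ideal.IsPrime.ne_top'
  have : Nontrivial R := by
    by_contra h
    rw [not_nontrivial_iff_subsingleton] at h
    exact hq (Subsingleton.elim _ _)
  have : Nontrivial D₀ := (algebraMap D₀ R).domain_nontrivial
  have hli : LinearIndependent D₀ fun e : E =>
      Ideal.Quotient.mk (VI D w q n) ((e.1.toMultiset.map f).prod) := by
    rw [Fintype.linearIndependent_iff]
    intro g hg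
    by_contra hne
    push Not at hne
    obtain ⟨e₀, he₀, hmin⟩ := Finset.exists_min_image (Finset.univ.filter fun e : E => g e ≠ 0)
      (fun e => (e.1.toMultiset.map w').sum)
      (by obtain ⟨e, he⟩ := hne; exact ⟨e, Finset.mem_filter.2 ⟨Finset.mem_univ _, he⟩⟩)
    have hmem : ∑ e : E, algebraMap D₀ R (g e) * (e.1.toMultiset.map f).prod ∈ VI D w q n := by
      rw [← Ideal.Quotient.eq_zero_iff_mem, ← hg, map_sum]
      refine Finset.sum_congr rfl fun e _ => ?_
      rw [← Algebra.smul_def]
      rfl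
    set l := e₀.1.toMultiset.toList with hl
    have hl' : (l : Multiset ι) = e₀.1.toMultiset := Multiset.coe_toList _
    have hwt : wtL w l < n := by
      rw [tr_wtL_eq, hl', tr_sum_count]
      simpa [Finsupp.count_toMultiset] using hE e₀.1 e₀.2
    have h3 := (mem_VI hw).1 hmem l hwt
    rw [iterD_sum, ← Finset.add_sum_erase _ _ (Finset.mem_univ e₀)] at h3
    have h4 : ∑ e ∈ Finset.univ.erase e₀,
        iterD D l (algebraMap D₀ R (g e) * (e.1.toMultiset.map f).prod) ∈ q := by
      refine q.sum_mem fun e he => ?_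
      by_cases hge : g e = 0
      · simp [hge]
      · refine (tr_key q D h1 h2 hinj f hf hd ho' l _ _ ?_).1 ?_
        · rw [tr_wtL_eq, hl']
          exact hmin e (Finset.mem_filter.2 ⟨Finset.mem_univ _, hge⟩)
        · rw [hl']
          intro h
          exact Finset.ne_of_mem_erase he (Subtype.ext (Multiset.toFinsupp.symm.injective h))
    refine (tr_key q D h1 h2 hinj f hf hd ho' l (algebraMap D₀ R (g e₀)) e₀.1.toMultiset
      (by rw [tr_wtL_eq, hl'])).2 hl'.symm
      (fun h => (Finset.mem_filter.1 he₀).2 (hD₀ _ h)) ((q.add_mem_iff_left h4).1 h3)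
  have := hli.cardinal_lift_le_rank
  simpa using this

end Crest.Agent.R11
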