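/-
R11: multiplicity ≤ degree along a minimal prime.
-/
import Crest.Agent.R11.Count
import Crest.Agent.R11.Abstract
import Crest.Agent.R11.Trans

set_option autoImplicit false

namespace Crest.Agent.R11

open MvPolynomial

section bez

variable {σ : Type} [DecidableEq σ]

omit [DecidableEq σ] in
theorem bez_supported {B : Finset σ} {a : MvPolynomial σ ℂ} (ha : a ∈ supported ℂ ((B : Set σ)ᶜ))
    {e : σ →₀ ℕ} (he : e ∈ a.support) {v : σ} (hv : v ∈ B) : e v = 0 := by
  by_contra h
  exact mem_supported.1 ha ((mem_vars_iff_mem_support v).2 ⟨e, he, Finsupp.mem_support_iff.2 h⟩) hv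

theorem bez_mul {B : Finset σ} {c c' : σ → ℝ} {f g : MvPolynomial σ ℂ}
    (hf : ∀ e ∈ f.support, ∀ v ∈ B, (e v : ℝ) ≤ c v)
    (hg : ∀ e ∈ g.support, ∀ v ∈ B, (e v : ℝ) ≤ c' v) :
    ∀ e ∈ (f * g).support, ∀ v ∈ B, (e v : ℝ) ≤ c v + c' v := by
  intro e he v hv
  obtain ⟨a, ha, b, hb, rfl⟩ := Finset.mem_add.1 (support_mul f g he)
  rw [Finsupp.add_apply, Nat.cast_add]
  exact add_le_add (hf a ha v hv) (hg b hb v hv)

/-- The degree filtration. -/
def bezF (B : Finset σ) (d : σ → ℝ) (n : ℝ) :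
    Submodule (supported ℂ ((B : Set σ)ᶜ)) (MvPolynomial σ ℂ) where
  carrier := {f | ∀ e ∈ f.support, ∀ v ∈ B, (e v : ℝ) ≤ n * d v}
  zero_mem' := by simp
  add_mem' := by
    intro f g hf hg e he v hv
    rcases Finset.mem_union.1 (support_add he) with h | h
    · exact hf e h v hv
    · exact hg e h v hv
  smul_mem' := by
    intro a f hf e he v hv
    have := bez_mul (B := B) (c := fun _ => 0) (f := a) (g := f)
      (fun e he v hv => by rw [bez_supported a.2 he hv]; simp) hf e he v hv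
    simpa using this

theorem bez_mem {B : Finset σ} {d : σ → ℝ} {n : ℝ} {f : MvPolynomial σ ℂ} :
    f ∈ bezF B d n ↔ ∀ e ∈ f.support, ∀ v ∈ B, (e v : ℝ) ≤ n * d v := Iff.rfl

omit [DecidableEq σ] in
theorem bez_poly {s : Set σ} {v : σ} {f : MvPolynomial σ ℂ} (hf : f ∈ supported ℂ (insert v s)) :
    ∃ P : Polynomial (supported ℂ s), Polynomial.aeval (X v : MvPolynomial σ ℂ) P = f := by
  induction hf using Algebra.adjoin_induction with
  | mem x hx =>
    obtain ⟨u, hu, rfl⟩ := hx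
    rcases hu with rfl | hu
    · exact ⟨Polynomial.X, by simp⟩
    · exact ⟨Polynomial.C ⟨X u, X_mem_supported.2 hu⟩, by simp⟩
  | algebraMap r => exact ⟨Polynomial.C (algebraMap ℂ _ r), by simp⟩
  | add x y _ _ hx hy =>
    obtain ⟨P, rfl⟩ := hx
    obtain ⟨Q, rfl⟩ := hy
    exact ⟨P + Q, map_add _ _ _⟩
  | mul x y _ _ hx hy =>
    obtain ⟨P, rfl⟩ := hx
    obtain ⟨Q, rfl⟩ := hy
    exact ⟨P * Q, map_mul _ _ _⟩

omit [DecidableEq σ] in
theorem bez_alg (q : Ideal (MvPolynomial σ ℂ)) (B : Finset σ)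
    (halg : ∀ v ∈ B, ∃ f ∈ supported ℂ (insert v (B : Set σ)ᶜ), f ∈ q ∧ f ≠ 0) :
    Algebra.IsAlgebraic (supported ℂ ((B : Set σ)ᶜ)) (MvPolynomial σ ℂ ⧸ q) := by
  refine ⟨fun x => ?_⟩
  obtain ⟨f, rfl⟩ := Ideal.Quotient.mk_surjective x
  have h0 : ∀ a ∈ supported ℂ ((B : Set σ)ᶜ),
      IsAlgebraic (supported ℂ ((B : Set σ)ᶜ)) (Ideal.Quotient.mk q a) := fun a ha =>
    isAlgebraic_algebraMap (⟨a, ha⟩ : supported ℂ ((B : Set σ)ᶜ))
  induction f using MvPolynomial.induction_on with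
  | C a => exact h0 _ (Subalgebra.algebraMap_mem _ a)
  | add f g hf hg => rw [map_add]; exact hf.add hg
  | mul_X f v hf =>
    rw [map_mul]
    refine hf.mul ?_
    by_cases hv : v ∈ B
    · obtain ⟨g, hg, hgq, hg0⟩ := halg v hv
      obtain ⟨P, rfl⟩ := bez_poly hg
      refine ⟨P, fun h => hg0 (by rw [h, map_zero]), ?_⟩
      exact (Polynomial.aeval_algHom_apply (Ideal.Quotient.mkₐ (supported ℂ ((B : Set σ)ᶜ)) q)
        (X v) P).trans (Ideal.Quotient.eq_zero_iff_mem.2 hgq)
    · exact h0 _ (X_mem_supported.2 hv)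

theorem bez_rank [Fintype σ] (B : Finset σ) (d : σ → ℝ) (hd : ∀ v, 0 < d v) {N : ℝ} (hN : 0 ≤ N) :
    ∃ k : ℕ, Module.rank (supported ℂ ((B : Set σ)ᶜ)) (bezF B d N) ≤ k ∧
      (k : ℝ) ≤ ∏ v ∈ B, (N * d v + 1) := by
  classical
  set E := (finite_exps (fun v => if v ∈ B then N * d v else 0)).toFinset with hE
  have hmem : ∀ e, e ∈ E ↔ ∀ v, (e v : ℝ) ≤ if v ∈ B then N * d v else 0 := fun e => by
    simp [hE]
  refine ⟨E.card, ?_, count_box B (fun v => N * d v) (fun v => mul_nonneg hN (hd v).le) E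
    fun e he => ⟨fun v hv => by simpa [hv] using (hmem e).1 he v, fun v hv => ?_⟩⟩
  · have hle : bezF B d N ≤ Submodule.span (supported ℂ ((B : Set σ)ᶜ))
        ((E.image fun e => (monomial e 1 : MvPolynomial σ ℂ) : Finset _) : Set _) := by
      intro f hf
      rw [f.as_sum]
      refine Submodule.sum_mem _ fun e he => ?_
      have h1 : (monomial (e.filter fun v => ¬ v ∈ B) (coeff e f) : MvPolynomial σ ℂ) ∈
          supported ℂ ((B : Set σ)ᶜ) := by
        refine mem_supported.2 fun v hv => ?_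
        obtain ⟨e', he', hv'⟩ := (mem_vars_iff_mem_support v).1 hv
        rw [Finset.mem_singleton.1 (support_monomial_subset he'), Finsupp.support_filter] at hv'
        exact (Finset.mem_filter.1 hv').2
      have h2 : (monomial e (coeff e f) : MvPolynomial σ ℂ) =
          (⟨_, h1⟩ : supported ℂ ((B : Set σ)ᶜ)) •
            (monomial (e.filter fun v => v ∈ B) 1 : MvPolynomial σ ℂ) := by
        rw [Subalgebra.smul_def, smul_eq_mul, monomial_mul, mul_one, add_comm,
          Finsupp.filter_add_filter_not]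
      rw [h2]
      refine Submodule.smul_mem _ _ (Submodule.subset_span ?_)
      refine Finset.mem_coe.2 (Finset.mem_image.2 ⟨_, (hmem _).2 fun v => ?_, rfl⟩)
      rw [Finsupp.filter_apply]
      split_ifs with hv
      · exact hf e he v hv
      · simp
    refine (Submodule.rank_mono hle).trans ((rank_span_finset_le _).trans ?_)
    exact_mod_cast Finset.card_image_le
  · have := (hmem e).1 he v
    rw [if_neg hv] at this
    exact_mod_cast le_antisymm this (Nat.cast_nonneg _)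

end bez

/-- `J = Bᶜ` is a transcendence basis modulo the prime `q`, `q` is minimal over the ideal generated by `G`,
elements of `G` have degree `≤ d v` in the variables `v ∈ B` and vanish along `q` to order `1` for a
transversal family of `|B|` derivations with weights `w`.  Then `1 / (|B|! ∏ w) ≤ ∏ d`.

Proof.  `abstract_bound` with `D₀ = supported ℂ Bᶜ` (a subalgebra, so a domain), `R = MvPolynomial σ ℂ`,
`F n = {f | ∀ e ∈ f.support, ∀ v ∈ B, e v ≤ n * d v}` (a `D₀`-submodule), `I n = VI D w q n`.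
`R/q` is algebraic over `D₀` (each `X v`, `v ∈ B`, is a root of the nonzero polynomial given by `halg`).
Primes `p`: if `s ∈ p \ q` then `s` is nonzero and algebraic in the domain `R/q`, so some `a ≠ 0` in `D₀` lies in
`(s) + q ≤ p ⊔ q` (`IsAlgebraic.exists_nonzero_dvd`/`exists_nonzero_coeff_and_aeval_eq_zero`), and
`exists_pow_mem_sup_VI` gives kind 1; `p = q` is kind 2; `p < q` misses some `g ∈ G` (minimality), kind 3 with
`b = 1` (`mul_mem_VI`).  So `rank R/VI n ≤ rank F (n+C) ≤ ∏ ((n+C) d v + 1)` (`F N` is spanned over `D₀` by the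
monomials of the box, `count_box`, `finite_exps`), and `count_lower`, `card_le_rank`, `le_of_forall_pow_le`
conclude. -/
theorem bezout_ineq {σ : Type} [Fintype σ] [DecidableEq σ] (q : Ideal (MvPolynomial σ ℂ)) [q.IsPrime]
    (B : Finset σ)
    (hJ : ∀ f ∈ supported ℂ ((B : Set σ)ᶜ), f ∈ q → f = 0)
    (halg : ∀ v ∈ B, ∃ f ∈ supported ℂ (insert v (B : Set σ)ᶜ), f ∈ q ∧ f ≠ 0)
    (G : Set (MvPolynomial σ ℂ)) (hmin : q ∈ (Ideal.span G).minimalPrimes)
    (d : σ → ℝ) (hd : ∀ v, 0 < d v) (hG : ∀ g ∈ G, ∀ v ∈ B, (g.degreeOf v : ℝ) ≤ d v)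
    (D : B → Derivation ℂ (MvPolynomial σ ℂ) (MvPolynomial σ ℂ)) (w : B → ℝ) (hw : ∀ i, 0 < w i)
    (hGV : ∀ g ∈ G, ∀ l : List B, wtL w l < 1 → iterD D l g ∈ q)
    (f : B → MvPolynomial σ ℂ) (rk : B → ℕ) (hf : ∀ i, f i ∈ q) (hfd : ∀ i, D i (f i) ∉ q)
    (ho : ∀ i l, i ≠ l → rk i ≤ rk l → D i (f l) ∈ q) :
    1 ≤ (B.card.factorial : ℝ) * ∏ v : B, (w v * d v) := by
  have hw0 : ∀ i, 0 ≤ w i := fun i => (hw i).le
  have hqalg := bez_alg q B halg
  have hft : Algebra.FiniteType (supported ℂ ((B : Set σ)ᶜ)) (MvPolynomial σ ℂ) :=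
    Algebra.FiniteType.of_restrictScalars_finiteType ℂ _ _
  obtain ⟨C, hC, hrank⟩ := abstract_bound (bezF B d)
    (fun a b hab g hg e he v hv => (hg e he v hv).trans (mul_le_mul_of_nonneg_right hab (hd v).le))
    (fun a b g hg g' hg' e he v hv => by
      rw [add_mul]
      exact bez_mul (c := fun v => a * d v) (c' := fun v => b * d v) hg hg' e he v hv)
    (fun g => ⟨∑ v ∈ B, (g.degreeOf v : ℝ) / d v, fun e he v hv => by
      rw [← div_le_iff₀ (hd v)]
      refine le_trans ?_ (Finset.single_le_sum (f := fun v => (g.degreeOf v : ℝ) / d v)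
        (fun u _ => div_nonneg (Nat.cast_nonneg _) (hd u).le) hv)
      exact div_le_div_of_nonneg_right (by exact_mod_cast monomial_le_degreeOf v he) (hd v).le⟩)
    (VI D w q) (fun n hn => VI_eq_top D hw0 q hn)
    (fun p hp => by
      by_cases hpq : p ≤ q
      · rcases hpq.eq_or_lt with rfl | hlt
        · exact Or.inr (Or.inl hqalg)
        · have hns : ¬ Ideal.span G ≤ p := fun h => hlt.not_ge (hmin.2 ⟨hp, h⟩ hpq)
          rw [Ideal.span_le, Set.not_subset] at hns
          obtain ⟨g, hg, hgp⟩ := hns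
          refine Or.inr (Or.inr ⟨g, hgp, 1, one_pos, fun e he v hv => ?_, fun n f' hf' => ?_⟩)
          · rw [one_mul]
            exact le_trans (by exact_mod_cast monomial_le_degreeOf v he) (hG g hg v hv)
          · have := mul_mem_VI hw0 ((mem_VI hw0).2 (hGV g hg)) hf'
            rw [add_sub_cancel] at this
            exact Ideal.mem_sup_right this
      · obtain ⟨s, hsp, hsq⟩ := SetLike.not_le_iff_exists.1 hpq
        obtain ⟨a, ha0, t, ht⟩ := (hqalg.isAlgebraic (Ideal.Quotient.mk q s)).exists_nonzero_dvd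
          (mem_nonZeroDivisors_of_ne_zero fun h => hsq (Ideal.Quotient.eq_zero_iff_mem.1 h))
        obtain ⟨t, rfl⟩ := Ideal.Quotient.mk_surjective t
        have h1 : (a : MvPolynomial σ ℂ) - s * t ∈ q := Ideal.Quotient.eq.1 ht
        have h2 : (a : MvPolynomial σ ℂ) ∈ p ⊔ q := by
          have := Ideal.add_mem _ (Ideal.mem_sup_left (T := q) (p.mul_mem_right t hsp))
            (Ideal.mem_sup_right h1)
          rwa [add_sub_cancel] at this
        refine Or.inl fun n => ?_
        obtain ⟨M, hM⟩ := exists_pow_mem_sup_VI D hw p q n h2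
        exact ⟨a ^ M, pow_ne_zero _ ha0, by rw [map_pow]; exact hM⟩)
  have hW : 0 < (B.card.factorial : ℝ) * ∏ i, w i :=
    mul_pos (by exact_mod_cast Nat.factorial_pos _) (Finset.prod_pos fun i _ => hw i)
  have key := le_of_forall_pow_le (((B.card.factorial : ℝ) * ∏ i, w i)⁻¹) (∏ v ∈ B, d v)
    (C + ∑ v ∈ B, (d v)⁻¹) B.card fun n hn => by
      obtain ⟨E, hE, hEc⟩ := count_lower w hw n hn
      have h1 := card_le_rank (D₀ := supported ℂ ((B : Set σ)ᶜ)) q
        (fun a ha => Subtype.ext (hJ a a.2 ha)) D w hw0 f rk hf hfd ho n E hE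
      obtain ⟨k, hk, hk'⟩ := bez_rank B d hd (N := n + C) (by linarith)
      have h2 : (E.card : ℝ) ≤ k := by exact_mod_cast h1.trans ((hrank n).trans hk)
      rw [Fintype.card_coe, div_eq_inv_mul] at hEc
      refine hEc.trans (h2.trans (hk'.trans ?_))
      rw [← Finset.prod_const, ← Finset.prod_mul_distrib]
      refine Finset.prod_le_prod (fun v _ => ?_) fun v hv => ?_
      · have := hd v
        positivity
      · have h3 : (d v)⁻¹ ≤ ∑ v ∈ B, (d v)⁻¹ :=
          Finset.single_le_sum (f := fun v => (d v)⁻¹) (fun u _ => (inv_pos.2 (hd u)).le) hv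
        have h4 := mul_le_mul_of_nonneg_left h3 (hd v).le
        rw [mul_inv_cancel₀ (hd v).ne'] at h4
        nlinarith
  rw [inv_le_iff_one_le_mul₀ hW, ← Finset.prod_coe_sort] at key
  rw [Finset.prod_mul_distrib]
  linarith

end Crest.Agent.R11
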