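/-
R11: from vanishing Taylor coefficients in the coordinates `psi` to vanishing invariant derivatives.
-/
import Crest.Agent.R11.Defs

set_option autoImplicit false

namespace Crest.Agent.R11

open MvPolynomial

/-- All coefficients of weight `< x` vanish. -/
def lnk_Van {m : ℕ} (w : Fin (m + 1) → ℝ) (x : ℝ) (g : PR m) : Prop :=
  ∀ s : Fin (m + 1) →₀ ℕ, ∑ v, (s v : ℝ) * w v < x → coeff s g = 0

section van

variable {m : ℕ} {w : Fin (m + 1) → ℝ} {x y : ℝ} {g g' : PR m}

theorem lnk_Van_mono (h : lnk_Van w x g) (hy : y ≤ x) : lnk_Van w y g :=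
  fun s hs => h s (hs.trans_le hy)

theorem lnk_Van_add (h : lnk_Van w x g) (h' : lnk_Van w x g') : lnk_Van w x (g + g') := by
  intro s hs
  rw [coeff_add, h s hs, h' s hs, add_zero]

theorem lnk_Van_neg (h : lnk_Van w x g) : lnk_Van w x (-g) := by
  intro s hs
  rw [coeff_neg, h s hs, neg_zero]

theorem lnk_Van_sum {κ : Type*} (t : Finset κ) (f : κ → PR m) (h : ∀ a ∈ t, lnk_Van w x (f a)) :
    lnk_Van w x (∑ a ∈ t, f a) := by
  intro s hs
  rw [coeff_sum]
  exact Finset.sum_eq_zero fun a ha => h a ha s hs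

theorem lnk_wt_add_single (w : Fin (m + 1) → ℝ) (s : Fin (m + 1) →₀ ℕ) (v : Fin (m + 1)) :
    ∑ u, (((s + Finsupp.single v 1 : Fin (m + 1) →₀ ℕ) u : ℕ) : ℝ) * w u
      = ∑ u, (s u : ℝ) * w u + w v := by
  classical
  have : ∀ u, (((s + Finsupp.single v 1 : Fin (m + 1) →₀ ℕ) u : ℕ) : ℝ) * w u
      = (s u : ℝ) * w u + if v = u then w u else 0 := by
    intro u
    rw [Finsupp.add_apply, Finsupp.single_apply]
    split_ifs <;> push_cast <;> ring
  simp only [this, Finset.sum_add_distrib, Finset.sum_ite_eq, Finset.mem_univ, if_true]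

theorem lnk_Van_pderiv (h : lnk_Van w x g) (v : Fin (m + 1)) :
    lnk_Van w (x - w v) (pderiv v g) := by
  intro s hs
  rw [coeff_pderiv, h _ (by rw [lnk_wt_add_single]; linarith), zero_mul]

theorem lnk_Van_X_mul (h : lnk_Van w x g) (v : Fin (m + 1)) :
    lnk_Van w (x + w v) (X v * g) := by
  classical
  intro s hs
  rw [coeff_X_mul']
  split_ifs with hv
  · apply h
    have e : s - Finsupp.single v 1 + Finsupp.single v 1 = s := by
      apply tsub_add_cancel_of_le
      rw [Finsupp.single_le_iff]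
      exact Nat.one_le_iff_ne_zero.2 (Finsupp.mem_support_iff.1 hv)
    have := lnk_wt_add_single w (s - Finsupp.single v 1) v
    rw [e] at this
    linarith
  · rfl

theorem lnk_Van_pow_mul (h : lnk_Van w x g) (v : Fin (m + 1)) (k : ℕ) :
    lnk_Van w (x + k * w v) ((-X v) ^ k * g) := by
  induction k with
  | zero => simpa using h
  | succ k ih =>
    have := lnk_Van_neg (lnk_Van_X_mul ih v)
    have e : (-X v : PR m) ^ (k + 1) * g = -(X v * ((-X v) ^ k * g)) := by ring
    rw [e]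
    refine lnk_Van_mono this (le_of_eq ?_)
    push_cast; ring

end van

theorem lnk_transport {m : ℕ} (ψ : PR m →ₐ[ℂ] PR m) (D D' : Derivation ℂ (PR m) (PR m))
    (h : ∀ v, ψ (D (X v)) = D' (ψ (X v))) (f : PR m) : ψ (D f) = D' (ψ f) := by
  induction f using MvPolynomial.induction_on with
  | C a =>
    have e : (C a : PR m) = algebraMap ℂ (PR m) a := rfl
    rw [e, D.map_algebraMap, ψ.commutes, D'.map_algebraMap, map_zero]
  | add p q hp hq => simp only [map_add, hp, hq]
  | mul_X p v hp =>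
    rw [map_mul ψ, D.leibniz, D'.leibniz, smul_eq_mul, smul_eq_mul, smul_eq_mul, smul_eq_mul,
      map_add, map_mul ψ, map_mul ψ, hp, h]

theorem lnk_lg_zero (m n : ℕ) : (1 + X 0) * pderiv 0 (lg m n) + (-X 0) ^ n = (1 : PR m) := by
  induction n with
  | zero => simp [lg]
  | succ n ih =>
    have e : lg m (n + 1) = lg m n + C ((-1) ^ (n + 1 + 1) / ((n + 1 : ℕ) : ℂ)) * X 0 ^ (n + 1) := by
      rw [lg, Finset.sum_range_succ]; rfl
    have h1 : ((n + 1 : ℕ) : ℂ) ≠ 0 := Nat.cast_ne_zero.2 (Nat.succ_ne_zero n)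
    have e2 : pderiv 0 (C ((-1) ^ (n + 1 + 1) / ((n + 1 : ℕ) : ℂ)) * X 0 ^ (n + 1) : PR m)
        = (-X 0) ^ n := by
      rw [pderiv_C_mul, pderiv_pow, pderiv_X_self, mul_one, Nat.add_sub_cancel, ← mul_assoc]
      have : (C ((-1) ^ (n + 1 + 1) / ((n + 1 : ℕ) : ℂ)) * ((n + 1 : ℕ) : PR m)) = (-1) ^ n := by
        rw [← map_natCast (C : ℂ →+* PR m), ← map_mul, div_mul_cancel₀ _ h1]
        simp [pow_succ]
      rw [this, neg_pow (X 0 : PR m)]
    rw [e, map_add, e2]
    linear_combination ih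

theorem lnk_lg_succ (m n : ℕ) (j : Fin m) : pderiv j.succ (lg m n) = 0 := by
  rw [lg, map_sum]
  refine Finset.sum_eq_zero fun i _ => ?_
  rw [pderiv_C_mul, pderiv_pow, pderiv_X_of_ne (Fin.succ_ne_zero j).symm]
  simp

theorem lnk_lg_const (m n : ℕ) : constantCoeff (lg m n) = 0 := by
  rw [lg, map_sum]
  refine Finset.sum_eq_zero fun i _ => ?_
  rcases i with _ | i <;> simp

/-- The derivation `DD m 0` in the local coordinates. -/
noncomputable def lnk_delta {m : ℕ} (n : Fin m → ℕ) : Derivation ℂ (PR m) (PR m) :=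
  (1 + X 0 : PR m) • pderiv 0 + ∑ j : Fin m, ((-X 0 : PR m) ^ n j) • pderiv j.succ

theorem lnk_delta_apply {m : ℕ} (n : Fin m → ℕ) (f : PR m) :
    lnk_delta n f = (1 + X 0) * pderiv 0 f + ∑ j : Fin m, (-X 0) ^ n j * pderiv j.succ f := by
  simp [lnk_delta, derivation_sum_apply]

theorem lnk_psi_zero {m : ℕ} (c : Fin m → ℂ) (n : Fin m → ℕ) : psi c n (X 0) = 1 + X 0 := by
  simp [psi]

theorem lnk_psi_succ {m : ℕ} (c : Fin m → ℂ) (n : Fin m → ℕ) (j : Fin m) :
    psi c n (X j.succ) = C (c j) + X j.succ + lg m (n j) := by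
  simp [psi]

theorem lnk_pd_ss {m : ℕ} (j i : Fin m) :
    pderiv j.succ (X i.succ : PR m) = if j = i then 1 else 0 := by
  split_ifs with h
  · rw [h, pderiv_X_self]
  · exact pderiv_X_of_ne fun h' => h (Fin.succ_injective _ h').symm

theorem lnk_pd_s0 {m : ℕ} (j : Fin m) : pderiv j.succ (X 0 : PR m) = 0 :=
  pderiv_X_of_ne (Fin.succ_ne_zero j).symm

theorem lnk_pd_0s {m : ℕ} (j : Fin m) : pderiv 0 (X j.succ : PR m) = 0 :=
  pderiv_X_of_ne (Fin.succ_ne_zero j)

theorem lnk_DD_succ {m : ℕ} (c : Fin m → ℂ) (n : Fin m → ℕ) (j : Fin m) (f : PR m) :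
    psi c n (DD m j.succ f) = pderiv j.succ (psi c n f) := by
  apply lnk_transport
  intro v
  rw [DD_succ]
  refine Fin.cases ?_ (fun i => ?_) v
  · rw [lnk_psi_zero, map_add, lnk_pd_s0]; simp
  · rw [lnk_psi_succ, map_add, map_add, lnk_lg_succ, pderiv_C, lnk_pd_ss]
    split_ifs <;> simp

theorem lnk_DD_zero {m : ℕ} (c : Fin m → ℂ) (n : Fin m → ℕ) (f : PR m) :
    psi c n (DD m 0 f) = lnk_delta n (psi c n f) := by
  apply lnk_transport
  intro v
  rw [DD_zero, lnk_delta_apply]
  refine Fin.cases ?_ (fun i => ?_) v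
  · simp only [lnk_pd_s0, pderiv_X_self, lnk_psi_zero, map_add, mul_one, Finset.sum_const_zero,
      add_zero, pderiv_one, zero_add, mul_zero]
  · simp only [lnk_pd_0s, lnk_pd_ss, lnk_psi_succ, map_add, lnk_lg_succ, pderiv_C, mul_zero,
      zero_add, add_zero, Finset.sum_ite_eq', Finset.mem_univ, if_true, map_one, mul_ite, mul_one]
    exact (lnk_lg_zero m (n i)).symm

theorem lnk_const {m : ℕ} (c : Fin m → ℂ) (n : Fin m → ℕ) (P : PR m) :
    constantCoeff (psi c n P) = eval (Fin.cons 1 c) P := by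
  induction P using MvPolynomial.induction_on with
  | C a =>
    have e : (C a : PR m) = algebraMap ℂ (PR m) a := rfl
    rw [eval_C, e, (psi c n).commutes]
    exact constantCoeff_C _ a
  | add p q hp hq => simp only [map_add, hp, hq]
  | mul_X p v hp =>
    rw [map_mul, map_mul, map_mul, hp, eval_X]
    congr 1
    refine Fin.cases ?_ (fun i => ?_) v
    · rw [lnk_psi_zero]; simp
    · rw [lnk_psi_succ, map_add, map_add, lnk_lg_const]; simp

/-- Proof.  `psi c n (DD m j.succ f) = pderiv j.succ (psi c n f)` and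
`psi c n (DD m 0 f) = δ' (psi c n f)` with `δ' = (1 + X 0) ∂_0 + ∑_j (-X 0)^(n j) ∂_{j.succ}`
(both sides are derivations along `psi`: `MvPolynomial.induction_on'''`/`induction_on`; the only computation is
`(1 + u) lg_n'(u) + (-u)^n = 1`).  If all coefficients of `g` of weight `< x` vanish, then all coefficients of
`∂_v g` of weight `< x - w v` vanish (`coeff_pderiv`), multiplication by `X 0 ^ k` gains `k * w 0`; so those of
`δ' g` of weight `< x - w 0` vanish by `hn`.  Induct on `l` (generalizing `P`, `x`); for `l = []` the constant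
coefficient of `psi c n P` is `eval (1, c) P` (`lg` has no constant term: the `i = 0` term is `-1/0 = 0`). -/
theorem link (m : ℕ) (c : Fin m → ℂ) (n : Fin m → ℕ) (w : Fin (m + 1) → ℝ) (hw : ∀ v, 0 ≤ w v)
    (hn : ∀ j : Fin m, w j.succ ≤ (n j + 1) * w 0) (P : PR m) (x : ℝ)
    (h : ∀ s : Fin (m + 1) →₀ ℕ, ∑ v, (s v : ℝ) * w v < x → coeff s (psi c n P) = 0)
    (l : List (Fin (m + 1))) (hl : wtL w l < x) :
    eval (Fin.cons 1 c) (iterD (DD m) l P) = 0 := by
  induction l generalizing P x with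
  | nil =>
    rw [iterD_nil, ← lnk_const c n P]
    exact h 0 (by simpa using hl)
  | cons v l ih =>
    rw [iterD_cons]
    rw [wtL_cons] at hl
    have hV : lnk_Van w x (psi c n P) := h
    refine ih (DD m v P) (x - w v) ?_ (by linarith)
    change lnk_Van w (x - w v) (psi c n (DD m v P))
    refine Fin.cases ?_ (fun j => ?_) v
    · rw [lnk_DD_zero, lnk_delta_apply, add_mul, one_mul]
      refine lnk_Van_add (lnk_Van_add (lnk_Van_pderiv hV 0) ?_) (lnk_Van_sum _ _ fun j _ => ?_)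
      · exact lnk_Van_mono (lnk_Van_X_mul (lnk_Van_pderiv hV 0) 0) (by linarith [hw 0])
      · exact lnk_Van_mono (lnk_Van_pow_mul (lnk_Van_pderiv hV j.succ) 0 (n j))
          (by linarith [hn j])
    · rw [lnk_DD_succ]
      exact lnk_Van_pderiv hV _

end Crest.Agent.R11
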