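/-
R11: Cauchy estimate and Liouville inequality at the points `(1, 2 i k p_j / q_j)`.
-/
import Crest.Agent.R11.Defs

set_option autoImplicit false

namespace Crest.Agent.R11

open MvPolynomial

theorem liou_iteratedDeriv (p : Polynomial ℂ) (k : ℕ) :
    iteratedDeriv k (fun x => p.eval x) = fun x => (Polynomial.derivative^[k] p).eval x := by
  induction k with
  | zero => simp
  | succ k ih =>
    rw [iteratedDeriv_succ, ih, Function.iterate_succ_apply']
    funext x
    exact Polynomial.deriv _

theorem liou_one_var (p : Polynomial ℂ) {r B : ℝ} (hr : 0 < r)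
    (h : ∀ x : ℂ, ‖x‖ = r → ‖p.eval x‖ ≤ B) (k : ℕ) : ‖p.coeff k‖ * r ^ k ≤ B := by
  have h1 := Complex.norm_iteratedDeriv_le_of_forall_mem_sphere_norm_le (c := 0) (C := B)
    (f := fun x => p.eval x) k hr p.differentiable.diffContOnCl
    (fun z hz => h z (by simpa using hz))
  rw [liou_iteratedDeriv] at h1
  simp only [← Polynomial.coeff_zero_eq_eval_zero, Polynomial.coeff_iterate_derivative, zero_add,
    Nat.descFactorial_self, nsmul_eq_mul, norm_mul, Complex.norm_natCast] at h1
  rw [le_div_iff₀ (by positivity), mul_assoc] at h1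
  exact le_of_mul_le_mul_left h1 (by positivity)

/-- Cauchy's inequality for polynomials in several variables.  (Induction on the number of variables with the
one-variable inequality; or average over roots of unity of large order; or Kronecker substitution
`x v = r v * ζ ^ (N ^ v)` and the one-variable case, which is `Polynomial` Taylor coefficients +
`Complex.norm_iteratedDeriv_le_of_forall_mem_sphere_norm_le`, or an average over roots of unity.) -/
theorem norm_coeff_mul_le {n : ℕ} (P : MvPolynomial (Fin n) ℂ) (r : Fin n → ℝ) (hr : ∀ v, 0 < r v) (B : ℝ)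
    (h : ∀ x : Fin n → ℂ, (∀ v, ‖x v‖ = r v) → ‖eval x P‖ ≤ B) (s : Fin n →₀ ℕ) :
    ‖coeff s P‖ * ∏ v, r v ^ s v ≤ B := by
  induction n generalizing B with
  | zero =>
    have h1 := h (fun v => v.elim0) (fun v => v.elim0)
    rw [eq_C_of_isEmpty P, eval_C] at h1
    rw [Subsingleton.elim s 0]
    simpa using h1
  | succ n ih =>
    have h0 : 0 < r 0 ^ s 0 := pow_pos (hr 0) _
    have h1 := ih ((finSuccEquiv ℂ n P).coeff (s 0)) (fun v => r v.succ) (fun v => hr _)
      (B / r 0 ^ s 0) (fun x hx => by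
        rw [le_div_iff₀ h0, ← Polynomial.coeff_map]
        refine liou_one_var _ (hr 0) (fun y hy => ?_) _
        rw [← eval_eq_eval_mv_eval']
        exact h _ (Fin.cases hy hx)) s.tail
    rw [finSuccEquiv_coeff_coeff, Finsupp.cons_tail, le_div_iff₀ h0] at h1
    rw [Fin.prod_univ_succ]
    simp only [Finsupp.tail_apply] at h1
    linarith

/-- rescaling of polynomials with Gaussian integer coefficients -/
noncomputable def liou_phi (m : ℕ) (q : Fin m → ℕ) :
    MvPolynomial (Fin (m + 1)) GaussianInt →+* PR m :=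
  eval₂Hom (C.comp GaussianInt.toComplex) (Fin.cons (X 0) fun j => C (q j : ℂ) * X j.succ)

theorem liou_coeff_phi (m : ℕ) (q : Fin m → ℕ) (R : MvPolynomial (Fin (m + 1)) GaussianInt)
    (s : Fin (m + 1) →₀ ℕ) :
    coeff s (liou_phi m q R) =
      GaussianInt.toComplex (coeff s R) * ∏ j : Fin m, (q j : ℂ) ^ s j.succ := by
  classical
  induction R using MvPolynomial.induction_on' with
  | add a b ha hb => rw [map_add, coeff_add, coeff_add, ha, hb, map_add, add_mul]
  | monomial u a =>
    have e : liou_phi m q (monomial u a) =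
        monomial u (GaussianInt.toComplex a * ∏ j : Fin m, (q j : ℂ) ^ u j.succ) := by
      rw [liou_phi, eval₂Hom_monomial, monomial_eq, Finsupp.prod_fintype _ _ (by simp),
        Finsupp.prod_fintype _ _ (by simp), Fin.prod_univ_succ, Fin.prod_univ_succ]
      simp only [RingHom.comp_apply, Fin.cons_zero, Fin.cons_succ, mul_pow,
        Finset.prod_mul_distrib, map_mul, map_prod, map_pow]
      ring
    rw [e, coeff_monomial, coeff_monomial]
    split_ifs with h
    · rw [h]
    · simp

theorem liou_mem_range (m : ℕ) (p : Fin m → ℤ) (q n : Fin m → ℕ) (hq : ∀ j, 0 < q j)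
    (E : Finset (Fin (m + 1) →₀ ℕ)) (c : (Fin (m + 1) →₀ ℕ) → ℤ) (k : ℕ) :
    psi (fun j => 2 * Complex.I * k * p j / q j) n
      (auxP E c fun j => q j * Nat.lcmUpto (n j)) ∈ (liou_phi m q).range := by
  have hC : ∀ g : GaussianInt, C (GaussianInt.toComplex g) ∈ (liou_phi m q).range := fun g =>
    ⟨C g, by simp [liou_phi]⟩
  have hZ : ∀ z : ℤ, (C (z : ℂ) : PR m) ∈ (liou_phi m q).range := fun z => by
    simp
  have hX0 : (X 0 : PR m) ∈ (liou_phi m q).range := ⟨X 0, by simp [liou_phi]⟩
  have hX : ∀ j : Fin m, (C (q j : ℂ) * X j.succ : PR m) ∈ (liou_phi m q).range := fun j =>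
    ⟨X j.succ, by simp [liou_phi]⟩
  have hj : ∀ j : Fin m, (C ((q j * Nat.lcmUpto (n j) : ℕ) : ℂ) *
      (C (2 * Complex.I * k * p j / q j) + X j.succ + lg m (n j)) : PR m) ∈
        (liou_phi m q).range := by
    intro j
    have hq' : (q j : ℂ) ≠ 0 := by exact_mod_cast (hq j).ne'
    rw [mul_add, mul_add]
    refine add_mem (add_mem ?_ ?_) ?_
    · rw [← map_mul]
      convert hC ⟨0, 2 * k * p j * Nat.lcmUpto (n j)⟩ using 2
      rw [GaussianInt.toComplex_def']
      push_cast
      field_simp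
      ring
    · have := mul_mem (hZ (Nat.lcmUpto (n j))) (hX j)
      convert this using 1
      rw [← mul_assoc, ← map_mul]
      congr 2
      push_cast
      ring
    · rw [lg, Finset.mul_sum]
      refine sum_mem fun i hi => ?_
      rw [← mul_assoc, ← map_mul]
      refine mul_mem ?_ (pow_mem hX0 _)
      rcases Nat.eq_zero_or_pos i with rfl | hi0
      · simp
      · obtain ⟨d, hd⟩ : i ∣ Nat.lcmUpto (n j) :=
          Finset.dvd_lcm (f := id) (Finset.mem_Icc.2 ⟨hi0, Nat.lt_succ_iff.1 (Finset.mem_range.1 hi)⟩)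
        convert hZ (q j * d * (-1) ^ (i + 1)) using 2
        have hi' : (i : ℂ) ≠ 0 := by exact_mod_cast hi0.ne'
        rw [hd]
        push_cast
        field_simp
  rw [auxP, map_sum]
  refine sum_mem fun e _ => ?_
  rw [psi, aeval_monomial, Finsupp.prod_fintype _ _ (by simp), Fin.prod_univ_succ, algebraMap_eq,
    map_mul, map_prod, mul_mul_mul_comm, ← Finset.prod_mul_distrib]
  refine mul_mem (mul_mem (hZ _) (pow_mem (add_mem (one_mem _) hX0) _)) (prod_mem fun j _ => ?_)
  rw [map_pow, ← mul_pow]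
  exact pow_mem (hj j) _

/-- Integrality: the polynomials whose coefficient at `s` lies in `∏ Q_j^(s j.succ) • ℤ[i]` form a subring
(`coeff_mul`); it contains `psi (X 0) = 1 + X 0`, the integers, and `Q_j * psi (X j.succ)` for
`Q_j = q_j * lcmUpto (n j)` (`i ∣ lcmUpto n` for `1 ≤ i ≤ n`).  A nonzero Gaussian integer has norm `≥ 1`. -/
theorem coeff_psi_int (m : ℕ) (p : Fin m → ℤ) (q n : Fin m → ℕ) (hq : ∀ j, 0 < q j)
    (E : Finset (Fin (m + 1) →₀ ℕ)) (c : (Fin (m + 1) →₀ ℕ) → ℤ) (k : ℕ) (s : Fin (m + 1) →₀ ℕ)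
    (hs : ‖coeff s (psi (fun j => 2 * Complex.I * k * p j / q j) n
      (auxP E c fun j => q j * Nat.lcmUpto (n j)))‖ < ∏ j : Fin m, (q j : ℝ) ^ s j.succ) :
    coeff s (psi (fun j => 2 * Complex.I * k * p j / q j) n
      (auxP E c fun j => q j * Nat.lcmUpto (n j))) = 0 := by
  obtain ⟨R, hR⟩ := liou_mem_range m p q n hq E c k
  rw [← hR, liou_coeff_phi] at hs ⊢
  have hpos : 0 < ∏ j : Fin m, (q j : ℝ) ^ s j.succ :=
    Finset.prod_pos fun j _ => pow_pos (by exact_mod_cast hq j) _
  rw [norm_mul, norm_prod] at hs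
  simp only [norm_pow, Complex.norm_natCast] at hs
  have h1 : ‖GaussianInt.toComplex (coeff s R)‖ < 1 := by
    by_contra h
    rw [not_lt] at h
    nlinarith
  have h2 : ((coeff s R).norm : ℝ) < 1 := by
    rw [GaussianInt.intCast_real_norm, Complex.normSq_eq_norm_sq]
    nlinarith [norm_nonneg (GaussianInt.toComplex (coeff s R))]
  have h3 : (coeff s R).norm < 1 := by exact_mod_cast h2
  have h4 := GaussianInt.norm_nonneg (coeff s R)
  rw [GaussianInt.norm_eq_zero.1 (by omega : (coeff s R).norm = 0), map_zero, zero_mul]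

theorem liou_eval_psi {m : ℕ} (c : Fin m → ℂ) (n : Fin m → ℕ) (P : PR m) (x : Fin (m + 1) → ℂ) :
    eval x (psi c n P) = eval (Fin.cons (1 + x 0)
      fun j => c j + x j.succ + Complex.logTaylor (n j + 1) (x 0)) P := by
  have : (eval x).comp (psi c n : PR m →+* PR m) = eval (Fin.cons (1 + x 0)
      fun j => c j + x j.succ + Complex.logTaylor (n j + 1) (x 0)) := by
    ext v
    · simp [psi]
    · refine Fin.cases ?_ (fun j => ?_) v
      · simp [psi]
      · simp only [psi, lg, Complex.logTaylor, RingHom.coe_comp, RingHom.coe_coe,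
          Function.comp_apply, aeval_X, Fin.cons_succ, map_add, eval_C, eval_X, map_sum, map_mul,
          map_pow, add_right_inj]
        exact Finset.sum_congr rfl fun i _ => by ring
  exact RingHom.congr_fun this P

/-- Proof.  For `‖u‖ = e^{-κ}`, `‖w j‖ = e^{-ν log q_j}`: `eval (u, w) (psi c n P) = auxF P z ω` with
`z = 2 π i k + log (1 + u)` (`‖z‖ ≤ 2π(K-1) + 1 ≤ 7K`, `Complex.norm_log_one_add_half_le_self`),
`ω j = (c j - 2 π i k) + w j + (logTaylor (n j + 1) u - log (1 + u))`, of norm
`≤ (2K + 1 + 1) e^{-ν log q_j}` (`Complex.norm_log_sub_logTaylor_le`, `‖u‖ ≤ 1/2`, `‖u‖^(n j) ≤ e^{-ν log q_j}`).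
Then `norm_coeff_mul_le` and `coeff_psi_int`. -/
theorem coeff_psi_eq_zero (m K : ℕ) (p : Fin m → ℤ) (q n : Fin m → ℕ) (ν κ Bd : ℝ)
    (E : Finset (Fin (m + 1) →₀ ℕ)) (c : (Fin (m + 1) →₀ ℕ) → ℤ) (k : ℕ) (hk : k < K)
    (hq : ∀ j, 0 < q j) (hκ : 1 ≤ κ)
    (happ : ∀ j, |Real.pi - (p j : ℝ) / q j| ≤ Real.exp (-(ν * Real.log (q j))))
    (hn : ∀ j, ν * Real.log (q j) ≤ κ * n j)
    (hB : ∀ (z : ℂ) (ω : Fin m → ℂ), ‖z‖ ≤ 7 * K →
      (∀ j, ‖ω j‖ ≤ (2 * K + 2) * Real.exp (-(ν * Real.log (q j)))) →
      ‖auxF (auxP E c fun j => q j * Nat.lcmUpto (n j)) z ω‖ ≤ Bd)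
    (s : Fin (m + 1) →₀ ℕ)
    (hs : Bd * Real.exp (κ * s 0 + (ν - 1) * ∑ j : Fin m, (s j.succ : ℝ) * Real.log (q j)) < 1) :
    coeff s (psi (fun j => 2 * Complex.I * k * p j / q j) n
      (auxP E c fun j => q j * Nat.lcmUpto (n j))) = 0 := by
  have hq' : ∀ j, (0 : ℝ) < q j := fun j => by exact_mod_cast hq j
  have hkK : (k : ℝ) + 1 ≤ K := by exact_mod_cast hk
  have hk0 : (0 : ℝ) ≤ k := Nat.cast_nonneg k
  have h1 := norm_coeff_mul_le (psi (fun j => 2 * Complex.I * k * p j / q j) n
      (auxP E c fun j => q j * Nat.lcmUpto (n j)))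
    (Fin.cons (Real.exp (-κ)) fun j => Real.exp (-(ν * Real.log (q j))))
    (Fin.cases (Real.exp_pos _) fun j => Real.exp_pos _) Bd (fun x hx => by
      have hu : ‖x 0‖ = Real.exp (-κ) := hx 0
      have hw : ∀ j : Fin m, ‖x j.succ‖ = Real.exp (-(ν * Real.log (q j))) := fun j => hx j.succ
      have hu2 : ‖x 0‖ ≤ 1 / 2 := by
        rw [hu, Real.exp_neg, one_div]
        refine inv_anti₀ (by norm_num) ?_
        linarith [Real.add_one_le_exp κ]
      have hne : 1 + x 0 ≠ 0 := by
        intro h
        rw [eq_neg_of_add_eq_zero_right h] at hu2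
        norm_num at hu2
      have hz := hB (2 * Real.pi * Complex.I * k + Complex.log (1 + x 0))
        (fun j => (2 * Complex.I * k * p j / q j - 2 * Real.pi * Complex.I * k) + x j.succ +
          (Complex.logTaylor (n j + 1) (x 0) - Complex.log (1 + x 0)))
        (by
          refine (norm_add_le _ _).trans ?_
          have a1 := Complex.norm_log_one_add_half_le_self hu2
          have a2 : ‖(2 * Real.pi * Complex.I * k : ℂ)‖ = 2 * Real.pi * k := by
            simp [abs_of_pos Real.pi_pos]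
          rw [a2]
          nlinarith [Real.pi_lt_d2])
        (fun j => by
          have a1 : ‖(2 * Complex.I * k * p j / q j - 2 * Real.pi * Complex.I * k : ℂ)‖ ≤
              2 * K * Real.exp (-(ν * Real.log (q j))) := by
            have e : (2 * Complex.I * k * p j / q j - 2 * Real.pi * Complex.I * k : ℂ) =
                -(2 * Complex.I * k) * ((Real.pi - (p j : ℝ) / q j : ℝ) : ℂ) := by
              push_cast; ring
            rw [e, norm_mul, norm_neg, Complex.norm_real, Real.norm_eq_abs]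
            refine mul_le_mul ?_ (happ j) (abs_nonneg _) (by positivity)
            simp only [norm_mul, Complex.norm_ofNat, Complex.norm_I, Complex.norm_natCast]
            linarith
          have a2 : ‖Complex.logTaylor (n j + 1) (x 0) - Complex.log (1 + x 0)‖ ≤
              Real.exp (-(ν * Real.log (q j))) := by
            rw [norm_sub_rev]
            refine (Complex.norm_log_sub_logTaylor_le (n j) (by linarith)).trans ?_
            have b1 : ‖x 0‖ ^ n j ≤ Real.exp (-(ν * Real.log (q j))) := by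
              rw [hu, ← Real.exp_nat_mul]
              exact Real.exp_le_exp.2 (by linarith [hn j])
            have b2 : ‖x 0‖ * (1 - ‖x 0‖)⁻¹ ≤ 1 := by
              rw [mul_inv_le_iff₀ (by linarith)]; linarith
            have b3 : 0 ≤ ‖x 0‖ * (1 - ‖x 0‖)⁻¹ :=
              mul_nonneg (norm_nonneg _) (inv_nonneg.2 (by linarith))
            rw [pow_succ, mul_assoc]
            refine (div_le_self (by positivity) (by linarith [(Nat.cast_nonneg (n j) :
              (0 : ℝ) ≤ n j)])).trans ?_
            exact (mul_le_of_le_one_right (by positivity) b2).trans b1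
          have a3 := norm_add₃_le (a := (2 * Complex.I * k * p j / q j -
            2 * Real.pi * Complex.I * k : ℂ)) (b := x j.succ)
            (c := Complex.logTaylor (n j + 1) (x 0) - Complex.log (1 + x 0))
          rw [hw j] at a3
          linarith)
      rw [liou_eval_psi]
      convert hz using 2
      rw [auxF, Complex.exp_add, Complex.exp_log hne]
      rw [show Complex.exp (2 * Real.pi * Complex.I * k) = 1 by
        rw [mul_comm, Complex.exp_nat_mul_two_pi_mul_I], one_mul]
      congr 3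
      funext j
      ring) s
  refine coeff_psi_int m p q n hq E c k s ?_
  have e1 : ∏ j : Fin m, (q j : ℝ) ^ s j.succ =
      Real.exp (∑ j : Fin m, (s j.succ : ℝ) * Real.log (q j)) := by
    rw [Real.exp_sum]
    exact Finset.prod_congr rfl fun j _ => by rw [Real.exp_nat_mul, Real.exp_log (hq' j)]
  have e2 : ∏ v : Fin (m + 1), (Fin.cons (Real.exp (-κ))
      (fun j => Real.exp (-(ν * Real.log (q j)))) : Fin (m + 1) → ℝ) v ^ s v =
      Real.exp (-(κ * s 0 + ν * ∑ j : Fin m, (s j.succ : ℝ) * Real.log (q j))) := by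
    rw [Fin.prod_univ_succ]
    simp only [Fin.cons_zero, Fin.cons_succ, ← Real.exp_nat_mul, ← Real.exp_sum, ← Real.exp_add]
    congr 1
    rw [Finset.mul_sum, neg_add, ← Finset.sum_neg_distrib]
    congr 1
    · ring
    · exact Finset.sum_congr rfl fun j _ => by ring
  rw [e2, Real.exp_neg, mul_inv_le_iff₀ (Real.exp_pos _)] at h1
  rw [e1]
  refine h1.trans_lt ?_
  have e3 : κ * s 0 + ν * ∑ j : Fin m, (s j.succ : ℝ) * Real.log (q j) =
      (κ * s 0 + (ν - 1) * ∑ j : Fin m, (s j.succ : ℝ) * Real.log (q j)) +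
        ∑ j : Fin m, (s j.succ : ℝ) * Real.log (q j) := by ring
  rw [e3, Real.exp_add, ← mul_assoc]
  exact mul_lt_of_lt_one_left (Real.exp_pos _) hs

end Crest.Agent.R11
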