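/-
R11: the auxiliary polynomial (Thue–Siegel pigeonhole on Taylor coefficients).
-/
import Crest.Agent.R11.Defs

set_option autoImplicit false

namespace Crest.Agent.R11

open MvPolynomial

theorem sie_real_tail (y : ℝ) (hy : 0 ≤ y) (t : ℕ) :
    Real.exp y - ∑ a ∈ Finset.range t, y ^ a / (a.factorial : ℝ)
      ≤ Real.exp (-(t : ℝ)) * Real.exp (Real.exp 1 * y) := by
  have h1 : HasSum (fun n : ℕ => y ^ n / (n.factorial : ℝ)) (Real.exp y) := by
    rw [Real.exp_eq_exp_ℝ]; exact NormedSpace.expSeries_div_hasSum_exp y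
  have h2 : HasSum (fun n : ℕ => (Real.exp 1 * y) ^ n / (n.factorial : ℝ))
      (Real.exp (Real.exp 1 * y)) := by
    rw [Real.exp_eq_exp_ℝ]; exact NormedSpace.expSeries_div_hasSum_exp _
  have h3 : HasSum (fun n : ℕ => if n ∈ Finset.range t then y ^ n / (n.factorial : ℝ) else 0)
      (∑ a ∈ Finset.range t, y ^ a / (a.factorial : ℝ)) := by
    have := hasSum_sum_of_ne_finset_zero
      (f := fun n : ℕ => if n ∈ Finset.range t then y ^ n / (n.factorial : ℝ) else 0)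
      (s := Finset.range t) (L := SummationFilter.unconditional ℕ) (by intro b hb; simp only [hb, if_false])
    rwa [Finset.sum_congr rfl (fun a ha => if_pos ha)] at this
  refine hasSum_le (fun n => ?_) (h1.sub h3) (h2.mul_left (Real.exp (-(t : ℝ))))
  by_cases hn : n ∈ Finset.range t
  · simp only [hn, if_true, sub_self]
    positivity
  · simp only [hn, if_false, sub_zero]
    have hn' : t ≤ n := by simpa using hn
    rw [mul_pow, ← Real.exp_nat_mul, mul_one, mul_div_assoc, ← mul_assoc, ← Real.exp_add]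
    have : (1 : ℝ) ≤ Real.exp (-(t : ℝ) + n) := by
      apply Real.one_le_exp
      have : (t : ℝ) ≤ n := by exact_mod_cast hn'
      linarith
    have h0 : 0 ≤ y ^ n / (n.factorial : ℝ) := by positivity
    nlinarith

theorem sie_tail (x : ℂ) (t : ℕ) :
    ‖Complex.exp x - ∑ a ∈ Finset.range t, x ^ a / (a.factorial : ℂ)‖
      ≤ Real.exp (-(t : ℝ)) * Real.exp (Real.exp 1 * ‖x‖) :=
  (Complex.norm_exp_sub_sum_le_exp_norm_sub_sum x t).trans (sie_real_tail _ (norm_nonneg _) t)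

/-- The pigeonhole principle for a family of linear forms with nonnegative coefficients. -/
theorem sie_pigeon {α σ : Type*} (E : Finset α) (𝒮 : Finset σ) (a : α → σ → ℝ) (B τ M : ℝ) (H : ℕ)
    (hτ : 0 ≤ τ) (ha : ∀ e s, 0 ≤ a e s) (haB : ∀ e ∈ E, ∀ s ∈ 𝒮, a e s ≤ B) (hB : 0 < B)
    (hM : (𝒮.card : ℝ) ≤ M) (hN : (τ + 2) * M < E.card * Real.log (H + 1)) :
    ∃ c : α → ℤ, (∃ e ∈ E, c e ≠ 0) ∧ (∀ e, |(c e : ℝ)| ≤ H) ∧
      ∀ s ∈ 𝒮, |∑ e ∈ E, (c e : ℝ) * a e s| ≤ E.card * H * B * Real.exp (-τ) := by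
  classical
  have hM0 : 0 ≤ M := le_trans (Nat.cast_nonneg _) hM
  have hpos : 0 < (E.card : ℝ) * Real.log (H + 1) :=
    lt_of_le_of_lt (mul_nonneg (by linarith) hM0) hN
  have hE : 0 < (E.card : ℝ) := by
    rcases (Nat.cast_nonneg E.card : (0 : ℝ) ≤ _).eq_or_lt with h | h
    · rw [← h] at hpos; simp at hpos
    · exact h
  have hH : 0 < (H : ℝ) := by
    rcases (Nat.cast_nonneg H : (0 : ℝ) ≤ _).eq_or_lt with h | h
    · rw [← h] at hpos; simp at hpos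
    · exact h
  set η : ℝ := E.card * H * B * Real.exp (-τ) with hη
  have hη0 : 0 < η := by positivity
  set K : ℕ := ⌊Real.exp τ⌋₊ + 1 with hK
  let Λ : (E → ℕ) → 𝒮 → ℝ := fun c s => ∑ e : E, (c e : ℝ) * a e s
  have hcard : (Fintype.piFinset (fun _ : 𝒮 => Finset.range K)).card <
      (Fintype.piFinset (fun _ : E => Finset.range (H + 1))).card := by
    rw [Fintype.card_piFinset, Fintype.card_piFinset]
    simp only [Finset.card_range, Finset.prod_const, Finset.card_univ, Fintype.card_coe]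
    have h1 : (K : ℝ) ≤ Real.exp (τ + 2) := by
      have h2 : (⌊Real.exp τ⌋₊ : ℝ) ≤ Real.exp τ := Nat.floor_le (Real.exp_pos _).le
      have h3 : (1 : ℝ) ≤ Real.exp τ := Real.one_le_exp hτ
      have h4 : (2 : ℝ) + 1 ≤ Real.exp 2 := Real.add_one_le_exp 2
      rw [Real.exp_add, hK]
      push_cast
      nlinarith
    have h5 : ((K ^ 𝒮.card : ℕ) : ℝ) < (((H + 1) ^ E.card : ℕ) : ℝ) := by
      push_cast
      calc (K : ℝ) ^ 𝒮.card ≤ Real.exp (τ + 2) ^ 𝒮.card := by gcongr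
        _ = Real.exp (𝒮.card * (τ + 2)) := by rw [Real.exp_nat_mul]
        _ ≤ Real.exp ((τ + 2) * M) := by
            apply Real.exp_le_exp.2
            rw [mul_comm]
            gcongr
        _ < Real.exp (E.card * Real.log (H + 1)) := Real.exp_lt_exp.2 hN
        _ = ((H : ℝ) + 1) ^ E.card := by
            rw [Real.exp_nat_mul, Real.exp_log (by positivity)]
    exact_mod_cast h5
  have hΛ0 : ∀ c s, 0 ≤ Λ c s := fun c s =>
    Finset.sum_nonneg fun e _ => mul_nonneg (Nat.cast_nonneg _) (ha _ _)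
  obtain ⟨c₁, hc₁, c₂, hc₂, hne, heq⟩ := Finset.exists_ne_map_eq_of_card_lt_of_maps_to hcard
    (f := fun c s => ⌊Λ c s / η⌋₊) (by
      intro c hc
      simp only [Finset.mem_coe, Fintype.mem_piFinset, Finset.mem_range] at hc ⊢
      intro s
      have h1 : Λ c s ≤ E.card * H * B := by
        calc Λ c s ≤ ∑ _e : E, (H : ℝ) * B := by
              apply Finset.sum_le_sum
              intro e _
              have : (c e : ℝ) ≤ H := by exact_mod_cast Nat.lt_succ_iff.1 (hc e)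
              exact mul_le_mul this (haB e e.2 s s.2) (ha _ _) hH.le
          _ = E.card * H * B := by simp [mul_assoc]
      have h2 : Λ c s / η ≤ Real.exp τ := by
        rw [div_le_iff₀ hη0, hη, mul_comm (Real.exp τ), mul_assoc _ (Real.exp (-τ)), ← Real.exp_add]
        simpa using h1
      exact Nat.lt_succ_of_le (Nat.floor_le_floor h2))
  simp only [Fintype.mem_piFinset, Finset.mem_range] at hc₁ hc₂
  refine ⟨fun e => if h : e ∈ E then (c₁ ⟨e, h⟩ : ℤ) - c₂ ⟨e, h⟩ else 0, ?_, ?_, ?_⟩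
  · obtain ⟨e, he⟩ := Function.ne_iff.1 hne
    refine ⟨e, e.2, ?_⟩
    simp only [e.2, dif_pos, Subtype.coe_eta]
    intro h
    apply he
    exact_mod_cast sub_eq_zero.1 h
  · intro e
    by_cases h : e ∈ E
    · simp only [h, dif_pos]
      push_cast
      have h1 : (c₁ ⟨e, h⟩ : ℝ) ≤ H := by exact_mod_cast Nat.lt_succ_iff.1 (hc₁ _)
      have h2 : (c₂ ⟨e, h⟩ : ℝ) ≤ H := by exact_mod_cast Nat.lt_succ_iff.1 (hc₂ _)
      have h3 : (0 : ℝ) ≤ c₁ ⟨e, h⟩ := Nat.cast_nonneg _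
      have h4 : (0 : ℝ) ≤ c₂ ⟨e, h⟩ := Nat.cast_nonneg _
      rw [abs_le]
      constructor <;> linarith
    · simp [h]
  · intro s hs
    have h1 : ∑ e ∈ E, (((if h : e ∈ E then (c₁ ⟨e, h⟩ : ℤ) - c₂ ⟨e, h⟩ else 0 : ℤ)) : ℝ) * a e s
        = Λ c₁ ⟨s, hs⟩ - Λ c₂ ⟨s, hs⟩ := by
      rw [← Finset.sum_coe_sort E]
      simp only [Λ, ← Finset.sum_sub_distrib]
      refine Finset.sum_congr rfl fun e _ => ?_
      simp only [e.2, dif_pos, Subtype.coe_eta]
      push_cast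
      ring
    rw [h1]
    have h2 : ⌊Λ c₁ ⟨s, hs⟩ / η⌋₊ = ⌊Λ c₂ ⟨s, hs⟩ / η⌋₊ := congrFun heq ⟨s, hs⟩
    have h3 := Nat.floor_le (div_nonneg (hΛ0 c₁ ⟨s, hs⟩) hη0.le)
    have h4 := Nat.floor_le (div_nonneg (hΛ0 c₂ ⟨s, hs⟩) hη0.le)
    have h5 := Nat.lt_floor_add_one (Λ c₁ ⟨s, hs⟩ / η)
    have h6 := Nat.lt_floor_add_one (Λ c₂ ⟨s, hs⟩ / η)
    rw [h2] at h3 h5
    have h7 : |Λ c₁ ⟨s, hs⟩ / η - Λ c₂ ⟨s, hs⟩ / η| ≤ 1 := by
      rw [abs_le]; constructor <;> linarith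
    rw [← sub_div, abs_div, abs_of_pos hη0, div_le_one hη0] at h7
    exact h7

/-- The embedding `ℝ≥0 → ℂ`. -/
noncomputable def sie_phi : NNReal →+* ℂ := Complex.ofRealHom.comp NNReal.toRealHom

theorem sie_phi_apply (x : NNReal) : sie_phi x = ((x : ℝ) : ℂ) := rfl

theorem sie_eval_sum {σ R S : Type*} [Fintype σ] [CommSemiring R] [CommSemiring S] (φ : R →+* S)
    (x : σ → S) (g : MvPolynomial σ R) (T : Finset (σ →₀ ℕ)) (hT : g.support ⊆ T) :
    eval₂ φ x g = ∑ s ∈ T, φ (coeff s g) * ∏ i, x i ^ s i := by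
  rw [eval₂_eq']
  apply Finset.sum_subset hT
  intro s _ hs
  rw [notMem_support_iff.1 hs]
  simp

/-- Small integer combinations of polynomials with nonnegative coefficients. -/
theorem sie_poly {α σ : Type*} [Fintype σ] (E : Finset α) (g : α → MvPolynomial σ NNReal)
    (ρ : σ → NNReal) (w : σ → ℝ) (hw : ∀ i, 0 ≤ w i) (B τ M : ℝ) (H : ℕ) (hτ : 0 ≤ τ) (hB : 0 < B)
    (hg : ∀ e ∈ E, ((eval ρ (g e) : NNReal) : ℝ) ≤ B)
    (hM : ∀ 𝒮 : Finset (σ →₀ ℕ), (∀ s ∈ 𝒮, ∑ i, (s i : ℝ) * w i ≤ τ) → (𝒮.card : ℝ) ≤ M)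
    (hN : (τ + 2) * M < E.card * Real.log (H + 1)) :
    ∃ c : α → ℤ, (∃ e ∈ E, c e ≠ 0) ∧ (∀ e, |(c e : ℝ)| ≤ H) ∧
      ∀ x : σ → ℂ, (∀ i, ‖x i‖ ≤ ρ i * Real.exp (-w i)) →
        ‖∑ e ∈ E, (c e : ℂ) * eval₂ sie_phi x (g e)‖
          ≤ (M + 1) * (E.card * H * B * Real.exp (-τ)) := by
  classical
  set T : Finset (σ →₀ ℕ) := E.biUnion fun e => (g e).support with hT
  have hsub : ∀ e ∈ E, (g e).support ⊆ T := fun e he =>
    Finset.subset_biUnion_of_mem (fun e => (g e).support) he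
  let p : (σ →₀ ℕ) → Prop := fun s => ∑ i, (s i : ℝ) * w i ≤ τ
  let P : (σ →₀ ℕ) → ℝ := fun s => ∏ i, (ρ i : ℝ) ^ s i
  have hP : ∀ s, 0 ≤ P s := fun s => Finset.prod_nonneg fun i _ => by positivity
  let a : α → (σ →₀ ℕ) → ℝ := fun e s => ((coeff s (g e) : NNReal) : ℝ) * P s
  have ha : ∀ e s, 0 ≤ a e s := fun e s => mul_nonneg (NNReal.coe_nonneg _) (hP s)
  have hsum : ∀ e ∈ E, ∑ s ∈ T, a e s ≤ B := by
    intro e he
    refine le_trans (le_of_eq ?_) (hg e he)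
    have := sie_eval_sum (RingHom.id NNReal) ρ (g e) T (hsub e he)
    rw [eval₂_id] at this
    rw [this]
    simp [a, P]
  have hcard : ((T.filter p).card : ℝ) ≤ M := hM _ fun s hs => (Finset.mem_filter.1 hs).2
  obtain ⟨c, hc0, hcH, hc⟩ := sie_pigeon E (T.filter p) a B τ M H hτ ha
    (fun e he s hs => le_trans
      (Finset.single_le_sum (f := a e) (fun s _ => ha e s) (Finset.mem_filter.1 hs).1) (hsum e he))
    hB hcard hN
  refine ⟨c, hc0, hcH, fun x hx => ?_⟩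
  set η : ℝ := E.card * H * B * Real.exp (-τ) with hη
  have hη0 : 0 ≤ η := by positivity
  have hmon : ∀ s : σ →₀ ℕ, ‖∏ i, x i ^ s i‖ ≤ P s * Real.exp (-∑ i, (s i : ℝ) * w i) := by
    intro s
    rw [norm_prod, ← Finset.sum_neg_distrib, Real.exp_sum, ← Finset.prod_mul_distrib]
    refine Finset.prod_le_prod (fun i _ => norm_nonneg _) fun i _ => ?_
    rw [norm_pow, ← mul_neg, Real.exp_nat_mul, ← mul_pow]
    gcongr
    exact hx i
  have h1 : ∑ e ∈ E, (c e : ℂ) * eval₂ sie_phi x (g e)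
      = ∑ s ∈ T, ((∑ e ∈ E, (c e : ℝ) * ((coeff s (g e) : NNReal) : ℝ) : ℝ) : ℂ) * ∏ i, x i ^ s i := by
    rw [Finset.sum_congr rfl fun e he => by rw [sie_eval_sum sie_phi x (g e) T (hsub e he)]]
    simp only [Finset.mul_sum]
    rw [Finset.sum_comm]
    refine Finset.sum_congr rfl fun s _ => ?_
    push_cast
    rw [Finset.sum_mul]
    refine Finset.sum_congr rfl fun e _ => ?_
    rw [sie_phi_apply, mul_assoc]
  have h2 : ∀ s : σ →₀ ℕ,
      ‖((∑ e ∈ E, (c e : ℝ) * ((coeff s (g e) : NNReal) : ℝ) : ℝ) : ℂ) * ∏ i, x i ^ s i‖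
        ≤ |∑ e ∈ E, (c e : ℝ) * a e s| * Real.exp (-∑ i, (s i : ℝ) * w i) := by
    intro s
    rw [norm_mul, Complex.norm_real, Real.norm_eq_abs]
    have : ∑ e ∈ E, (c e : ℝ) * a e s
        = (∑ e ∈ E, (c e : ℝ) * ((coeff s (g e) : NNReal) : ℝ)) * P s := by
      rw [Finset.sum_mul]
      refine Finset.sum_congr rfl fun e _ => ?_
      simp only [a, mul_assoc]
    rw [this, abs_mul, abs_of_nonneg (hP s), mul_assoc]
    gcongr
    exact hmon s
  rw [h1]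
  refine (norm_sum_le _ _).trans ((Finset.sum_le_sum fun s _ => h2 s).trans ?_)
  rw [← Finset.sum_filter_add_sum_filter_not T p, add_mul, one_mul]
  refine add_le_add ?_ ?_
  · calc _ ≤ ∑ _s ∈ T.filter p, η := by
          refine Finset.sum_le_sum fun s hs => ?_
          have h3 : Real.exp (-∑ i, (s i : ℝ) * w i) ≤ 1 := by
            rw [Real.exp_le_one_iff, neg_nonpos]
            exact Finset.sum_nonneg fun i _ => mul_nonneg (Nat.cast_nonneg _) (hw i)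
          calc _ ≤ η * 1 := mul_le_mul (hc s hs) h3 (Real.exp_pos _).le hη0
            _ = η := mul_one _
      _ ≤ M * η := by
          rw [Finset.sum_const, nsmul_eq_mul]
          gcongr
  · calc _ ≤ ∑ s ∈ T.filter (fun s => ¬ p s), (∑ e ∈ E, (H : ℝ) * a e s) * Real.exp (-τ) := by
          refine Finset.sum_le_sum fun s hs => ?_
          have h3 : Real.exp (-∑ i, (s i : ℝ) * w i) ≤ Real.exp (-τ) := by
            have := not_le.1 (Finset.mem_filter.1 hs).2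
            exact Real.exp_le_exp.2 (by linarith)
          refine mul_le_mul ?_ h3 (Real.exp_pos _).le
            (Finset.sum_nonneg fun e _ => mul_nonneg (Nat.cast_nonneg _) (ha e s))
          refine (Finset.abs_sum_le_sum_abs _ _).trans (Finset.sum_le_sum fun e _ => ?_)
          rw [abs_mul, abs_of_nonneg (ha e s)]
          exact mul_le_mul_of_nonneg_right (hcH e) (ha e s)
      _ ≤ ∑ s ∈ T, (∑ e ∈ E, (H : ℝ) * a e s) * Real.exp (-τ) := by
          refine Finset.sum_le_sum_of_subset_of_nonneg (Finset.filter_subset _ _) fun s _ _ => ?_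
          exact mul_nonneg (Finset.sum_nonneg fun e _ => mul_nonneg (Nat.cast_nonneg _) (ha e s))
            (Real.exp_pos _).le
      _ = (∑ e ∈ E, (H : ℝ) * ∑ s ∈ T, a e s) * Real.exp (-τ) := by
          rw [← Finset.sum_mul, Finset.sum_comm]
          simp only [Finset.mul_sum]
      _ ≤ (∑ _e ∈ E, (H : ℝ) * B) * Real.exp (-τ) := by
          gcongr with e he
          exact hsum e he
      _ = η := by
          rw [Finset.sum_const, nsmul_eq_mul, hη]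
          ring

/-- The truncated generating polynomial. -/
noncomputable def sie_g {m : ℕ} (Q : Fin m → ℕ) (t : ℕ) (e : Fin (m + 1) →₀ ℕ) :
    MvPolynomial (Fin (m + 1)) NNReal :=
  (∏ j : Fin m, (C (Q j : NNReal) * (X 0 + X j.succ)) ^ e j.succ) *
    ∑ a ∈ Finset.range t, C (((e 0 : ℕ) : NNReal) ^ a / (a.factorial : NNReal)) * X 0 ^ a

theorem sie_g_eval₂ {m : ℕ} (Q : Fin m → ℕ) (t : ℕ) (e : Fin (m + 1) →₀ ℕ) (z : ℂ) (ω : Fin m → ℂ) :
    eval₂ sie_phi (Fin.cons z ω) (sie_g Q t e) =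
      (∏ j : Fin m, ((Q j : ℂ) * (z + ω j)) ^ e j.succ) *
        ∑ a ∈ Finset.range t, ((e 0 : ℂ) * z) ^ a / (a.factorial : ℂ) := by
  rw [← coe_eval₂Hom, sie_g, map_mul, map_prod, map_sum]
  congr 1
  · refine Finset.prod_congr rfl fun j _ => ?_
    simp
  · refine Finset.sum_congr rfl fun a _ => ?_
    simp [mul_pow]
    ring

theorem sie_g_eval {m : ℕ} (Q : Fin m → ℕ) (t : ℕ) (e : Fin (m + 1) →₀ ℕ) (r κ : NNReal) :
    ((eval (Fin.cons r fun _ => κ) (sie_g Q t e) : NNReal) : ℝ) =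
      (∏ j : Fin m, ((Q j : ℝ) * (r + κ)) ^ e j.succ) *
        ∑ a ∈ Finset.range t, ((e 0 : ℝ) * r) ^ a / (a.factorial : ℝ) := by
  rw [sie_g, map_mul, map_prod, map_sum]
  push_cast
  congr 1
  · refine Finset.prod_congr rfl fun j _ => ?_
    simp
  · refine Finset.sum_congr rfl fun a _ => ?_
    simp [mul_pow]
    ring

theorem sie_auxF {m : ℕ} (E : Finset (Fin (m + 1) →₀ ℕ)) (c : (Fin (m + 1) →₀ ℕ) → ℤ)
    (Q : Fin m → ℕ) (z : ℂ) (ω : Fin m → ℂ) :
    auxF (auxP E c Q) z ω = ∑ e ∈ E, (c e : ℂ) *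
      ((∏ j : Fin m, ((Q j : ℂ) * (z + ω j)) ^ e j.succ) * Complex.exp ((e 0 : ℂ) * z)) := by
  rw [auxF, auxP, map_sum]
  refine Finset.sum_congr rfl fun e _ => ?_
  rw [eval_monomial, Finsupp.prod_pow, Fin.prod_univ_succ]
  simp only [Fin.cons_zero, Fin.cons_succ, mul_pow, Finset.prod_mul_distrib, Complex.exp_nat_mul]
  ring

theorem sie_prod_le {m : ℕ} (Q : Fin m → ℕ) (e : Fin (m + 1) →₀ ℕ) (u : Fin m → ℝ) (r κ Qm : ℝ) (d : ℕ)
    (hr : 0 ≤ r) (hκ : 1 ≤ κ) (hu0 : ∀ j, 0 ≤ u j) (hu : ∀ j, u j ≤ r + κ)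
    (hd : ∑ j : Fin m, e j.succ ≤ d) (hQ : ∏ j : Fin m, (Q j : ℝ) ^ e j.succ ≤ Qm) :
    ∏ j : Fin m, ((Q j : ℝ) * u j) ^ e j.succ ≤ κ ^ d * (Qm * (1 + r) ^ d) := by
  have hQ0 : 0 ≤ ∏ j : Fin m, (Q j : ℝ) ^ e j.succ := Finset.prod_nonneg fun j _ => by positivity
  have h1 : (1 : ℝ) ≤ κ * (1 + r) := by nlinarith
  have h2 : ∏ j : Fin m, u j ^ e j.succ ≤ (κ * (1 + r)) ^ d := by
    calc ∏ j : Fin m, u j ^ e j.succ ≤ ∏ j : Fin m, (κ * (1 + r)) ^ e j.succ := by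
          refine Finset.prod_le_prod (fun j _ => pow_nonneg (hu0 j) _) fun j _ => ?_
          refine pow_le_pow_left₀ (hu0 j) ?_ _
          nlinarith [hu j]
      _ = (κ * (1 + r)) ^ ∑ j : Fin m, e j.succ := Finset.prod_pow_eq_pow_sum _ _ _
      _ ≤ (κ * (1 + r)) ^ d := pow_le_pow_right₀ h1 hd
  simp only [mul_pow, Finset.prod_mul_distrib] at h2 ⊢
  calc _ ≤ Qm * (κ ^ d * (1 + r) ^ d) :=
        mul_le_mul hQ h2 (Finset.prod_nonneg fun j _ => pow_nonneg (hu0 j) _) (hQ0.trans hQ)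
    _ = _ := by ring

/-- There are integers `c e`, not all zero, `|c e| ≤ H`, making `auxF (auxP E c Q)` small on a polydisc.

Proof.  `auxF (auxP E c Q) z ω = ∑ c e * G_e(z,ω)`, `G_e = ∏ (Q j (z + ω j))^(e j.succ) * exp (e 0 * z)`.
Fix `t = ⌈τ⌉₊` and replace `exp (b z)` by `∑_{a < t} (b z)^a / a!`: this gives real polynomials `g_e` in the
variables `(z, ω)` (type `MvPolynomial (Fin (m+1)) ℝ`) with nonnegative coefficients, of degree `≤ d` in `ω`.
Put `r = e R₀`, `B₀ = Qm (1 + r)^d exp (r L)`.  Then `∑_s coeff s g_e * r^(s 0) = g_e(r, 1) ≤ B₀`, and on the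
polydisc `‖z^(s 0) ω^s‖ ≤ r^(s 0) κ₀^d exp (-(s 0 + ν ∑ s_j lam j))`.  The error of the truncation is at most
`Qm (R₀ + κ₀)^d exp(-t) exp (r L) ≤ κ₀^d exp (-τ) B₀` (`‖∑_{a ≥ t} x^a/a!‖ ≤ e^{-t} exp (e ‖x‖)`; `‖ω j‖ ≤ κ₀`).
Let `𝒮` be the finset of exponents `s` occurring in some `g_e` with `s 0 + ν ∑ s_j lam j ≤ τ`; `|𝒮| ≤ M`.
The linear forms `Λ_s(c) = ∑_e c e * coeff s g_e * r^(s 0)` map `[0,H]^E` to `[0, N H B₀]`; cut this interval into
at most `e^τ + 1 ≤ e^(τ+2)` intervals of length `η = N H B₀ e^{-τ}` (`⌊Λ/η⌋`); since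
`e^((τ+2) M) < (H+1)^N` two different vectors `c', c''` have `|Λ_s(c' - c'')| ≤ η` for all `s ∈ 𝒮`
(`Finset.exists_ne_map_eq_of_card_lt_of_maps_to`; `η > 0` because `hN` forces `N, H ≥ 1`, and `Qm ≥ 1`).  With `c = c' - c''`: the head
is `≤ M κ₀^d η`, the tail (`s ∉ 𝒮`) and the truncation error are each `≤ κ₀^d η`. -/
theorem exists_aux (m : ℕ) (lam : Fin m → ℝ) (Q : Fin m → ℕ) (ν τ R₀ κ₀ Qm L M : ℝ) (d H : ℕ)
    (E : Finset (Fin (m + 1) →₀ ℕ))
    (hlam : ∀ j, 0 ≤ lam j) (hQ : ∀ j, 0 < Q j) (hν : 0 ≤ ν) (hτ : 0 ≤ τ) (hR : 0 ≤ R₀) (hκ : 1 ≤ κ₀)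
    (hE0 : ∀ e ∈ E, (e 0 : ℝ) ≤ L) (hEd : ∀ e ∈ E, ∑ j : Fin m, e j.succ ≤ d)
    (hEQ : ∀ e ∈ E, ∏ j : Fin m, (Q j : ℝ) ^ e j.succ ≤ Qm)
    (hM : ∀ 𝒮 : Finset (Fin (m + 1) →₀ ℕ),
      (∀ s ∈ 𝒮, (s 0 : ℝ) + ν * ∑ j : Fin m, (s j.succ : ℝ) * lam j ≤ τ) → (𝒮.card : ℝ) ≤ M)
    (hN : (τ + 2) * M < E.card * Real.log (H + 1)) :
    ∃ c : (Fin (m + 1) →₀ ℕ) → ℤ, (∃ e ∈ E, c e ≠ 0) ∧
      ∀ (z : ℂ) (ω : Fin m → ℂ), ‖z‖ ≤ R₀ → (∀ j, ‖ω j‖ ≤ κ₀ * Real.exp (-(ν * lam j))) →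
        ‖auxF (auxP E c Q) z ω‖ ≤ κ₀ ^ d * Real.exp (-τ) * (M + 2) * E.card * H *
          (Qm * (1 + Real.exp 1 * R₀) ^ d * Real.exp (Real.exp 1 * R₀ * L)) := by
  have hM0 : 0 ≤ M := by simpa using hM ∅ (by simp)
  have hEne : E.Nonempty := by
    rw [Finset.nonempty_iff_ne_empty]
    rintro rfl
    have : 0 ≤ (τ + 2) * M := mul_nonneg (by linarith) hM0
    simp at hN
    linarith
  have hQm : 0 < Qm := by
    obtain ⟨e, he⟩ := hEne
    refine lt_of_lt_of_le (Finset.prod_pos fun j _ => ?_) (hEQ e he)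
    have : (0 : ℝ) < Q j := by exact_mod_cast hQ j
    positivity
  have hκ0 : 0 < κ₀ := by linarith
  set r : ℝ := Real.exp 1 * R₀ with hr
  have hr0 : 0 ≤ r := by positivity
  have hRr : R₀ ≤ r := by
    have : 1 ≤ Real.exp 1 := Real.one_le_exp zero_le_one
    nlinarith
  set B : ℝ := κ₀ ^ d * (Qm * (1 + r) ^ d) * Real.exp (r * L) with hB
  have hB0 : 0 < B := by positivity
  set t : ℕ := ⌈τ⌉₊ with ht
  obtain ⟨r', hr'⟩ : ∃ r' : NNReal, (r' : ℝ) = r := ⟨⟨r, hr0⟩, rfl⟩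
  obtain ⟨κ', hκ'⟩ : ∃ κ' : NNReal, (κ' : ℝ) = κ₀ := ⟨⟨κ₀, hκ0.le⟩, rfl⟩
  obtain ⟨c, hc0, hcH, hc⟩ := sie_poly E (sie_g Q t)
    (Fin.cons r' fun _ => κ')
    (Fin.cons 1 fun j => ν * lam j)
    (fun i => Fin.cases (by simp) (fun j => by simpa using mul_nonneg hν (hlam j)) i)
    B τ M H hτ hB0
    (by
      intro e he
      rw [sie_g_eval, hr', hκ']
      refine mul_le_mul (sie_prod_le Q e (fun _ => r + κ₀) r κ₀ Qm d hr0 hκ (fun _ => by linarith)
        (fun _ => le_rfl) (hEd e he) (hEQ e he)) ?_ (Finset.sum_nonneg fun a _ => by positivity)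
        (by positivity)
      refine (Real.sum_le_exp_of_nonneg (by positivity) t).trans (Real.exp_le_exp.2 ?_)
      rw [mul_comm]
      exact mul_le_mul_of_nonneg_left (hE0 e he) hr0)
    (by
      intro 𝒮 h𝒮
      refine hM 𝒮 fun s hs => le_trans (le_of_eq ?_) (h𝒮 s hs)
      rw [Fin.sum_univ_succ, Finset.mul_sum]
      simp only [Fin.cons_zero, Fin.cons_succ, mul_one]
      congr 1
      refine Finset.sum_congr rfl fun j _ => ?_
      ring)
    hN
  refine ⟨c, hc0, fun z ω hz hω => ?_⟩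
  have h1 := hc (Fin.cons z ω) (fun i => Fin.cases (by
      simp only [Fin.cons_zero, hr', hr]
      rw [mul_comm (Real.exp 1), mul_assoc, ← Real.exp_add]
      simpa using hz) (fun j => by simpa [hκ'] using hω j) i)
  simp only [sie_g_eval₂] at h1
  have h2 : ‖∑ e ∈ E, (c e : ℂ) * ((∏ j : Fin m, ((Q j : ℂ) * (z + ω j)) ^ e j.succ) *
      (Complex.exp ((e 0 : ℂ) * z) -
        ∑ a ∈ Finset.range t, ((e 0 : ℂ) * z) ^ a / (a.factorial : ℂ)))‖
      ≤ E.card * H * B * Real.exp (-τ) := by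
    calc _ ≤ ∑ _e ∈ E, (H : ℝ) * (B * Real.exp (-τ)) := by
          refine (norm_sum_le _ _).trans (Finset.sum_le_sum fun e he => ?_)
          rw [norm_mul, norm_mul, Complex.norm_intCast]
          refine mul_le_mul (hcH e) ?_ (by positivity) (Nat.cast_nonneg _)
          have h3 : ‖∏ j : Fin m, ((Q j : ℂ) * (z + ω j)) ^ e j.succ‖
              ≤ κ₀ ^ d * (Qm * (1 + r) ^ d) := by
            refine le_trans (le_of_eq ?_) (sie_prod_le Q e (fun j => ‖z + ω j‖) r κ₀ Qm d hr0 hκ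
              (fun _ => norm_nonneg _) (fun j => ?_) (hEd e he) (hEQ e he))
            · simp [norm_prod]
            · have h4 : Real.exp (-(ν * lam j)) ≤ 1 := by
                rw [Real.exp_le_one_iff, neg_nonpos]
                exact mul_nonneg hν (hlam j)
              have h5 : ‖ω j‖ ≤ κ₀ := (hω j).trans (by nlinarith)
              exact (norm_add_le _ _).trans (add_le_add (hz.trans hRr) h5)
          have h6 : ‖Complex.exp ((e 0 : ℂ) * z) -
              ∑ a ∈ Finset.range t, ((e 0 : ℂ) * z) ^ a / (a.factorial : ℂ)‖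
              ≤ Real.exp (-τ) * Real.exp (r * L) := by
            refine (sie_tail _ t).trans (mul_le_mul (Real.exp_le_exp.2 ?_) (Real.exp_le_exp.2 ?_)
              (Real.exp_pos _).le (Real.exp_pos _).le)
            · have := Nat.le_ceil τ
              linarith
            · rw [norm_mul, Complex.norm_natCast, hr, mul_assoc, mul_comm R₀]
              refine mul_le_mul_of_nonneg_left ?_ (Real.exp_pos _).le
              exact mul_le_mul (hE0 e he) hz (norm_nonneg _) ((Nat.cast_nonneg _).trans (hE0 e he))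
          calc _ ≤ κ₀ ^ d * (Qm * (1 + r) ^ d) * (Real.exp (-τ) * Real.exp (r * L)) :=
                mul_le_mul h3 h6 (norm_nonneg _) (by positivity)
            _ = B * Real.exp (-τ) := by rw [hB]; ring
      _ = _ := by rw [Finset.sum_const, nsmul_eq_mul]; ring
  have h7 := (norm_add_le _ _).trans (add_le_add h1 h2)
  rw [← Finset.sum_add_distrib] at h7
  rw [sie_auxF]
  refine le_trans (le_of_eq ?_) (h7.trans (le_of_eq ?_))
  · congr 1
    refine Finset.sum_congr rfl fun e _ => ?_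
    ring
  · rw [hB]; ring

end Crest.Agent.R11
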