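/-
R11: commutative algebra for the product theorem: repeated prime in a chain, greedy transcendence basis,
and ideals of partial polynomial rings stable under derivations.
-/
import Crest.Agent.R11.Defs

set_option autoImplicit false

namespace Crest.Agent.R11

open MvPolynomial

/-! ### Coefficient lemmas -/

theorem gr_coeff_X_mul_pderiv {σ : Type*} (i : σ) (f : MvPolynomial σ ℂ) (e : σ →₀ ℕ) :
    coeff e (X i * pderiv i f) = (e i : ℂ) * coeff e f := by
  classical
  induction f using MvPolynomial.induction_on' with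
  | add p q hp hq => simp [mul_add, hp, hq]
  | monomial n a =>
    rw [X_mul_pderiv_monomial, coeff_smul, coeff_monomial]
    by_cases h : n = e
    · simp [h]
    · simp [h]

theorem gr_mem_support_pderiv {σ : Type*} {i : σ} {f : MvPolynomial σ ℂ} {e : σ →₀ ℕ} :
    e ∈ (pderiv i f).support ↔ e + Finsupp.single i 1 ∈ f.support := by
  rw [mem_support_iff, mem_support_iff, coeff_pderiv]
  have : ((e i : ℂ) + 1) ≠ 0 := by exact_mod_cast Nat.succ_ne_zero (e i)
  simp [this]

theorem gr_notMem_vars_of_pderiv {σ : Type*} {i : σ} {f : MvPolynomial σ ℂ}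
    (h : pderiv i f = 0) : i ∉ f.vars := by
  intro hi
  obtain ⟨d, hd, hid⟩ := (mem_vars_iff_mem_support i).1 hi
  have hid' : d i ≠ 0 := Finsupp.mem_support_iff.1 hid
  have : d - Finsupp.single i 1 ∈ (pderiv i f).support := by
    rw [gr_mem_support_pderiv, Finsupp.sub_add_single_one_cancel hid']
    exact hd
  simp [h] at this

/-- A polynomial whose monomials are dominated by monomials of `f` uses only variables of `f`. -/
theorem gr_supported_of_le {σ : Type*} {S : Set σ} {f g : MvPolynomial σ ℂ} (hf : f ∈ supported ℂ S)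
    (h : ∀ e ∈ g.support, ∃ e' ∈ f.support, e ≤ e') : g ∈ supported ℂ S := by
  rw [mem_supported] at hf ⊢
  intro i hi
  obtain ⟨d, hd, hid⟩ := (mem_vars_iff_mem_support i).1 (Finset.mem_coe.1 hi)
  obtain ⟨e', he', hle⟩ := h d hd
  refine hf (Finset.mem_coe.2 ((mem_vars_iff_mem_support i).2 ⟨e', he', ?_⟩))
  have h1 : d i ≠ 0 := Finsupp.mem_support_iff.1 hid
  have h2 : d i ≤ e' i := hle i
  exact Finsupp.mem_support_iff.2 (by omega)

theorem gr_pderiv_supported {σ : Type*} {S : Set σ} {f : MvPolynomial σ ℂ} (hf : f ∈ supported ℂ S)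
    (i : σ) : pderiv i f ∈ supported ℂ S :=
  gr_supported_of_le hf fun _ he => ⟨_, gr_mem_support_pderiv.1 he, le_self_add⟩

theorem gr_supported_of_notMem {σ : Type*} {S : Set σ} {v : σ} {f : MvPolynomial σ ℂ}
    (hf : f ∈ supported ℂ (insert v S)) (hv : v ∉ f.vars) : f ∈ supported ℂ S := by
  rw [mem_supported] at hf ⊢
  intro i hi
  rcases hf hi with h | h
  · subst h
    exact absurd (Finset.mem_coe.1 hi) hv
  · exact h

/-- The monomials of `DD m 0 f - b f`. -/
theorem gr_support_DD_zero_sub (m : ℕ) (f : PR m) (b : ℕ) (e : Fin (m + 1) →₀ ℕ)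
    (he : e ∈ (DD m 0 f - C (b : ℂ) * f).support) :
    (e ∈ f.support ∧ e 0 ≠ b) ∨ ∃ k : Fin m, e + Finsupp.single k.succ 1 ∈ f.support := by
  by_contra hcon
  push Not at hcon
  obtain ⟨h1, h2⟩ := hcon
  apply mem_support_iff.1 he
  rw [DD_zero, coeff_sub, coeff_add, gr_coeff_X_mul_pderiv, coeff_sum, coeff_C_mul,
    Finset.sum_eq_zero]
  · by_cases hf : e ∈ f.support
    · simp [h1 hf]
    · simp [notMem_support_iff.1 hf]
  · intro k _
    exact notMem_support_iff.1 fun hk => h2 k (gr_mem_support_pderiv.1 hk)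

theorem gr_support_DD (m : ℕ) (i : Fin (m + 1)) (f : PR m) :
    ∀ e ∈ (DD m i f).support, ∃ e' ∈ f.support, e ≤ e' := by
  intro e he
  induction i using Fin.cases with
  | zero =>
    have he' : e ∈ (DD m 0 f - C ((0 : ℕ) : ℂ) * f).support := by simpa using he
    rcases gr_support_DD_zero_sub m f 0 e he' with h | ⟨k, hk⟩
    · exact ⟨e, h.1, le_rfl⟩
    · exact ⟨_, hk, le_self_add⟩
  | succ j =>
    rw [DD_succ] at he
    exact ⟨_, gr_mem_support_pderiv.1 he, le_self_add⟩

/-- An increasing sequence of `m + 2` nonzero ideals inside a prime `p` of `PR m`: some prime `q ≤ p` is minimal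
over `a i` and contains `a (i+1)`.
Proof: choose downwards (`Ideal.exists_minimalPrimes_le`) primes `q (m+1) ≥ … ≥ q 0` inside `p`, `q i` minimal over
`a i`.  If `a (i+1) ≤ q i` fails for all `i ≤ m`, then `⊥ < q 0 < … < q (m+1)` is a chain of primes of length
`m + 2`, but `ringKrullDim (PR m) = m + 1` (`MvPolynomial.ringKrullDim_of_isNoetherianRing`). -/
theorem exists_repeated_prime (m : ℕ) (a : ℕ → Ideal (PR m)) (ha : Monotone a) (h0 : a 0 ≠ ⊥)
    (p : Ideal (PR m)) [p.IsPrime] (hp : a (m + 1) ≤ p) :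
    ∃ i ≤ m, ∃ q : Ideal (PR m), q ∈ (a i).minimalPrimes ∧ a (i + 1) ≤ q ∧ q ≤ p := by
  by_contra hcon
  push Not at hcon
  have key : ∀ k ≤ m + 1, ∃ s : LTSeries (PrimeSpectrum (PR m)), s.length = k ∧
      s.head.asIdeal ∈ (a (m + 1 - k)).minimalPrimes ∧ s.head.asIdeal ≤ p := by
    intro k
    induction k with
    | zero =>
      intro _
      obtain ⟨q, hq, hqp⟩ := Ideal.exists_minimalPrimes_le hp
      exact ⟨RelSeries.singleton _ ⟨q, hq.1.1⟩, rfl, by simpa using hq, by simpa using hqp⟩
    | succ k ih =>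
      intro hk
      obtain ⟨s, hs, hmin, hsp⟩ := ih (by omega)
      have hi : m + 1 - k = (m - k) + 1 := by omega
      have hi' : m + 1 - (k + 1) = m - k := by omega
      rw [hi] at hmin
      have hle : a (m - k) ≤ s.head.asIdeal := (ha (Nat.le_succ _)).trans hmin.1.2
      have := s.head.isPrime
      obtain ⟨q, hq, hqs⟩ := Ideal.exists_minimalPrimes_le hle
      have hlt : (⟨q, hq.1.1⟩ : PrimeSpectrum (PR m)) < s.head := by
        refine lt_of_le_of_ne hqs fun h => ?_
        have h' : q = s.head.asIdeal := congrArg PrimeSpectrum.asIdeal h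
        exact hcon (m - k) (by omega) q hq (h' ▸ hmin.1.2) (hqs.trans hsp)
      refine ⟨s.cons ⟨q, hq.1.1⟩ hlt, by simp [hs], ?_, ?_⟩
      · rw [hi', RelSeries.head_cons]
        exact hq
      · rw [RelSeries.head_cons]
        exact hqs.trans hsp
  obtain ⟨s, hs, hmin, -⟩ := key (m + 1) le_rfl
  rw [Nat.sub_self] at hmin
  have hlt : (⟨⊥, Ideal.isPrime_bot⟩ : PrimeSpectrum (PR m)) < s.head := by
    refine lt_of_le_of_ne (show (⊥ : Ideal (PR m)) ≤ _ from bot_le) fun h => ?_
    have h' : ⊥ = s.head.asIdeal := congrArg PrimeSpectrum.asIdeal h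
    exact h0 (le_bot_iff.1 (h' ▸ hmin.1.2))
  have h1 := Order.LTSeries.length_le_krullDim (s.cons _ hlt)
  have h2 : ringKrullDim (PR m) = ((m + 1 : ℕ) : WithBot ℕ∞) := by
    rw [MvPolynomial.ringKrullDim_of_isNoetherianRing, ringKrullDim_eq_zero_of_field]
    simp
  have h3 : (s.cons _ hlt).length = m + 2 := by simp [hs]
  rw [h3] at h1
  have h4 : ((m + 2 : ℕ) : WithBot ℕ∞) ≤ ((m + 1 : ℕ) : WithBot ℕ∞) := h2 ▸ h1
  have h5 : m + 2 ≤ m + 1 := by exact_mod_cast h4
  omega

/-- Greedy transcendence basis `J = Bᶜ` modulo a proper ideal: `v ∈ J` iff no nonzero element of `q` is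
supported in `{v} ∪ {u ∈ J | u < v}` (strong recursion on `v`, or induction on prefixes).  A nonzero element of
`q` supported in `J` is impossible: look at its largest variable (a constant would make `q = ⊤`). -/
theorem exists_greedy (n : ℕ) (q : Ideal (MvPolynomial (Fin n) ℂ)) (hq : q ≠ ⊤) :
    ∃ B : Finset (Fin n), (∀ f ∈ supported ℂ ((B : Set (Fin n))ᶜ), f ∈ q → f = 0) ∧
      ∀ v ∈ B, ∃ f ∈ supported ℂ (insert v {u | u ∉ B ∧ u < v}), f ∈ q ∧ f ≠ 0 := by
  have key : ∀ k ≤ n, ∃ B : Finset (Fin n), (∀ v ∈ B, v.val < k) ∧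
      (∀ f ∈ supported ℂ {u | u ∉ B ∧ u.val < k}, f ∈ q → f = 0) ∧
      ∀ v ∈ B, ∃ f ∈ supported ℂ (insert v {u | u ∉ B ∧ u < v}), f ∈ q ∧ f ≠ 0 := by
    intro k
    induction k with
    | zero =>
      intro _
      refine ⟨∅, by simp, fun f hf hfq => ?_, by simp⟩
      have hE : ({u | u ∉ (∅ : Finset (Fin n)) ∧ u.val < 0} : Set (Fin n)) = ∅ := by
        ext u
        simp
      rw [hE, supported_empty, Algebra.mem_bot] at hf
      obtain ⟨c, rfl⟩ := hf
      by_contra hc
      have hc' : c ≠ 0 := by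
        rintro rfl
        exact hc (map_zero _)
      exact hq (q.eq_top_of_isUnit_mem hfq ((IsUnit.mk0 c hc').map _))
    | succ k ih =>
      intro hk
      obtain ⟨B, hB1, hB2, hB3⟩ := ih (by omega)
      let v : Fin n := ⟨k, by omega⟩
      by_cases hv : ∃ f ∈ supported ℂ (insert v {u | u ∉ B ∧ u < v}), f ∈ q ∧ f ≠ 0
      · refine ⟨insert v B, fun w hw => ?_, fun f hf => hB2 f (supported_mono ?_ hf), fun w hw => ?_⟩
        · rcases Finset.mem_insert.1 hw with rfl | hw
          · exact Nat.lt_succ_self k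
          · exact (hB1 w hw).trans (Nat.lt_succ_self k)
        · rintro u ⟨hu1, hu2⟩
          rw [Finset.mem_insert, not_or] at hu1
          refine ⟨hu1.2, ?_⟩
          have : u.val ≠ k := fun h => hu1.1 (Fin.ext h)
          omega
        · have hw' : w.val ≤ k ∧
              ∃ f ∈ supported ℂ (insert w {u | u ∉ B ∧ u < w}), f ∈ q ∧ f ≠ 0 := by
            rcases Finset.mem_insert.1 hw with rfl | hw
            · exact ⟨le_rfl, hv⟩
            · exact ⟨(hB1 w hw).le, hB3 w hw⟩
          obtain ⟨hwk, f, hf, hfq⟩ := hw'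
          refine ⟨f, supported_mono (Set.insert_subset_insert ?_) hf, hfq⟩
          rintro u ⟨hu1, hu2⟩
          refine ⟨fun hu => ?_, hu2⟩
          rcases Finset.mem_insert.1 hu with rfl | hu
          · exact absurd (show k < w.val from hu2) (by omega)
          · exact hu1 hu
      · push Not at hv
        refine ⟨B, fun w hw => (hB1 w hw).trans (Nat.lt_succ_self k),
          fun f hf => hv f (supported_mono ?_ hf), hB3⟩
        rintro u ⟨hu1, hu2⟩
        by_cases huv : u = v
        · exact Or.inl huv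
        · refine Or.inr ⟨hu1, ?_⟩
          have : u.val ≠ k := fun h => huv (Fin.ext h)
          show u.val < k
          omega
  obtain ⟨B, -, hB2, hB3⟩ := key n le_rfl
  refine ⟨B, fun f hf => hB2 f (supported_mono ?_ hf), hB3⟩
  intro u hu
  exact ⟨hu, u.2⟩

/-- If `q` meets `ℂ[S ∪ {v}]` but not `ℂ[S]`, there is an element of the intersection with `∂_v f ∉ q`:
take a nonzero element of least total degree; if `∂_v f ∈ q` then `∂_v f = 0` by minimality, so `v ∉ vars f`
(characteristic zero, `coeff_pderiv`), so `f ∈ ℂ[S]`. -/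
theorem exists_pderiv_notMem {σ : Type*} (q : Ideal (MvPolynomial σ ℂ)) (S : Set σ) (v : σ)
    (hS : ∀ f ∈ supported ℂ S, f ∈ q → f = 0)
    (h : ∃ f ∈ supported ℂ (insert v S), f ∈ q ∧ f ≠ 0) :
    ∃ f ∈ supported ℂ (insert v S), f ∈ q ∧ pderiv v f ∉ q := by
  obtain ⟨f, ⟨hf, hfq, hf0⟩, hmin⟩ :=
    (InvImage.wf (fun f : MvPolynomial σ ℂ => f.degreeOf v) wellFounded_lt).has_min
      {f | f ∈ supported ℂ (insert v S) ∧ f ∈ q ∧ f ≠ 0} h
  refine ⟨f, hf, hfq, fun hd => hf0 (hS f (gr_supported_of_notMem hf ?_) hfq)⟩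
  apply gr_notMem_vars_of_pderiv
  by_contra hne
  apply hmin (pderiv v f) ⟨gr_pderiv_supported hf v, hd, hne⟩
  have hlt : ∀ e ∈ (pderiv v f).support, e v < f.degreeOf v := by
    intro e he
    have := monomial_le_degreeOf v (gr_mem_support_pderiv.1 he)
    simp only [Finsupp.add_apply, Finsupp.single_eq_same] at this
    omega
  obtain ⟨e, he⟩ := support_nonempty.2 hne
  exact (degreeOf_lt_iff (lt_of_le_of_lt (Nat.zero_le _) (hlt e he))).2 hlt

/-- A prime containing a nonzero polynomial in the single variable `v` contains some `X v - C c`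
(`ℂ` is algebraically closed; `Polynomial.Splits`, or induction on the degree). -/
theorem exists_X_sub_C_mem {σ : Type*} (q : Ideal (MvPolynomial σ ℂ)) [q.IsPrime] (v : σ)
    (h : ∃ f ∈ supported ℂ ({v} : Set σ), f ∈ q ∧ f ≠ 0) : ∃ c : ℂ, X v - C c ∈ q := by
  obtain ⟨f, hf, hfq, hf0⟩ := h
  rw [supported_eq_adjoin_X, Set.image_singleton, Algebra.adjoin_singleton_eq_range_aeval] at hf
  obtain ⟨g, rfl⟩ := hf
  let φ : Polynomial ℂ →ₐ[ℂ] MvPolynomial σ ℂ := Polynomial.aeval (X v)
  have hg : g ∈ q.comap φ := hfq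
  have hg0 : g ≠ 0 := by
    rintro rfl
    exact hf0 (map_zero _)
  have hprime : (q.comap φ).IsPrime := inferInstance
  rw [(IsAlgClosed.splits g).eq_prod_roots] at hg
  rcases hprime.mem_or_mem hg with h1 | h1
  · exact absurd (Ideal.eq_top_of_isUnit_mem _ h1
      (Polynomial.isUnit_C.2 (IsUnit.mk0 _ (Polynomial.leadingCoeff_ne_zero.2 hg0)))) hprime.ne_top
  · obtain ⟨x, hx, hxq⟩ := (hprime.multiset_prod_mem_iff_exists_mem _).1 h1
    obtain ⟨c, -, rfl⟩ := Multiset.mem_map.1 hx
    refine ⟨c, ?_⟩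
    have := Ideal.mem_comap.1 hxq
    simpa [φ] using this

/-- Let `W = q ∩ ℂ[S ∪ {x_j}]` be nonzero, `q ∩ ℂ[S] = 0`, and let `W` be mapped into `q` by the derivations
`DD m i`, `i ∈ S`.  Then `0 ∉ S` and `W` contains a nonzero polynomial in `x_j` alone.

Proof: take `f ≠ 0` in `W` with `MonomialOrder.degree` minimal (any monomial order, e.g. `MonomialOrder.lex`).
For `i ∈ S`, `i ≠ 0`: `∂_i f ∈ W` has smaller degree, so `∂_i f = 0`, so `i ∉ vars f`.  Hence `f ∈ ℂ[y, x_j]`
(`ℂ[x_j]` if `0 ∉ S`, done).  If `0 ∈ S`: `δ f = y ∂_y f + ∂_j f ∈ W`, and with `b` the `y`-exponent of the leading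
monomial, `δ f - b f ∈ W` has smaller degree, so `δ f = b f`.  Comparing coefficients,
`(b - e 0) * coeff e f = (e j + 1) * coeff (e + single j 1) f`; for fixed `y`-exponent `a ≠ b` the monomial of `f`
with the largest `x_j`-exponent is contradictory, so only `e 0 = b` occurs, and then `∂_j f = 0`, so `f ∈ ℂ[S]`,
`f = 0`. -/
theorem stable_imp (m : ℕ) (q : Ideal (PR m)) (S : Set (Fin (m + 1))) (j : Fin m)
    (hS : ∀ f ∈ supported ℂ S, f ∈ q → f = 0)
    (h : ∃ f ∈ supported ℂ (insert j.succ S), f ∈ q ∧ f ≠ 0)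
    (hst : ∀ f ∈ supported ℂ (insert j.succ S), f ∈ q → ∀ i ∈ S, DD m i f ∈ q) :
    (0 : Fin (m + 1)) ∉ S ∧ ∃ f ∈ supported ℂ ({j.succ} : Set (Fin (m + 1))), f ∈ q ∧ f ≠ 0 := by
  let M : MonomialOrder (Fin (m + 1)) := MonomialOrder.lex
  obtain ⟨f, ⟨hf, hfq, hf0⟩, hmin⟩ :=
    (InvImage.wf (fun f : PR m => M.toSyn (M.degree f)) wellFounded_lt).has_min
      {f | f ∈ supported ℂ (insert j.succ S) ∧ f ∈ q ∧ f ≠ 0} h
  -- an element of `W` all of whose monomials are smaller than the degree of `f` vanishes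
  have hz : ∀ g ∈ supported ℂ (insert j.succ S), g ∈ q →
      (∀ e ∈ g.support, M.toSyn e < M.toSyn (M.degree f)) → g = 0 := by
    intro g hg hgq hlt
    by_contra hg0
    exact hmin g ⟨hg, hgq, hg0⟩ (hlt _ (M.degree_mem_support hg0))
  have hstep : ∀ (e : Fin (m + 1) →₀ ℕ) (i : Fin (m + 1)), e + Finsupp.single i 1 ∈ f.support →
      M.toSyn e < M.toSyn (M.degree f) := by
    intro e i he
    refine lt_of_lt_of_le (M.toSyn_strictMono ?_) (M.le_degree he)
    exact lt_add_of_pos_right _ (pos_iff_ne_zero.2 (by simp))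
  have hvar : ∀ k : Fin m, k.succ ∈ S → k.succ ∉ f.vars := by
    intro k hk
    apply gr_notMem_vars_of_pderiv
    refine hz _ (gr_pderiv_supported hf _) ?_ fun e he => hstep e _ (gr_mem_support_pderiv.1 he)
    rw [← DD_succ]
    exact hst f hf hfq _ hk
  have h0S : (0 : Fin (m + 1)) ∉ S := by
    intro h0
    set b : ℕ := M.degree f 0 with hb
    have hg : DD m 0 f - C (b : ℂ) * f = 0 := by
      refine hz _ (gr_supported_of_le hf fun e he => ?_)
        (q.sub_mem (hst f hf hfq 0 h0) (q.mul_mem_left _ hfq)) fun e he => ?_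
      · rcases gr_support_DD_zero_sub m f b e he with h | ⟨k, hk⟩
        · exact ⟨e, h.1, le_rfl⟩
        · exact ⟨_, hk, le_self_add⟩
      · rcases gr_support_DD_zero_sub m f b e he with h | ⟨k, hk⟩
        · refine lt_of_le_of_ne (M.le_degree h.1) fun h' => h.2 ?_
          rw [M.toSyn.injective h']
        · exact hstep e _ hk
    have hsum : ∑ k : Fin m, pderiv k.succ f = pderiv j.succ f := by
      refine Finset.sum_eq_single j (fun k _ hkj => pderiv_eq_zero_of_notMem_vars fun hk => ?_)
        (by simp)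
      rcases mem_supported.1 hf (Finset.mem_coe.2 hk) with h | h
      · exact hkj (Fin.succ_injective _ h)
      · exact hvar k h hk
    have hco : ∀ e, coeff e (pderiv j.succ f) = ((b : ℂ) - (e 0 : ℂ)) * coeff e f := by
      intro e
      have := congrArg (coeff e) hg
      rw [DD_zero, hsum, coeff_sub, coeff_add, gr_coeff_X_mul_pderiv, coeff_C_mul, coeff_zero] at this
      linear_combination this
    have hb0 : ∀ e ∈ f.support, e 0 = b := by
      intro e he
      by_contra hne
      have hall : ∀ n : ℕ, e + Finsupp.single j.succ n ∈ f.support := by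
        intro n
        induction n with
        | zero => simpa using he
        | succ n ih =>
          rw [Finsupp.single_add, ← add_assoc, ← gr_mem_support_pderiv, mem_support_iff, hco]
          refine mul_ne_zero (sub_ne_zero.2 ?_) (mem_support_iff.1 ih)
          have : (e + Finsupp.single j.succ n : Fin (m + 1) →₀ ℕ) 0 = e 0 := by
            simp
          rw [this]
          exact_mod_cast fun h => hne (Eq.symm h)
      have := monomial_le_degreeOf j.succ (hall (f.degreeOf j.succ + 1))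
      simp only [Finsupp.add_apply, Finsupp.single_eq_same] at this
      omega
    have hd : pderiv j.succ f = 0 := by
      ext e
      rw [hco, coeff_zero]
      by_cases he : e ∈ f.support
      · simp [hb0 e he]
      · simp [notMem_support_iff.1 he]
    exact hf0 (hS f (gr_supported_of_notMem hf (gr_notMem_vars_of_pderiv hd)) hfq)
  refine ⟨h0S, f, ?_, hfq, hf0⟩
  rw [mem_supported]
  intro i hi
  rcases mem_supported.1 hf hi with h | h
  · exact h
  · induction i using Fin.cases with
    | zero => exact absurd h h0S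
    | succ k => exact absurd (Finset.mem_coe.1 hi) (hvar k h)

/-- The derivations `DD` do not increase the degree in any variable. -/
theorem degreeOf_iterD_le (m : ℕ) (l : List (Fin (m + 1))) (P : PR m) (v : Fin (m + 1)) :
    (iterD (DD m) l P).degreeOf v ≤ P.degreeOf v := by
  induction l generalizing P with
  | nil => exact le_rfl
  | cons i l ih =>
    refine (ih _).trans (degreeOf_le_iff.2 fun e he => ?_)
    obtain ⟨e', he', hle⟩ := gr_support_DD m i P e he
    exact (hle v).trans (monomial_le_degreeOf v he')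

/-- More precisely every monomial of a derivative is dominated by a monomial of `P`. -/
theorem support_iterD (m : ℕ) (l : List (Fin (m + 1))) (P : PR m) :
    ∀ e ∈ (iterD (DD m) l P).support, ∃ e' ∈ P.support, e ≤ e' := by
  induction l generalizing P with
  | nil => exact fun e he => ⟨e, he, le_rfl⟩
  | cons i l ih =>
    intro e he
    obtain ⟨e', he', hle⟩ := ih _ e he
    obtain ⟨e'', he'', hle'⟩ := gr_support_DD m i P e' he'
    exact ⟨e'', he'', hle.trans hle'⟩

end Crest.Agent.R11
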