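/-
R11: the product theorem for the invariant derivations of `𝔾ₘ × 𝔾ₐ^m`.
-/
import Crest.Agent.R11.Bezout
import Crest.Agent.R11.Greedy

set_option autoImplicit false

namespace Crest.Agent.R11

open MvPolynomial

theorem prod_pderiv_eq_zero {σ : Type*} {S : Set σ} {f : MvPolynomial σ ℂ} (hf : f ∈ supported ℂ S)
    {v : σ} (hv : v ∉ S) : pderiv v f = 0 := by
  classical
  apply pderiv_eq_zero_of_notMem_vars
  intro h
  exact hv (mem_supported.1 hf h)

theorem prod_bound {ι : Type*} [Fintype ι] [DecidableEq ι] (x : ι → ℝ) (j : ι) (G : ℝ) (hG : 1 ≤ G)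
    (hx0 : ∀ i, 0 ≤ x i) (hx : ∀ i, i ≠ j → x i ≤ G) (n : ℕ) (hn : Fintype.card ι ≤ n + 1) :
    ∏ i, x i ≤ x j * G ^ n := by
  rw [← Finset.mul_prod_erase Finset.univ x (Finset.mem_univ j)]
  apply mul_le_mul_of_nonneg_left _ (hx0 j)
  calc ∏ i ∈ Finset.univ.erase j, x i ≤ ∏ _i ∈ Finset.univ.erase j, G := by
        apply Finset.prod_le_prod (fun i _ => hx0 i)
        intro i hi
        exact hx i (Finset.ne_of_mem_erase hi)
    _ = G ^ (Finset.univ.erase j).card := by simp
    _ ≤ G ^ n := by
        apply pow_le_pow_right₀ hG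
        rw [Finset.card_erase_of_mem (Finset.mem_univ j), Finset.card_univ]
        omega

/-- Faltings' product theorem for `DD`.

Proof.  `ε' = ε/(m+1)`, `a i = span {iterD l P | wtL (1/r) l ≤ i ε'}`; `exists_repeated_prime` gives `q ≤ p`,
`exists_greedy` gives `B`; `B ≠ ∅` since `P ∈ q`.  For `v ∈ B` choose `f v ∈ q ∩ ℂ[J_{<v} ∪ v]` with `∂_v f v ∉ q`
(`exists_pderiv_notMem`).  Weights `1/(ε' r i)`.  If `B = {0}`, `bezout_ineq` gives `ε' r 0 ≤ d 0`, false.
For `j ∈ B \ 0`, `i ∈ J`, `i < j` and any `f ∈ q ∩ ℂ[J_{<j} ∪ j]` with `DD i f ∉ q`, the family `DD i` (at `j`),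
`DD v` (at `v ≠ j`) is triangular (`rk 0 = 2`, `rk j = 1`, else `0`) and `bezout_ineq` gives `r i ≤ Gam * d j`,
false.  So `stable_imp` applies: `0 ∈ B` and `q` contains a nonzero polynomial in `x_j`. -/
theorem product_thm (m : ℕ) (d r : Fin (m + 1) → ℝ) (ε Θ : ℝ) (hd : ∀ v, 0 < d v) (hr : ∀ v, 0 < r v)
    (hε : 0 < ε) (hε1 : ε ≤ 1) (hΘ : 1 ≤ Θ)
    (h0 : d 0 < ε / (m + 1) * r 0) (h1 : ∀ j : Fin m, d j.succ ≤ Θ * r j.succ)
    (h2 : ∀ i j, i < j → Gam m Θ ε * d j < r i)
    (P : PR m) (hP : P ≠ 0) (hdeg : ∀ v, (P.degreeOf v : ℝ) ≤ d v)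
    (p : Ideal (PR m)) [p.IsPrime] (hX : X 0 ∉ p)
    (hall : ∀ l, wtL (fun v => 1 / r v) l ≤ ε → iterD (DD m) l P ∈ p) :
    (∃ c : ℂ, X 0 - C c ∈ p) ∧ ∃ (j : Fin m) (c : ℂ), X j.succ - C c ∈ p := by
  classical
  set ε' : ℝ := ε / (m + 1) with hε'
  have hm1 : (1 : ℝ) ≤ m + 1 := by
    have : (0 : ℝ) ≤ m := Nat.cast_nonneg m
    linarith
  have hε'0 : 0 < ε' := by positivity
  have hε'1 : ε' ≤ 1 := by
    rw [hε', div_le_one (by positivity)]
    linarith
  set w : Fin (m + 1) → ℝ := fun v => 1 / r v with hw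
  let G : ℕ → Set (PR m) := fun i => {g | ∃ l, wtL w l ≤ i * ε' ∧ g = iterD (DD m) l P}
  let a : ℕ → Ideal (PR m) := fun i => Ideal.span (G i)
  have ha : Monotone a := by
    intro i j hij
    apply Ideal.span_mono
    rintro g ⟨l, hl, rfl⟩
    refine ⟨l, hl.trans ?_, rfl⟩
    exact mul_le_mul_of_nonneg_right (by exact_mod_cast hij) hε'0.le
  have hPa : P ∈ a 0 := Ideal.subset_span ⟨[], by simp, rfl⟩
  have ha0 : a 0 ≠ ⊥ := by
    intro h
    rw [h] at hPa
    exact hP (by simpa using hPa)
  have hap : a (m + 1) ≤ p := by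
    apply Ideal.span_le.2
    rintro g ⟨l, hl, rfl⟩
    apply hall l
    have : ((m + 1 : ℕ) : ℝ) * ε' = ε := by
      rw [hε']; push_cast; field_simp
    rwa [this] at hl
  obtain ⟨i₀, _, q, hqmin, hq1, hqp⟩ := exists_repeated_prime m a ha ha0 p hap
  have hqP : q.IsPrime := hqmin.1.1
  have hXq : X 0 ∉ q := fun h => hX (hqp h)
  have hPq : P ∈ q := hqmin.1.2 (ha (Nat.zero_le _) hPa)
  obtain ⟨B, hJ, hB⟩ := exists_greedy (m + 1) q hqP.ne_top
  -- the sets `J_{<v}`
  let S : Fin (m + 1) → Set (Fin (m + 1)) := fun v => {u | u ∉ B ∧ u < v}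
  have hSJ : ∀ v, S v ⊆ (B : Set (Fin (m + 1)))ᶜ := fun v u hu => by simpa using hu.1
  have hS : ∀ v, ∀ f ∈ supported ℂ (S v), f ∈ q → f = 0 := fun v f hf hfq =>
    hJ f (supported_mono (hSJ v) hf) hfq
  -- the Bezout inequality for a family of invariant derivations
  have key : ∀ (φ : B → Fin (m + 1)) (f : B → PR m) (rk : B → ℕ), (∀ i, f i ∈ q) →
      (∀ i, DD m (φ i) (f i) ∉ q) → (∀ i l, i ≠ l → rk i ≤ rk l → DD m (φ i) (f l) ∈ q) →
      1 ≤ (B.card.factorial : ℝ) * ∏ v : B, (ε'⁻¹ * w (φ v) * d v) := by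
    intro φ f rk h1 h2 h3
    refine bezout_ineq q B hJ ?_ (G i₀) hqmin d hd ?_ (fun v => DD m (φ v))
      (fun v => ε'⁻¹ * w (φ v)) ?_ ?_ f rk h1 h2 h3
    · intro v hv
      obtain ⟨f, hf, hf'⟩ := hB v hv
      exact ⟨f, supported_mono (Set.insert_subset_insert (hSJ v)) hf, hf'⟩
    · rintro g ⟨l, _, rfl⟩ v _
      exact le_trans (by exact_mod_cast degreeOf_iterD_le m l P v) (hdeg v)
    · intro v
      have := hr (φ v)
      simp only [hw]
      positivity
    · rintro g ⟨l, hl, rfl⟩ l' hl'
      rw [iterD_comp, ← iterD_append]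
      apply hq1
      apply Ideal.subset_span
      refine ⟨l ++ l'.map φ, ?_, rfl⟩
      rw [wtL_mul (fun v => w (φ v)), wtL_comp w φ, inv_mul_lt_iff₀ hε'0] at hl'
      rw [wtL_append]
      push_cast
      linarith
  -- the polynomials `f v`
  have hf : ∀ v : B, ∃ f ∈ supported ℂ (insert (v : Fin (m + 1)) (S v)), f ∈ q ∧ pderiv v.1 f ∉ q :=
    fun v => exists_pderiv_notMem q (S v) v (hS v) (hB v v.2)
  choose f hfS hfq hfd using hf
  have hS0 : S 0 = ∅ := by
    ext u
    simp [S]
  have hfD : ∀ v : B, DD m v (f v) ∉ q := by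
    rintro ⟨v, hv⟩
    induction v using Fin.cases with
    | zero =>
      rw [DD_zero, Finset.sum_eq_zero, add_zero]
      · intro h
        rcases hqP.mem_or_mem h with h | h
        · exact hXq h
        · exact hfd ⟨0, hv⟩ h
      · intro j _
        apply prod_pderiv_eq_zero (hfS ⟨0, hv⟩)
        simp [hS0]
    | succ j =>
      rw [DD_succ]
      exact hfd ⟨j.succ, hv⟩
  have hΘε : 1 ≤ Θ / ε' := by
    rw [le_div_iff₀ hε'0]
    linarith
  have hfac : ∀ v : Fin (m + 1), ε'⁻¹ * w v * d v ≤ Θ / ε' := by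
    intro v
    have hrv := hr v
    have e1 : ε'⁻¹ * w v * d v = d v / (ε' * r v) := by
      simp only [hw]; field_simp
    rw [e1]
    induction v using Fin.cases with
    | zero =>
      refine le_trans ?_ hΘε
      rw [div_le_one (by positivity)]
      exact h0.le
    | succ j =>
      rw [div_le_div_iff₀ (by positivity) hε'0]
      have := mul_le_mul_of_nonneg_right (h1 j) hε'0.le
      linarith
  -- there is a nonzero index in `B`
  have hBj : ∃ j : Fin m, j.succ ∈ B := by
    by_contra hcon
    push Not at hcon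
    have hB0 : ∀ v ∈ B, v = 0 := by
      intro v hv
      induction v using Fin.cases with
      | zero => rfl
      | succ j => exact absurd hv (hcon j)
    by_cases h0B : (0 : Fin (m + 1)) ∈ B
    · have hBeq : B = {0} := by
        ext v
        simp only [Finset.mem_singleton]
        exact ⟨hB0 v, fun h => h ▸ h0B⟩
      have := key (fun v => v) f (fun _ => 0) hfq hfD (by
        intro i l hil _
        exact absurd (Subtype.ext ((hB0 i i.2).trans (hB0 l l.2).symm)) hil)
      rw [Finset.prod_coe_sort B (fun v => ε'⁻¹ * w v * d v), hBeq] at this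
      simp only [Finset.card_singleton, Nat.factorial_one, Nat.cast_one, Finset.prod_singleton,
        one_mul, hw] at this
      have hr0 := hr 0
      have e1 : ε'⁻¹ * (1 / r 0) * d 0 = d 0 / (ε' * r 0) := by field_simp
      rw [e1, le_div_iff₀ (by positivity)] at this
      linarith
    · have hBe : B = ∅ := by
        apply Finset.eq_empty_of_forall_notMem
        intro v hv
        exact h0B (hB0 v hv ▸ hv)
      apply hP
      apply hJ P _ hPq
      simp [hBe]
  obtain ⟨j, hjB⟩ := hBj
  have hst : ∀ g ∈ supported ℂ (insert j.succ (S j.succ)), g ∈ q → ∀ i ∈ S j.succ, DD m i g ∈ q := by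
    intro g hg hgq i hi
    by_contra hcon
    let j' : B := ⟨j.succ, hjB⟩
    have hf'S : ∀ v : B, Function.update f j' g v ∈
        supported ℂ (insert (v : Fin (m + 1)) (S v)) := by
      intro v
      by_cases hv : v = j'
      · subst hv
        simpa using hg
      · rw [Function.update_of_ne hv]
        exact hfS v
    have := key (Function.update (fun v : B => (v : Fin (m + 1))) j' i) (Function.update f j' g)
      (fun v => if (v : Fin (m + 1)) = 0 then 2 else if v = j' then 1 else 0) (by
        intro v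
        by_cases hv : v = j'
        · subst hv
          simpa using hgq
        · rw [Function.update_of_ne hv]
          exact hfq v) (by
        intro v
        by_cases hv : v = j'
        · subst hv
          simpa using hcon
        · rw [Function.update_of_ne hv, Function.update_of_ne hv]
          exact hfD v) (by
        intro v l hvl hrk
        by_cases hv : v = j'
        · subst hv
          have hl0 : (l : Fin (m + 1)) = 0 := by
            by_contra hl0
            have hne : l ≠ j' := fun h => hvl h.symm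
            simp [hl0, hne, j'] at hrk
          have hi0 : i ≠ 0 := by
            rintro rfl
            exact hi.1 (hl0 ▸ l.2)
          obtain ⟨i', rfl⟩ := Fin.exists_succ_eq.2 hi0
          rw [Function.update_self, DD_succ, prod_pderiv_eq_zero (hf'S l)]
          · exact q.zero_mem
          · rw [hl0, hS0]
            simp
        · rw [Function.update_of_ne hv]
          have hv0 : (v : Fin (m + 1)) ≠ 0 := by
            intro hv0
            have hl0 : (l : Fin (m + 1)) ≠ 0 := fun h => hvl (Subtype.ext (hv0.trans h.symm))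
            simp only [hv0, hl0, if_true, if_false] at hrk
            split_ifs at hrk <;> omega
          obtain ⟨v', hv'⟩ := Fin.exists_succ_eq.2 hv0
          rw [← hv', DD_succ, hv', prod_pderiv_eq_zero (hf'S l)]
          · exact q.zero_mem
          · rintro (h | h)
            · exact hvl (Subtype.ext h)
            · exact h.1 v.2)
    have hcard : B.card ≤ m + 1 := by simpa using Finset.card_le_univ B
    have hb := prod_bound (fun v : B => ε'⁻¹ *
        w (Function.update (fun v : B => (v : Fin (m + 1))) j' i v) * d v) j' (Θ / ε') hΘε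
      (by
        intro v
        have := hr (Function.update (fun v : B => (v : Fin (m + 1))) j' i v)
        have := hd v
        simp only [hw]
        positivity)
      (by
        intro v hv
        rw [Function.update_of_ne hv]
        exact hfac v) m (by simpa using hcard)
    rw [Function.update_self] at hb
    have hri := hr i
    have hdj := hd j.succ
    have h3 := h2 i j.succ hi.2
    have hfa : (B.card.factorial : ℝ) ≤ (m + 1).factorial := by
      exact_mod_cast Nat.factorial_le hcard
    have e2 : Gam m Θ ε = ((m + 1).factorial : ℝ) * (Θ / ε') ^ (m + 1) := by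
      rw [Gam, hε']
      congr 2
      field_simp
    have h4 : ε'⁻¹ ≤ Θ / ε' := by
      rw [div_eq_mul_inv]
      exact le_mul_of_one_le_left (by positivity) hΘ
    have h5 : (1 : ℝ) ≤ ((m + 1).factorial : ℝ) * (Θ / ε' * (1 / r i) * d j.succ * (Θ / ε') ^ m) := by
      refine this.trans (mul_le_mul hfa (hb.trans ?_) ?_ (by positivity))
      · simp only [hw]
        gcongr
      · apply Finset.prod_nonneg
        intro v _
        have := hr (Function.update (fun v : B => (v : Fin (m + 1))) j' i v)
        have := hd v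
        simp only [hw]
        positivity
    have e3 : ((m + 1).factorial : ℝ) * (Θ / ε' * (1 / r i) * d j.succ * (Θ / ε') ^ m) =
        Gam m Θ ε * d j.succ / r i := by
      rw [e2, pow_succ]
      field_simp
    rw [e3, le_div_iff₀ hri] at h5
    linarith
  obtain ⟨h0S, hj⟩ := stable_imp m q (S j.succ) j (hS _) (hB _ hjB) hst
  have h0B : (0 : Fin (m + 1)) ∈ B := by
    by_contra h
    exact h0S ⟨h, Fin.succ_pos j⟩
  refine ⟨?_, j, ?_⟩
  · obtain ⟨g, hg, hg'⟩ := hB 0 h0B
    obtain ⟨c, hc⟩ := exists_X_sub_C_mem q 0 ⟨g, by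
      have : (insert 0 {u | u ∉ B ∧ u < 0} : Set (Fin (m + 1))) = {0} := by
        ext u
        simp
      rwa [this] at hg, hg'⟩
    exact ⟨c, hqp hc⟩
  · obtain ⟨c, hc⟩ := exists_X_sub_C_mem q j.succ hj
    exact ⟨c, hqp hc⟩

end Crest.Agent.R11
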