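/-
R11: the sharp zero estimate.
-/
import Crest.Agent.R11.Product

set_option autoImplicit false

namespace Crest.Agent.R11

open MvPolynomial

/-- The maximal ideal of a point. -/
noncomputable def mI {m : ℕ} (x : Fin (m + 1) → ℂ) : Ideal (PR m) := RingHom.ker (eval x)

theorem mem_mI {m : ℕ} {x : Fin (m + 1) → ℂ} {f : PR m} : f ∈ mI x ↔ eval x f = 0 := Iff.rfl

instance mI_isMaximal {m : ℕ} (x : Fin (m + 1) → ℂ) : (mI x).IsMaximal :=
  RingHom.ker_isMaximal_of_surjective _ (fun a => ⟨C a, by simp⟩)

theorem sub_C_eval_mem {m : ℕ} (x : Fin (m + 1) → ℂ) (p : Ideal (PR m))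
    (h : ∀ v, X v - C (x v) ∈ p) (f : PR m) : f - C (eval x f) ∈ p := by
  induction f using MvPolynomial.induction_on with
  | C a => simp
  | add f g hf hg =>
    have : f + g - C (eval x (f + g)) = (f - C (eval x f)) + (g - C (eval x g)) := by
      simp only [map_add]; ring
    rw [this]
    exact p.add_mem hf hg
  | mul_X f v hf =>
    have : f * X v - C (eval x (f * X v)) =
        (f - C (eval x f)) * X v + C (eval x f) * (X v - C (x v)) := by
      simp only [map_mul, eval_X]; ring
    rw [this]
    exact p.add_mem (p.mul_mem_right _ hf) (p.mul_mem_left _ (h v))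

theorem mI_le {m : ℕ} (x : Fin (m + 1) → ℂ) (p : Ideal (PR m)) (h : ∀ v, X v - C (x v) ∈ p) :
    mI x ≤ p := by
  intro f hf
  have := sub_C_eval_mem x p h f
  rw [mem_mI.1 hf] at this
  simpa using this

theorem isAlgebraic_quot_mI {m : ℕ} (x : Fin (m + 1) → ℂ) : Algebra.IsAlgebraic ℂ (PR m ⧸ mI x) := by
  constructor
  intro a
  obtain ⟨f, rfl⟩ := Ideal.Quotient.mk_surjective a
  have h : Ideal.Quotient.mk (mI x) f = algebraMap ℂ (PR m ⧸ mI x) (eval x f) := by
    rw [← Ideal.Quotient.mk_algebraMap, Ideal.Quotient.eq]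
    apply sub_C_eval_mem
    intro v
    simp [mem_mI]
  rw [h]
  exact isAlgebraic_algebraMap _

theorem mem_VI_of {R : Type*} [CommRing R] [Algebra ℂ R] {ι : Type*} {D : ι → Derivation ℂ R R}
    {w : ι → ℝ} (hw : ∀ i, 0 ≤ w i) {q : Ideal R} {n : ℝ} {f : R} (hf : f ∈ q)
    (h : ∀ i, D i f ∈ VI D w q (n - w i)) : f ∈ VI D w q n := by
  rw [mem_VI hw]
  intro l hl
  cases l with
  | nil => exact hf
  | cons i l =>
    rw [iterD_cons]
    apply (mem_VI hw).1 (h i)
    rw [wtL_cons] at hl
    linarith

theorem one_mem_sup_VI {m : ℕ} {w : Fin (m + 1) → ℝ} (hw : ∀ i, 0 < w i) (p q : Ideal (PR m))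
    (h : p ⊔ q = ⊤) (n : ℝ) : p ⊔ VI (DD m) w q n = ⊤ := by
  obtain ⟨M, hM⟩ := exists_pow_mem_sup_VI (DD m) hw p q n (a := 1) (by simp [h])
  rw [Ideal.eq_top_iff_one]
  simpa using hM

/-- A local coordinate congruent to `x_i - c_i` modulo `y - 1` vanishing to order `w i.succ`. -/
theorem exists_coord {m : ℕ} (c : Fin m → ℂ) {w : Fin (m + 1) → ℝ} (hw : ∀ i, 0 < w i) (i : Fin m) :
    ∃ g : PR m, X i.succ - C (c i) + (1 - X 0) * g ∈ VI (DD m) w (mI (Fin.cons 1 c)) (w i.succ) := by
  have hw' : ∀ i, 0 ≤ w i := fun i => (hw i).le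
  set u : PR m := 1 - X 0 with hu
  have hu0 : DD m 0 u = -X 0 := by
    rw [DD_zero, Finset.sum_eq_zero]
    · simp [hu]
    · intro j _
      simp [hu, pderiv_X_of_ne (Fin.succ_ne_zero j).symm]
  have hu1 : ∀ j : Fin m, DD m j.succ u = 0 := by
    intro j
    simp [DD_succ, hu, pderiv_X_of_ne (Fin.succ_ne_zero j).symm]
  have huV : u ∈ VI (DD m) w (mI (Fin.cons 1 c)) (w 0) := by
    apply mem_VI_of hw'
    · simp [mem_mI, hu]
    · intro v
      induction v using Fin.cases with
      | zero => rw [VI_eq_top _ hw' _ (by simp)]; trivial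
      | succ j => rw [hu1]; exact Ideal.zero_mem _
  obtain ⟨N, hN⟩ := exists_nat_ge (w i.succ / w 0)
  rw [div_le_iff₀ (hw 0)] at hN
  refine ⟨∑ a ∈ Finset.range N, C (1 / ((a : ℂ) + 1)) * u ^ a, ?_⟩
  have e1 : u * ∑ a ∈ Finset.range N, C (1 / ((a : ℂ) + 1)) * u ^ a =
      ∑ a ∈ Finset.range N, (1 / ((a : ℂ) + 1)) • u ^ (a + 1) := by
    rw [Finset.mul_sum]
    apply Finset.sum_congr rfl
    intro a _
    rw [smul_eq_C_mul]
    ring
  have e2 : ∀ v, DD m v (∑ a ∈ Finset.range N, (1 / ((a : ℂ) + 1)) • u ^ (a + 1)) =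
      (∑ a ∈ Finset.range N, u ^ a) * DD m v u := by
    intro v
    rw [map_sum, Finset.sum_mul]
    apply Finset.sum_congr rfl
    intro a _
    rw [Derivation.map_smul, Derivation.leibniz_pow, Nat.add_sub_cancel, ← Nat.cast_smul_eq_nsmul ℂ,
      smul_smul]
    have : (1 / ((a : ℂ) + 1)) * ((a + 1 : ℕ) : ℂ) = 1 := by
      have : (a : ℂ) + 1 ≠ 0 := by exact_mod_cast Nat.succ_ne_zero a
      push_cast
      field_simp
    rw [this, one_smul, smul_eq_mul]
  rw [e1]
  apply mem_VI_of hw'
  · rw [← e1]
    simp [mem_mI, hu]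
  · intro v
    rw [map_add, e2]
    induction v using Fin.cases with
    | zero =>
      have e3 : DD m 0 (X i.succ - C (c i)) = 1 := by
        rw [DD_zero, Finset.sum_eq_single i]
        · simp [pderiv_X_of_ne (Fin.succ_ne_zero i)]
        · intro j _ hj
          simp [pderiv_X_of_ne (fun h => hj (Fin.succ_injective _ h).symm : i.succ ≠ j.succ)]
        · simp
      have e4 : (1 : PR m) + (∑ a ∈ Finset.range N, u ^ a) * -X 0 = u ^ N := by
        have := geom_sum_mul_neg u N
        have h1 : (1 : PR m) - u = X 0 := by rw [hu]; ring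
        rw [h1] at this
        rw [mul_neg, this]
        ring
      rw [e3, hu0, e4]
      refine VI_anti _ _ _ ?_ (pow_mem_VI hw' huV N)
      linarith [hw 0]
    | succ j =>
      rw [hu1, mul_zero, add_zero]
      by_cases hj : j = i
      · subst hj
        rw [VI_eq_top _ hw' _ (by simp)]
        trivial
      · have : DD m j.succ (X i.succ - C (c i)) = 0 := by
          simp [DD_succ, pderiv_X_of_ne (fun h => hj (Fin.succ_injective _ h).symm : i.succ ≠ j.succ)]
        rw [this]
        exact Ideal.zero_mem _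

/-- Lower bound for the rank at one point. -/
theorem card_le_rank_mI {m : ℕ} (c : Fin m → ℂ) {w : Fin (m + 1) → ℝ} (hw : ∀ i, 0 ≤ w i) (n : ℝ)
    (E : Finset (Fin (m + 1) →₀ ℕ)) (hE : ∀ e ∈ E, ∑ i, (e i : ℝ) * w i < n) :
    (E.card : Cardinal) ≤ Module.rank ℂ (PR m ⧸ VI (DD m) w (mI (Fin.cons 1 c)) n) := by
  refine card_le_rank (mI (Fin.cons 1 c)) ?_ (DD m) w hw
    (fun v => X v - C ((Fin.cons 1 c : Fin (m + 1) → ℂ) v)) (fun v => if v = 0 then 1 else 0)
    ?_ ?_ ?_ n E hE
  · intro a ha
    simpa [mem_mI] using ha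
  · intro v
    simp [mem_mI]
  · intro v
    induction v using Fin.cases with
    | zero =>
      rw [DD_zero, Finset.sum_eq_zero]
      · simp [mem_mI]
      · intro j _
        simp [pderiv_X_of_ne (Fin.succ_ne_zero j).symm]
    | succ j => simp [DD_succ, mem_mI]
  · intro v l hvl hrk
    induction v using Fin.cases with
    | zero =>
      exfalso
      simp [hvl.symm] at hrk
    | succ j =>
      simp [DD_succ, pderiv_X_of_ne hvl.symm]

/-- Chinese remainder theorem: ranks add up. -/
theorem mul_le_rank_iInf {R : Type} [CommRing R] [Algebra ℂ R] {K : ℕ} (I : Fin K → Ideal R)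
    (hI : Pairwise (Function.onFun IsCoprime I)) (N : ℕ)
    (h : ∀ k, (N : Cardinal) ≤ Module.rank ℂ (R ⧸ I k)) :
    ((K * N : ℕ) : Cardinal) ≤ Module.rank ℂ (R ⧸ ⨅ k, I k) := by
  let φ : (R ⧸ ⨅ k, I k) →ₐ[ℂ] (∀ k, R ⧸ I k) :=
    Ideal.Quotient.liftₐ _ (AlgHom.pi fun k => Ideal.Quotient.mkₐ ℂ (I k)) (by
      intro a ha
      funext k
      simpa [Ideal.Quotient.eq_zero_iff_mem] using (Ideal.mem_iInf.1 ha k))
  have hφ : Function.Surjective φ.toLinearMap := by
    intro x
    obtain ⟨r, hr⟩ := Ideal.pi_quotient_surjective hI x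
    refine ⟨Ideal.Quotient.mk _ r, ?_⟩
    funext k
    exact hr k
  refine le_trans ?_ (LinearMap.rank_le_of_surjective _ hφ)
  rw [rank_pi]
  refine le_trans ?_ (Cardinal.sum_le_sum _ _ h)
  simp

/-- Dyson type zero estimate at `K` points `(1, c k)` with pairwise different coordinates, simplex degrees.

Proof.  `𝔪 k = ker (eval (1, c k))`, `w = (1/T, lam j / S)`.  `abstract_bound` over `ℂ` with
`F n = {f | supp f ⊆ {e 0 ≤ n L, ∑ e_j lam j ≤ n A}}`, `I n = ⨅ k, VI DD w (𝔪 k) ((1-ε) n)`.  Primes `p`:
not below any `𝔪 k`: `p ⊔ I n = ⊤`; `p = 𝔪 k`: algebraic; some `iterD l P ∉ p` of weight `≤ ε`: kind 3 with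
`b = 1`; otherwise `product_thm` gives `y - 1 ∈ p`, `x_j - c k j ∈ p`, so `p` lies below exactly one `𝔪 k`, some
`Q = x_i - c k i ∉ p`, `b = lam i / A`, and `Q ≡ Q - lg N (y - 1) ∈ VI (lam i / S)` modulo `p`.
The rank of `R / I n` is at least `K` times the number of lattice points (CRT, `card_le_rank`, `count_lower`). -/
theorem zero_estimate (m K : ℕ) (lam : Fin m → ℝ) (A L S T ε : ℝ) (c : Fin K → Fin m → ℂ)
    (hlam : ∀ j, 0 < lam j) (hL : 0 < L) (hS : 0 < S) (hT : 0 < T) (hSA : S ≤ A) (hε : 0 < ε) (hε1 : ε < 1)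
    (hc : ∀ j, Function.Injective fun k => c k j)
    (h0 : L < ε / (m + 1) * T)
    (h1 : ∀ j, Gam m (A / S) ε * (A / lam j) < T)
    (h2 : ∀ i j, i < j → Gam m (A / S) ε * (A / lam j) < S / lam i)
    (P : PR m) (hP : P ≠ 0)
    (hdeg : ∀ e ∈ P.support, (e 0 : ℝ) ≤ L ∧ ∑ j : Fin m, (e j.succ : ℝ) * lam j ≤ A)
    (hvan : ∀ (k : Fin K) (l : List (Fin (m + 1))),
      wtL (Fin.cons (1 / T) (fun j => lam j / S)) l < 1 →
        eval (Fin.cons 1 (c k)) (iterD (DD m) l P) = 0) :
    K * T * S ^ m * (1 - ε) ^ (m + 1) ≤ (m + 1) * L * A ^ m := by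
  classical
  have hA : 0 < A := lt_of_lt_of_le hS hSA
  have hε' : 0 < 1 - ε := by linarith
  rcases Nat.eq_zero_or_pos K with rfl | hK
  · simp only [Nat.cast_zero, zero_mul]
    positivity
  set w : Fin (m + 1) → ℝ := Fin.cons (1 / T) (fun j => lam j / S) with hwdef
  have hw : ∀ v, 0 < w v := by
    intro v
    induction v using Fin.cases with
    | zero => simp only [hwdef, Fin.cons_zero]; positivity
    | succ j => simp only [hwdef, Fin.cons_succ]; have := hlam j; positivity
  have hw' : ∀ v, 0 ≤ w v := fun v => (hw v).le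
  let 𝔪 : Fin K → Ideal (PR m) := fun k => mI (Fin.cons 1 (c k))
  have hPV : ∀ k, P ∈ VI (DD m) w (𝔪 k) 1 := fun k => (mem_VI hw').2 fun l hl => hvan k l hl
  -- the product theorem
  have hprod : ∀ (p : Ideal (PR m)) [p.IsPrime] (k : Fin K), p ≤ 𝔪 k →
      (∀ l, wtL w l ≤ ε → iterD (DD m) l P ∈ p) →
      X 0 - 1 ∈ p ∧ ∃ j : Fin m, X j.succ - C (c k j) ∈ p := by
    intro p _ k hpk hall
    have := product_thm m (Fin.cons L fun j => A / lam j) (Fin.cons T fun j => S / lam j) ε (A / S)
      (by
        intro v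
        induction v using Fin.cases with
        | zero => simpa using hL
        | succ j => simp only [Fin.cons_succ]; have := hlam j; positivity)
      (by
        intro v
        induction v using Fin.cases with
        | zero => simpa using hT
        | succ j => simp only [Fin.cons_succ]; have := hlam j; positivity)
      hε hε1.le (by rw [le_div_iff₀ hS]; linarith) (by simpa using h0)
      (by
        intro j
        simp only [Fin.cons_succ]
        have := hlam j
        apply le_of_eq
        field_simp)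
      (by
        intro i j hij
        induction j using Fin.cases with
        | zero => exact absurd hij (by simp)
        | succ j =>
          induction i using Fin.cases with
          | zero => simpa using h1 j
          | succ i => simpa using h2 i j (by simpa using hij))
      P hP
      (by
        intro v
        rw [degreeOf_eq_sup]
        obtain ⟨e, he, hee⟩ := Finset.exists_mem_eq_sup P.support (by simpa using hP) (fun e => e v)
        rw [hee]
        induction v using Fin.cases with
        | zero => simpa using (hdeg e he).1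
        | succ j =>
          simp only [Fin.cons_succ]
          rw [le_div_iff₀ (hlam j)]
          refine le_trans ?_ (hdeg e he).2
          exact Finset.single_le_sum (f := fun j : Fin m => (e j.succ : ℝ) * lam j)
            (fun j _ => mul_nonneg (Nat.cast_nonneg _) (hlam j).le) (Finset.mem_univ j))
      p (by
        intro h
        simpa [𝔪, mem_mI] using hpk h)
      (by
        intro l hl
        apply hall l
        convert hl using 2
        funext v
        induction v using Fin.cases with
        | zero => simp [hwdef]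
        | succ j => simp [hwdef])
    obtain ⟨⟨a, ha⟩, j, b, hb⟩ := this
    have ha1 : a = 1 := by
      have := hpk ha
      simp only [𝔪, mem_mI, map_sub, eval_X, Fin.cons_zero, eval_C] at this
      exact (sub_eq_zero.1 this).symm
    have hb1 : b = c k j := by
      have := hpk hb
      simp only [𝔪, mem_mI, map_sub, eval_X, Fin.cons_succ, eval_C] at this
      exact (sub_eq_zero.1 this).symm
    subst ha1 hb1
    exact ⟨by simpa using ha, j, hb⟩
  obtain ⟨-, j₀, -⟩ := hprod (𝔪 ⟨0, hK⟩) ⟨0, hK⟩ le_rfl
    (fun l hl => hvan _ l (lt_of_le_of_lt hl hε1))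
  have h𝔪 : ∀ k k', k ≠ k' → 𝔪 k ⊔ 𝔪 k' = ⊤ := by
    intro k k' hk
    apply Ideal.IsMaximal.coprime_of_ne (mI_isMaximal _) (mI_isMaximal _)
    intro h
    have h1 : X j₀.succ - C (c k j₀) ∈ mI (Fin.cons 1 (c k)) := by simp [mem_mI]
    rw [h] at h1
    simp only [mem_mI, map_sub, eval_X, Fin.cons_succ, eval_C] at h1
    exact hk (hc j₀ (sub_eq_zero.1 h1).symm)
  let s : ℝ → Set (Fin (m + 1) →₀ ℕ) := fun n =>
    {e | (e 0 : ℝ) ≤ n * L ∧ ∑ j : Fin m, (e j.succ : ℝ) * lam j ≤ n * A}
  let F : ℝ → Submodule ℂ (PR m) := fun n => restrictSupport ℂ (s n)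
  have hF : ∀ n f, f ∈ F n ↔ ∀ e ∈ f.support,
      (e 0 : ℝ) ≤ n * L ∧ ∑ j : Fin m, (e j.succ : ℝ) * lam j ≤ n * A := fun n f => Iff.rfl
  let I : ℝ → Ideal (PR m) := fun n => ⨅ k, VI (DD m) w (𝔪 k) ((1 - ε) * n)
  have hsup : ∀ (p : Ideal (PR m)) (t : Finset (Fin K)) (n : ℝ), (∀ k ∈ t, ¬ p ≤ 𝔪 k) →
      ∃ a ∈ p, ∀ k ∈ t, 1 - a ∈ VI (DD m) w (𝔪 k) n := by
    intro p t n ht
    have := Ideal.sup_iInf_eq_top (I := p) (s := t) (J := fun k => VI (DD m) w (𝔪 k) n) (by
      intro k hk
      apply one_mem_sup_VI hw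
      by_contra hne
      have := (mI_isMaximal (Fin.cons 1 (c k))).eq_of_le hne le_sup_right
      exact ht k hk (le_sup_left.trans this.ge))
    rw [Ideal.eq_top_iff_one] at this
    obtain ⟨a, ha, b, hb, hab⟩ := Submodule.mem_sup.1 this
    refine ⟨a, ha, fun k hk => ?_⟩
    have : 1 - a = b := by rw [← hab]; ring
    rw [this]
    simp only [Ideal.mem_iInf] at hb
    exact hb k hk
  obtain ⟨C₀, hC₀, hrank⟩ := abstract_bound (D := ℂ) F
    (by
      intro a b hab
      apply restrictSupport_mono
      rintro e ⟨h1, h2⟩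
      exact ⟨h1.trans (mul_le_mul_of_nonneg_right hab hL.le),
        h2.trans (mul_le_mul_of_nonneg_right hab hA.le)⟩)
    (by
      intro a b f hf g hg
      rw [hF] at hf hg ⊢
      intro e he
      obtain ⟨e1, he1, e2, he2, rfl⟩ := Finset.mem_add.1 (support_mul f g he)
      obtain ⟨h1, h2⟩ := hf e1 he1
      obtain ⟨h3, h4⟩ := hg e2 he2
      simp only [Finsupp.add_apply, Nat.cast_add, add_mul, Finset.sum_add_distrib]
      exact ⟨add_le_add h1 h3, add_le_add h2 h4⟩)
    (by
      intro f
      refine ⟨∑ e ∈ f.support, ((e 0 : ℝ) / L + (∑ j : Fin m, (e j.succ : ℝ) * lam j) / A), ?_⟩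
      rw [hF]
      intro e he
      have hnn : ∀ e : Fin (m + 1) →₀ ℕ, 0 ≤ ∑ j : Fin m, (e j.succ : ℝ) * lam j := fun e =>
        Finset.sum_nonneg fun j _ => mul_nonneg (Nat.cast_nonneg _) (hlam j).le
      have := Finset.single_le_sum
        (f := fun e : Fin (m + 1) →₀ ℕ => (e 0 : ℝ) / L + (∑ j : Fin m, (e j.succ : ℝ) * lam j) / A)
        (fun e _ => by have := hnn e; positivity) he
      have h1 : 0 ≤ (e 0 : ℝ) / L := by positivity
      have h2 : 0 ≤ (∑ j : Fin m, (e j.succ : ℝ) * lam j) / A := by have := hnn e; positivity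
      constructor
      · rw [← div_le_iff₀ hL]; linarith
      · rw [← div_le_iff₀ hA]; linarith)
    I
    (by
      intro n hn
      simp only [I, iInf_eq_top]
      intro k
      exact VI_eq_top _ hw' _ (mul_nonpos_of_nonneg_of_nonpos hε'.le hn))
    (by
      intro p hp
      by_cases hpk : ∃ k, p ≤ 𝔪 k
      swap
      · left
        intro n
        refine ⟨1, one_ne_zero, ?_⟩
        obtain ⟨a, ha, ha'⟩ := hsup p Finset.univ ((1 - ε) * n) (fun k _ h => hpk ⟨k, h⟩)
        rw [map_one]
        refine Submodule.mem_sup.2 ⟨a, ha, 1 - a, ?_, by ring⟩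
        exact Ideal.mem_iInf.2 fun k => ha' k (Finset.mem_univ k)
      right
      obtain ⟨k, hk⟩ := hpk
      by_cases hpe : p = 𝔪 k
      · left
        rw [hpe]
        exact isAlgebraic_quot_mI _
      right
      by_cases hall : ∀ l, wtL w l ≤ ε → iterD (DD m) l P ∈ p
      swap
      · push Not at hall
        obtain ⟨l, hl, hlp⟩ := hall
        refine ⟨_, hlp, 1, one_pos, ?_, ?_⟩
        · rw [hF]
          intro e he
          obtain ⟨e', he', hee⟩ := support_iterD m l P e he
          obtain ⟨h1, h2⟩ := hdeg e' he'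
          rw [one_mul, one_mul]
          refine ⟨le_trans (by exact_mod_cast hee 0) h1, le_trans (Finset.sum_le_sum fun j _ => ?_) h2⟩
          exact mul_le_mul_of_nonneg_right (by exact_mod_cast hee j.succ) (hlam j).le
        · intro n f hf
          apply Ideal.mem_sup_right
          refine Ideal.mem_iInf.2 fun k' => ?_
          refine VI_anti _ _ _ ?_ (mul_mem_VI hw' (iterD_mem_VI hw' (hPV k') l) (Ideal.mem_iInf.1 hf k'))
          linarith
      obtain ⟨hy, j, hj⟩ := hprod p k hk hall
      have hi : ∃ i : Fin m, X i.succ - C (c k i) ∉ p := by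
        by_contra hcon
        push Not at hcon
        apply hpe
        apply le_antisymm hk
        apply mI_le
        intro v
        induction v using Fin.cases with
        | zero => simpa using hy
        | succ i => simpa using hcon i
      obtain ⟨i, hi⟩ := hi
      have hli := hlam i
      refine ⟨_, hi, lam i / A, by positivity, ?_, ?_⟩
      · apply Submodule.sub_mem
        · rw [X, monomial_mem_restrictSupport]
          left
          refine ⟨?_, ?_⟩
          · rw [Finsupp.single_eq_of_ne (Fin.succ_ne_zero i).symm]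
            simp only [Nat.cast_zero]
            positivity
          · rw [Finset.sum_eq_single i]
            · simp [hA.ne']
            · intro j _ hj
              rw [Finsupp.single_eq_of_ne (fun h => hj (Fin.succ_injective _ h))]
              simp
            · simp
        · rw [C_apply, monomial_mem_restrictSupport]
          left
          refine ⟨?_, ?_⟩
          · simp only [Finsupp.coe_zero, Pi.zero_apply, Nat.cast_zero]
            positivity
          · simp only [Finsupp.coe_zero, Pi.zero_apply, Nat.cast_zero, zero_mul, Finset.sum_const_zero]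
            positivity
      · intro n f hf
        obtain ⟨g, hg⟩ := exists_coord (c k) hw i
        obtain ⟨a, ha, ha'⟩ := hsup p (Finset.univ.erase k) ((1 - ε) * n) (by
          intro k' hk' h
          have := h hj
          simp only [𝔪, mem_mI, map_sub, eval_X, Fin.cons_succ, eval_C] at this
          exact Finset.ne_of_mem_erase hk' (hc j (sub_eq_zero.1 this)))
        refine Submodule.mem_sup.2 ⟨(X 0 - 1) * g * f +
          a * ((X i.succ - C (c k i) + (1 - X 0) * g) * f), ?_,
          (1 - a) * ((X i.succ - C (c k i) + (1 - X 0) * g) * f), ?_, by ring⟩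
        · exact p.add_mem (p.mul_mem_right _ (p.mul_mem_right _ hy)) (p.mul_mem_right _ ha)
        · refine Ideal.mem_iInf.2 fun k' => ?_
          by_cases hk' : k' = k
          · subst hk'
            apply Ideal.mul_mem_left
            refine VI_anti _ _ _ ?_ (mul_mem_VI hw' hg (Ideal.mem_iInf.1 hf k'))
            have e1 : w i.succ = lam i / S := by simp [hwdef]
            have e2 : lam i / A ≤ lam i / S := div_le_div_of_nonneg_left hli.le hS hSA
            have e3 : 0 ≤ ε * (lam i / A) := by positivity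
            rw [e1]
            nlinarith
          · exact Ideal.mul_mem_right _ _ (ha' k' (by simp [hk'])))
  -- numerical consequence
  have hprodlam : 0 < ∏ j, lam j := Finset.prod_pos fun j _ => hlam j
  have hsum : 0 ≤ ∑ j, lam j := Finset.sum_nonneg fun j _ => (hlam j).le
  have hfac : (0 : ℝ) < m.factorial := by exact_mod_cast Nat.factorial_pos m
  have main := le_of_forall_pow_le
    (K * ((1 - ε) ^ (m + 1) / (((m + 1).factorial : ℝ) * ∏ v, w v)))
    (L * (A ^ m / (m.factorial * ∏ j, lam j))) (C₀ + (1 / L + (∑ j, lam j) / A)) (m + 1) (by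
      intro n hn
      obtain ⟨E, hE, hEc⟩ := count_lower w hw ((1 - ε) * n) (by positivity)
      have hlow := mul_le_rank_iInf (fun k => VI (DD m) w (𝔪 k) ((1 - ε) * n)) (by
        intro k k' hkk
        rw [Function.onFun, Ideal.isCoprime_iff_sup_eq]
        apply one_mem_sup_VI hw
        rw [sup_comm]
        apply one_mem_sup_VI hw
        exact h𝔪 k' k hkk.symm) E.card (fun k => card_le_rank_mI (c k) hw' _ E hE)
      have hfin : (s (n + C₀)).Finite := by
        refine (finite_exps (Fin.cons ((n + C₀) * L) fun j => (n + C₀) * A / lam j :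
          Fin (m + 1) → ℝ)).subset ?_
        rintro e ⟨h1, h2⟩ v
        induction v using Fin.cases with
        | zero => simpa using h1
        | succ j =>
          simp only [Fin.cons_succ]
          rw [le_div_iff₀ (hlam j)]
          refine le_trans ?_ h2
          exact Finset.single_le_sum (f := fun j : Fin m => (e j.succ : ℝ) * lam j)
            (fun j _ => mul_nonneg (Nat.cast_nonneg _) (hlam j).le) (Finset.mem_univ j)
      have hup : Module.rank ℂ (F (n + C₀)) = (hfin.toFinset.card : Cardinal) := by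
        rw [← (basisRestrictSupport ℂ (s (n + C₀))).mk_eq_rank'', ← Cardinal.mk_coe_finset]
        simp
      have h1 : K * E.card ≤ hfin.toFinset.card := by
        have := (hlow.trans (hrank n)).trans hup.le
        exact_mod_cast this
      have h2 := count_mixed_upper m lam hlam ((n + C₀) * A) ((n + C₀) * L) (by positivity)
        (by positivity) hfin.toFinset (fun e he => by simpa [s] using he)
      have h1' : (K : ℝ) * E.card ≤ hfin.toFinset.card := by exact_mod_cast h1
      rw [Fintype.card_fin] at hEc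
      set N := n + (C₀ + (1 / L + (∑ j, lam j) / A)) with hN
      have h3 : (n + C₀) * L + 1 ≤ L * N := by
        have : L * N = (n + C₀) * L + 1 + L * ((∑ j, lam j) / A) := by
          rw [hN]; field_simp; ring
        rw [this]
        have : 0 ≤ L * ((∑ j, lam j) / A) := by positivity
        linarith
      have h4 : (n + C₀) * A + ∑ j, lam j ≤ A * N := by
        have : A * N = (n + C₀) * A + ∑ j, lam j + A * (1 / L) := by
          rw [hN]; field_simp; ring
        rw [this]
        have : 0 ≤ A * (1 / L) := by positivity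
        linarith
      calc (K : ℝ) * ((1 - ε) ^ (m + 1) / (((m + 1).factorial : ℝ) * ∏ v, w v)) * n ^ (m + 1)
          = K * (((1 - ε) * n) ^ (m + 1) / (((m + 1).factorial : ℝ) * ∏ v, w v)) := by
            rw [mul_pow]; ring
        _ ≤ K * E.card := by gcongr
        _ ≤ ((n + C₀) * L + 1) * (((n + C₀) * A + ∑ j, lam j) ^ m / (m.factorial * ∏ j, lam j)) :=
            h1'.trans h2
        _ ≤ (L * N) * ((A * N) ^ m / (m.factorial * ∏ j, lam j)) := by gcongr
        _ = L * (A ^ m / (m.factorial * ∏ j, lam j)) * N ^ (m + 1) := by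
            rw [mul_pow]; ring)
  have hpw : ∏ v, w v = (1 / T) * ((∏ j, lam j) / S ^ m) := by
    rw [Fin.prod_univ_succ]
    simp [hwdef, Finset.prod_div_distrib]
  rw [hpw, Nat.factorial_succ] at main
  push_cast at main
  have e1 : (K : ℝ) * ((1 - ε) ^ (m + 1) / (((m + 1) * m.factorial : ℝ) *
      (1 / T * ((∏ j, lam j) / S ^ m)))) =
      (K * T * S ^ m * (1 - ε) ^ (m + 1)) / ((m + 1) * (m.factorial * ∏ j, lam j)) := by
    field_simp
  have e2 : L * (A ^ m / (m.factorial * ∏ j, lam j)) =
      ((m + 1) * L * A ^ m) / ((m + 1) * (m.factorial * ∏ j, lam j)) := by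
    field_simp
  rw [e1, e2] at main
  exact (div_le_div_iff_of_pos_right (by positivity)).1 main

end Crest.Agent.R11
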