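/-
R11: assembly for fixed parameters.
-/
import Crest.Agent.R11.Zero
import Crest.Agent.R11.Link
import Crest.Agent.R11.Siegel
import Crest.Agent.R11.Liou

set_option autoImplicit false

namespace Crest.Agent.R11

open MvPolynomial

theorem log_lcmUpto_le (n : ℕ) : Real.log (Nat.lcmUpto n) ≤ 6 * n := by
  rw [← Chebyshev.psi_eq_log_lcmUpto]
  refine (Chebyshev.psi_le_const_mul_self (Nat.cast_nonneg n)).trans ?_
  apply mul_le_mul_of_nonneg_right _ (Nat.cast_nonneg n)
  have : Real.log 4 ≤ 2 := by
    have h : Real.log 4 = 2 * Real.log 2 := by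
      rw [show (4 : ℝ) = 2 ^ 2 by norm_num, Real.log_pow]; norm_num
    have := Real.log_two_lt_d9
    linarith
  linarith

theorem coeff_auxP {m : ℕ} (E : Finset (Fin (m + 1) →₀ ℕ)) (c : (Fin (m + 1) →₀ ℕ) → ℤ)
    (Q : Fin m → ℕ) (e : Fin (m + 1) →₀ ℕ) :
    coeff e (auxP E c Q) = if e ∈ E then (c e : ℂ) * ∏ j : Fin m, (Q j : ℂ) ^ e j.succ else 0 := by
  classical
  simp [auxP, coeff_sum, coeff_monomial]

/-- The parameters cannot all be satisfied.  Here `t = T / A`, `σ = S / A`, `ℓ = L / A`. -/
theorem core (ν ρ δ κ ε σ t ℓ : ℝ) (m K : ℕ) (p : Fin m → ℤ) (q : Fin m → ℕ) (A : ℝ)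
    (hν : 2 < ν) (hρ0 : 0 < ρ) (hρ1 : ρ < 1) (hδ : 0 < δ) (hκ1 : 1 ≤ κ) (hκ : 6 * (ν + 1) ≤ δ * κ)
    (hε : 0 < ε) (hε1 : ε < 1) (hσ : σ * (ν - 1) = ν * ρ - 1 - 6 * δ) (hσ0 : 0 < σ)
    (ht : t * κ = (ν - 1) * σ) (hK : 1 ≤ K) (hℓ : 20 * K * ℓ = δ)
    (hpig : ν ^ 2 * ρ ^ (m + 2) < ℓ * δ * (m + 1))
    (hL : ℓ < ε / (m + 1) * t)
    (hfin : (m + 1) * ℓ < K * t * σ ^ m * (1 - ε) ^ (m + 1))
    (happ : ∀ j, |Real.pi - (p j : ℝ) / q j| < 1 / (q j : ℝ) ^ ν)
    (hq1 : ∀ j, κ ≤ Real.log (q j))
    (hq2 : ∀ j, Real.log ((2 * K + 2) * (1 + 20 * K)) ≤ δ * Real.log (q j))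
    (hq3 : ∀ j, Gam m (1 / σ) ε < t * Real.log (q j))
    (hq4 : ∀ i j, i < j → Gam m (1 / σ) ε * Real.log (q i) < σ * Real.log (q j))
    (hA1 : 2 + ν * ∑ j, Real.log (q j) ≤ δ * A)
    (hA2 : (ν * A ^ (m + 1) + 2) * ((ℓ * A + 1) * (2 * A) ^ m) < Real.exp (δ * A)) : False := by
  classical
  set lam : Fin m → ℝ := fun j => Real.log (q j) with hlam
  have hlam1 : ∀ j, 1 ≤ lam j := fun j => hκ1.trans (hq1 j)
  have hlam0 : ∀ j, 0 < lam j := fun j => lt_of_lt_of_le one_pos (hlam1 j)
  have hq0 : ∀ j, 0 < q j := by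
    intro j
    rcases Nat.eq_zero_or_pos (q j) with h | h
    · have := hlam0 j
      simp [hlam, h] at this
    · exact h
  have hq0' : ∀ j, (0 : ℝ) < q j := fun j => by exact_mod_cast hq0 j
  have hsum : 0 ≤ ∑ j, lam j := Finset.sum_nonneg fun j _ => (hlam0 j).le
  have hν0 : 0 < ν := by linarith
  have hν1 : 0 < ν - 1 := by linarith
  have hκ0 : 0 < κ := by linarith
  have hA : 0 < A := by
    have : 0 < δ * A := by
      have := mul_nonneg hν0.le hsum
      linarith
    exact (pos_iff_pos_of_mul_pos this).1 hδ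
  have hK' : (1 : ℝ) ≤ K := by exact_mod_cast hK
  have hℓ0 : 0 < ℓ := by
    have : 0 < 20 * K * ℓ := by rw [hℓ]; exact hδ
    exact (pos_iff_pos_of_mul_pos this).1 (by positivity)
  have ht0 : 0 < t := by
    have : 0 < t * κ := by rw [ht]; positivity
    exact (pos_iff_pos_of_mul_pos this).2 hκ0
  have hνρ : ν * ρ < ν := by nlinarith
  have hσν : 0 < σ * (ν - 1) := by positivity
  have hσ1 : σ ≤ 1 := by
    by_contra h
    push Not at h
    nlinarith
  have hδν : δ < ν := by linarith
  have hsumA : ∑ j, lam j ≤ A := by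
    have h1 : ν * ∑ j, lam j ≤ ν * A := by nlinarith
    exact le_of_mul_le_mul_left h1 hν0
  -- the truncation orders and the multipliers
  let n : Fin m → ℕ := fun j => ⌈ν * lam j / κ⌉₊
  have hn1 : ∀ j, ν * lam j ≤ κ * n j := by
    intro j
    have := Nat.le_ceil (ν * lam j / κ)
    rw [div_le_iff₀ hκ0] at this
    simp only [n]
    linarith
  have hn2 : ∀ j, 6 * (n j : ℝ) ≤ δ * lam j := by
    intro j
    have h1 : (n j : ℝ) < ν * lam j / κ + 1 :=
      Nat.ceil_lt_add_one (by have := hlam0 j; positivity)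
    have h2 : ν * lam j / κ + 1 ≤ (ν + 1) * lam j / κ := by
      rw [div_add_one hκ0.ne', div_le_div_iff_of_pos_right hκ0]
      have := hq1 j
      simp only [hlam]
      linarith
    have h3 : 6 * ((ν + 1) * lam j / κ) ≤ δ * lam j := by
      rw [← mul_div_assoc, div_le_iff₀ hκ0]
      have := mul_le_mul_of_nonneg_right hκ (hlam0 j).le
      linarith
    linarith
  let Q : Fin m → ℕ := fun j => q j * Nat.lcmUpto (n j)
  have hQ0 : ∀ j, 0 < Q j := fun j => Nat.mul_pos (hq0 j) (Nat.lcmUpto_pos _)
  have hQ1 : ∀ j, (Q j : ℝ) ≤ Real.exp ((1 + δ) * lam j) := by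
    intro j
    rw [← Real.log_le_iff_le_exp (by exact_mod_cast hQ0 j)]
    simp only [Q]
    push_cast
    rw [Real.log_mul (hq0' j).ne' (by exact_mod_cast Nat.lcmUpto_ne_zero _)]
    have := log_lcmUpto_le (n j)
    have := hn2 j
    simp only [hlam] at *
    linarith
  -- the exponents
  obtain ⟨E, hE, hEc⟩ := count_mixed_lower m lam hlam0 A (ℓ * A) hA (by positivity)
  have hEu := count_mixed_upper m lam hlam0 A (ℓ * A) hA.le (by positivity) E hE
  set Λ : ℝ := Real.log ((2 * K + 2) * (1 + 20 * K)) with hΛ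
  have hΛ0 : 0 < Λ := Real.log_pos (by nlinarith)
  set τ : ℝ := (ν * ρ - δ) * A with hτ
  have hτ0 : 0 ≤ τ := by
    apply mul_nonneg _ hA.le
    linarith
  have hprod : 0 < ∏ j, lam j := Finset.prod_pos fun j _ => hlam0 j
  have hprod1 : 1 ≤ ∏ j, lam j := by
    calc (1 : ℝ) = ∏ _j : Fin m, 1 := by simp
      _ ≤ ∏ j, lam j := Finset.prod_le_prod (fun _ _ => zero_le_one) fun j _ => hlam1 j
  have hfac : (0 : ℝ) < m.factorial := by exact_mod_cast Nat.factorial_pos m
  have hfac1 : (1 : ℝ) ≤ m.factorial := by exact_mod_cast Nat.factorial_pos m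
  set M : ℝ := ν * (ρ * A) ^ (m + 1) / ((m + 1) * (m.factorial * ∏ j, lam j)) with hM
  set d : ℕ := ⌊δ * A / Λ⌋₊ with hd
  set H : ℕ := ⌊Real.exp (δ * A)⌋₊ with hH
  have hτA : τ + 2 + ν * ∑ j, lam j ≤ ν * (ρ * A) := by
    rw [hτ]
    linarith
  obtain ⟨c, ⟨e₀, he₀, hc₀⟩, hB⟩ := exists_aux m lam Q ν τ (7 * K) (2 * K + 2)
    (Real.exp ((1 + δ) * A)) (ℓ * A) M d H E (fun j => (hlam0 j).le) hQ0 hν0.le hτ0 (by positivity)
    (by linarith) (fun e he => (hE e he).1)
    (by
      intro e he
      apply Nat.le_floor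
      rw [le_div_iff₀ hΛ0]
      push_cast
      rw [Finset.sum_mul]
      refine le_trans (Finset.sum_le_sum fun j _ =>
        mul_le_mul_of_nonneg_left (hq2 j) (Nat.cast_nonneg _)) ?_
      have := mul_le_mul_of_nonneg_left (hE e he).2 hδ.le
      rw [Finset.mul_sum] at this
      refine le_trans (le_of_eq ?_) this
      apply Finset.sum_congr rfl
      intro j _
      simp only [hlam]
      ring)
    (by
      intro e he
      calc ∏ j : Fin m, (Q j : ℝ) ^ e j.succ
          ≤ ∏ j : Fin m, Real.exp ((1 + δ) * lam j) ^ e j.succ := by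
            apply Finset.prod_le_prod (fun j _ => by positivity)
            intro j _
            exact pow_le_pow_left₀ (Nat.cast_nonneg _) (hQ1 j) _
        _ = Real.exp ((1 + δ) * ∑ j : Fin m, (e j.succ : ℝ) * lam j) := by
            rw [Finset.mul_sum, Real.exp_sum]
            apply Finset.prod_congr rfl
            intro j _
            rw [← Real.exp_nat_mul]
            congr 1
            ring
        _ ≤ Real.exp ((1 + δ) * A) := by
            apply Real.exp_le_exp.2
            exact mul_le_mul_of_nonneg_left (hE e he).2 (by linarith))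
    (by
      intro 𝒮 h𝒮
      have := count_upper (Fin.cons 1 (fun j => ν * lam j) : Fin (m + 1) → ℝ)
        (by
          intro v
          induction v using Fin.cases with
          | zero => simp
          | succ j => simp only [Fin.cons_succ]; have := hlam0 j; positivity) τ hτ0 𝒮
        (by
          intro s hs
          rw [Fin.sum_univ_succ]
          simp only [Fin.cons_zero, Fin.cons_succ, mul_one]
          refine le_trans (le_of_eq ?_) (h𝒮 s hs)
          rw [Finset.mul_sum]
          congr 1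
          apply Finset.sum_congr rfl
          intro j _
          ring)
      refine this.trans ?_
      rw [Fintype.card_fin, Fin.sum_univ_succ, Fin.prod_univ_succ, Nat.factorial_succ]
      simp only [Fin.cons_zero, Fin.cons_succ, one_mul]
      rw [← Finset.mul_sum, Finset.prod_mul_distrib, Finset.prod_const, Finset.card_univ,
        Fintype.card_fin]
      push_cast
      calc (τ + (1 + ν * ∑ j, lam j)) ^ (m + 1) / ((m + 1) * m.factorial * (ν ^ m * ∏ j, lam j))
          ≤ (ν * (ρ * A)) ^ (m + 1) / ((m + 1) * m.factorial * (ν ^ m * ∏ j, lam j)) := by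
            gcongr
            linarith
        _ = M := by
            rw [hM, mul_pow, pow_succ]
            field_simp)
    (by
      have h1 : δ * A ≤ Real.log (H + 1) := by
        rw [Real.le_log_iff_exp_le (by positivity)]
        exact (Nat.lt_floor_add_one _).le
      have hM0 : 0 ≤ M := by positivity
      have h2 : τ + 2 ≤ ν * (ρ * A) := by
        have := mul_nonneg hν0.le hsum
        linarith
      calc (τ + 2) * M ≤ ν * (ρ * A) * M := by gcongr
        _ = ν ^ 2 * ρ ^ (m + 2) * (A ^ (m + 2) / ((m + 1) * (m.factorial * ∏ j, lam j))) := by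
            rw [hM, mul_pow]
            field_simp
            ring
        _ < ℓ * δ * (m + 1) * (A ^ (m + 2) / ((m + 1) * (m.factorial * ∏ j, lam j))) := by
            gcongr
        _ = ℓ * A * (A ^ m / (m.factorial * ∏ j, lam j)) * (δ * A) := by
            field_simp
            ring
        _ ≤ E.card * Real.log (H + 1) := by gcongr)
  -- the size of the bound
  have hBd : (2 * K + 2 : ℝ) ^ d * Real.exp (-τ) * (M + 2) * E.card * H *
      (Real.exp ((1 + δ) * A) * (1 + Real.exp 1 * (7 * K)) ^ d *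
        Real.exp (Real.exp 1 * (7 * K) * (ℓ * A))) ≤ Real.exp (-((ν - 1) * (σ * A))) := by
    have he : Real.exp 1 * (7 * K) ≤ 20 * K := by
      have := Real.exp_one_lt_d9
      nlinarith
    have h1 : (2 * K + 2 : ℝ) ^ d * (1 + Real.exp 1 * (7 * K)) ^ d ≤ Real.exp (δ * A) := by
      calc (2 * K + 2 : ℝ) ^ d * (1 + Real.exp 1 * (7 * K)) ^ d
          ≤ (2 * K + 2 : ℝ) ^ d * (1 + 20 * K) ^ d := by gcongr
        _ = Real.exp (d * Λ) := by
            rw [← mul_pow, Real.exp_nat_mul, hΛ, Real.exp_log (by positivity)]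
        _ ≤ Real.exp (δ * A) := by
            apply Real.exp_le_exp.2
            rw [← le_div_iff₀ hΛ0]
            exact Nat.floor_le (by positivity)
    have h2 : (M + 2) * E.card ≤ Real.exp (δ * A) := by
      refine le_trans ?_ hA2.le
      have hM1 : M ≤ ν * A ^ (m + 1) := by
        rw [hM]
        refine (div_le_self (by positivity) ?_).trans ?_
        · have : (1 : ℝ) ≤ m + 1 := by
            have : (0 : ℝ) ≤ m := Nat.cast_nonneg m
            linarith
          exact one_le_mul_of_one_le_of_one_le this (one_le_mul_of_one_le_of_one_le hfac1 hprod1)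
        · gcongr
          exact mul_le_of_le_one_left hA.le hρ1.le
      have hE1 : (E.card : ℝ) ≤ (ℓ * A + 1) * (2 * A) ^ m := by
        refine hEu.trans ?_
        apply mul_le_mul_of_nonneg_left _ (by positivity)
        refine (div_le_self (by positivity) (one_le_mul_of_one_le_of_one_le hfac1 hprod1)).trans ?_
        gcongr
        linarith
      gcongr
    have h3 : (H : ℝ) ≤ Real.exp (δ * A) := Nat.floor_le (Real.exp_pos _).le
    have h4 : Real.exp (Real.exp 1 * (7 * K) * (ℓ * A)) ≤ Real.exp (δ * A) := by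
      apply Real.exp_le_exp.2
      calc Real.exp 1 * (7 * K) * (ℓ * A) ≤ 20 * K * (ℓ * A) := by gcongr
        _ = δ * A := by rw [← hℓ]; ring
    have hM0 : 0 ≤ M := by positivity
    calc (2 * K + 2 : ℝ) ^ d * Real.exp (-τ) * (M + 2) * E.card * H *
          (Real.exp ((1 + δ) * A) * (1 + Real.exp 1 * (7 * K)) ^ d *
            Real.exp (Real.exp 1 * (7 * K) * (ℓ * A)))
        = ((2 * K + 2 : ℝ) ^ d * (1 + Real.exp 1 * (7 * K)) ^ d) * ((M + 2) * E.card) * H *
          Real.exp (Real.exp 1 * (7 * K) * (ℓ * A)) * (Real.exp (-τ) * Real.exp ((1 + δ) * A)) := by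
          ring
      _ ≤ Real.exp (δ * A) * Real.exp (δ * A) * Real.exp (δ * A) * Real.exp (δ * A) *
          (Real.exp (-τ) * Real.exp ((1 + δ) * A)) := by gcongr
      _ = Real.exp (-((ν - 1) * (σ * A))) := by
          simp only [← Real.exp_add]
          congr 1
          have : (ν - 1) * (σ * A) = (ν * ρ - 1 - 6 * δ) * A := by rw [← hσ]; ring
          rw [this, hτ]
          ring
  have happ' : ∀ j, |Real.pi - (p j : ℝ) / q j| ≤ Real.exp (-(ν * Real.log (q j))) := by
    intro j
    refine (happ j).le.trans (le_of_eq ?_)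
    rw [Real.rpow_def_of_pos (hq0' j), Real.exp_neg, one_div, mul_comm]
  have hp0 : ∀ j, p j ≠ 0 := by
    intro j h
    have h1 := happ' j
    rw [h] at h1
    have h2 : Real.exp (-(ν * Real.log (q j))) ≤ 1 := by
      rw [Real.exp_le_one_iff]
      have := mul_pos hν0 (hlam0 j)
      simp only [hlam] at this
      linarith
    have h3 := Real.pi_gt_three
    simp only [Int.cast_zero, zero_div, sub_zero] at h1
    have := le_abs_self Real.pi
    linarith
  have hz := zero_estimate m K lam A (ℓ * A) (σ * A) (t * A) ε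
    (fun k j => 2 * Complex.I * (k : ℕ) * p j / q j) hlam0 (by positivity) (by positivity)
    (by positivity) (mul_le_of_le_one_left hA.le hσ1) hε hε1
    (by
      intro j k k' h
      have h1 : (p j : ℂ) ≠ 0 := by exact_mod_cast hp0 j
      have h2 : (q j : ℂ) ≠ 0 := by exact_mod_cast (hq0 j).ne'
      simp only at h
      field_simp at h
      apply Fin.ext
      exact_mod_cast h)
    (by
      rw [← mul_assoc]
      exact mul_lt_mul_of_pos_right hL hA)
    (by
      intro j
      have e1 : A / (σ * A) = 1 / σ := by field_simp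
      rw [e1, ← mul_div_assoc, div_lt_iff₀ (hlam0 j)]
      have := mul_lt_mul_of_pos_right (hq3 j) hA
      simp only [hlam]
      linarith)
    (by
      intro i j hij
      have e1 : A / (σ * A) = 1 / σ := by field_simp
      rw [e1, ← mul_div_assoc, div_lt_div_iff₀ (hlam0 j) (hlam0 i)]
      have := mul_lt_mul_of_pos_right (hq4 i j hij) hA
      simp only [hlam]
      linarith)
    (auxP E c Q)
    (by
      intro h
      have h1 := coeff_auxP E c Q e₀
      rw [h, if_pos he₀, coeff_zero] at h1
      refine mul_ne_zero (by exact_mod_cast hc₀) (Finset.prod_ne_zero_iff.2 fun j _ => ?_) h1.symm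
      exact pow_ne_zero _ (by exact_mod_cast (hQ0 j).ne'))
    (by
      intro e he
      apply hE
      by_contra h
      rw [mem_support_iff, coeff_auxP, if_neg h] at he
      exact he rfl)
    (by
      intro k l hl
      refine link m _ n _ ?_ ?_ (auxP E c Q) 1 ?_ l hl
      · intro v
        induction v using Fin.cases with
        | zero => simp only [Fin.cons_zero]; positivity
        | succ j => simp only [Fin.cons_succ]; have := hlam0 j; positivity
      · intro j
        simp only [Fin.cons_zero, Fin.cons_succ]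
        rw [mul_one_div, div_le_div_iff₀ (by positivity) (by positivity)]
        have h1 : lam j * t * κ ≤ (n j + 1) * σ * κ := by
          have h2 : lam j * t * κ = (ν * lam j - lam j) * σ := by
            rw [mul_assoc, ht]; ring
          have h3 : (n j + 1) * σ * κ = (κ * n j + κ) * σ := by ring
          rw [h2, h3]
          apply mul_le_mul_of_nonneg_right _ hσ0.le
          have := hn1 j
          have := hlam0 j
          linarith
        have h4 := mul_le_mul_of_nonneg_right (le_of_mul_le_mul_right h1 hκ0) hA.le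
        linarith
      · intro s hs
        refine coeff_psi_eq_zero m K p q n ν κ (Real.exp (-((ν - 1) * (σ * A)))) E c k k.2 hq0 hκ1
          happ' hn1 (fun z ω hz hω => (hB z ω hz hω).trans hBd) s ?_
        rw [← Real.exp_add, Real.exp_lt_one_iff]
        rw [Fin.sum_univ_succ] at hs
        simp only [Fin.cons_zero, Fin.cons_succ] at hs
        have h1 : ∑ j : Fin m, (s j.succ : ℝ) * (lam j / (σ * A)) =
            (∑ j : Fin m, (s j.succ : ℝ) * lam j) / (σ * A) := by
          rw [Finset.sum_div]
          apply Finset.sum_congr rfl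
          intro j _
          ring
        rw [h1] at hs
        have h2 := mul_lt_mul_of_pos_left hs (show 0 < (ν - 1) * (σ * A) by positivity)
        have h3 : (ν - 1) * (σ * A) * ((s 0 : ℝ) * (1 / (t * A)) +
            (∑ j : Fin m, (s j.succ : ℝ) * lam j) / (σ * A)) =
            κ * s 0 + (ν - 1) * ∑ j : Fin m, (s j.succ : ℝ) * lam j := by
          have : κ = (ν - 1) * σ / t := by
            rw [← ht]; field_simp
          rw [this]
          field_simp
        rw [h3] at h2
        simp only [hlam] at h2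
        linarith)
  have h5 := mul_lt_mul_of_pos_right hfin (show 0 < A ^ (m + 1) by positivity)
  have e1 : (K : ℝ) * (t * A) * (σ * A) ^ m * (1 - ε) ^ (m + 1) =
      K * t * σ ^ m * (1 - ε) ^ (m + 1) * A ^ (m + 1) := by
    rw [mul_pow]; ring
  have e2 : ((m : ℝ) + 1) * (ℓ * A) * A ^ m = (m + 1) * ℓ * A ^ (m + 1) := by ring
  rw [e1, e2] at hz
  linarith

end Crest.Agent.R11
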