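/-
R11: choice of the parameters; the theorem.
-/
import Crest.Agent.R11.Core

set_option autoImplicit false

namespace Crest.Agent.R11

open Filter Topology

theorem par_lin (y c : ℝ) (hy : 1 < y) (hc : 0 < c) :
    ∀ᶠ m : ℕ in atTop, (m : ℝ) + 1 < c * y ^ m := by
  have h1 := (tendsto_pow_const_div_const_pow_of_one_lt 1 hy).add
    (tendsto_pow_const_div_const_pow_of_one_lt 0 hy)
  rw [add_zero] at h1
  filter_upwards [h1.eventually (gt_mem_nhds hc)] with m hm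
  have hp : 0 < y ^ m := by positivity
  rw [pow_one, pow_zero, ← add_div, div_lt_iff₀ hp] at hm
  exact hm

/-- The constants that do not depend on the approximations.

Proof.  Take `ρ ∈ (1/(ν-1), 1)`; then `(ρ - 1)((ν-1)ρ - 1) < 0`, i.e. `ρ² < (νρ - 1)/(ν - 1)`.  Take `δ > 0` small
with `ρ² < σ := (νρ - 1 - 6δ)/(ν - 1)`, `ε ∈ (0,1)` small with `ρ² < σ (1 - ε) =: s` (note `s < 1`),
`κ = max 1 (6(ν+1)/δ)`, `t = (ν-1)σ/κ`.  With `ℓ = δ/(20 K)` the three conditions read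
`K < c₁ (m+1) ρ^{-m}` with `c₁ = δ²/(20 ν² ρ²)`, `K > (m+1) δ/(20 ε t)` and `K² s^m > (m+1) δ/(20 t (1-ε))`.
Take `x` with `1/s < x² < 1/ρ²` (e.g. `x² = 1/(ρ √s)`, or `x = 1/ρ'` with `ρ < ρ'`, `ρ'² < s`) and `K = ⌈x^m⌉₊`
(`x^m ≤ K ≤ 2 x^m`) for large `m` (`tendsto_pow_const_mul_const_pow_of_abs_lt_one`,
`tendsto_self_mul_const_pow_of_lt_one`). -/
theorem exists_params (ν : ℝ) (hν : 2 < ν) :
    ∃ (ρ δ κ ε σ t ℓ : ℝ) (m K : ℕ), 0 < ρ ∧ ρ < 1 ∧ 0 < δ ∧ 1 ≤ κ ∧ 6 * (ν + 1) ≤ δ * κ ∧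
      0 < ε ∧ ε < 1 ∧ σ * (ν - 1) = ν * ρ - 1 - 6 * δ ∧ 0 < σ ∧ t * κ = (ν - 1) * σ ∧ 1 ≤ K ∧
      20 * K * ℓ = δ ∧ ν ^ 2 * ρ ^ (m + 2) < ℓ * δ * (m + 1) ∧ ℓ < ε / (m + 1) * t ∧
      (m + 1) * ℓ < K * t * σ ^ m * (1 - ε) ^ (m + 1) := by
  have ha : 1 < ν - 1 := by linarith
  have ha0 : 0 < ν - 1 := by linarith
  obtain ⟨ρ, hρa, hρ1⟩ := exists_between ((div_lt_one ha0).2 ha)
  have hρ0 : 0 < ρ := lt_trans (by positivity) hρa
  rw [div_lt_iff₀ ha0] at hρa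
  have hgap : 0 < ν * ρ - 1 - (ν - 1) * ρ ^ 2 := by
    nlinarith [mul_pos (sub_pos.2 hρ1) (sub_pos.2 hρa)]
  obtain ⟨δ, hδe⟩ : ∃ δ : ℝ, δ = (ν * ρ - 1 - (ν - 1) * ρ ^ 2) / 12 := ⟨_, rfl⟩
  have hδ : 0 < δ := by rw [hδe]; positivity
  obtain ⟨σ, hσe⟩ : ∃ σ : ℝ, σ = (ν * ρ - 1 - 6 * δ) / (ν - 1) := ⟨_, rfl⟩
  have hσ : σ * (ν - 1) = ν * ρ - 1 - 6 * δ := by rw [hσe]; field_simp
  have hρσ : ρ ^ 2 < σ := by
    rw [hσe, lt_div_iff₀ ha0]; linarith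
  have hρ2 : 0 < ρ ^ 2 := by positivity
  have hσ0 : 0 < σ := hρ2.trans hρσ
  obtain ⟨ε, hεe⟩ : ∃ ε : ℝ, ε = (1 - ρ ^ 2 / σ) / 2 := ⟨_, rfl⟩
  have hq0 : 0 < ρ ^ 2 / σ := by positivity
  have hq1 : ρ ^ 2 / σ < 1 := (div_lt_one hσ0).2 hρσ
  have hε : 0 < ε := by rw [hεe]; linarith
  have hε1 : ε < 1 := by rw [hεe]; linarith
  have hs : ρ ^ 2 < σ * (1 - ε) := by
    have : σ * (1 - ε) = (σ + ρ ^ 2) / 2 := by rw [hεe]; field_simp; ring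
    rw [this]; linarith
  obtain ⟨κ, hκe⟩ : ∃ κ : ℝ, κ = max 1 (6 * (ν + 1) / δ) := ⟨_, rfl⟩
  have hκ1 : 1 ≤ κ := hκe ▸ le_max_left _ _
  have hκ : 6 * (ν + 1) ≤ δ * κ := by
    have : 6 * (ν + 1) / δ ≤ κ := hκe ▸ le_max_right _ _
    rw [div_le_iff₀ hδ] at this
    linarith
  have hκ0 : 0 < κ := by linarith
  obtain ⟨t, hte⟩ : ∃ t : ℝ, t = (ν - 1) * σ / κ := ⟨_, rfl⟩
  have ht : t * κ = (ν - 1) * σ := by rw [hte]; field_simp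
  have ht0 : 0 < t := by rw [hte]; positivity
  have hε' : 0 < 1 - ε := by linarith
  have e1 : ∀ᶠ m : ℕ in atTop, 40 * ν ^ 2 * ρ ^ 2 / δ ^ 2 < (m : ℝ) :=
    tendsto_natCast_atTop_atTop.eventually (eventually_gt_atTop _)
  have e2 := par_lin (1 / ρ) (20 * ε * t / δ) (one_lt_one_div hρ0 hρ1) (by positivity)
  have e3 := par_lin (σ * (1 - ε) / ρ ^ 2) (20 * t * (1 - ε) / δ) ((one_lt_div hρ2).2 hs)
    (by positivity)
  obtain ⟨m, ⟨h1, h2⟩, h3⟩ := ((e1.and e2).and e3).exists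
  obtain ⟨K, hKe⟩ : ∃ K : ℕ, K = ⌈(1 / ρ) ^ m⌉₊ := ⟨_, rfl⟩
  have hx1 : 1 ≤ (1 / ρ) ^ m := one_le_pow₀ (one_lt_one_div hρ0 hρ1).le
  have hK1 : (1 / ρ) ^ m ≤ K := hKe ▸ Nat.le_ceil _
  have hK2 : (K : ℝ) ≤ 2 * (1 / ρ) ^ m := by
    have := Nat.ceil_lt_add_one (show 0 ≤ (1 / ρ) ^ m by positivity)
    rw [← hKe] at this
    linarith
  have hK0 : (0 : ℝ) < K := by linarith
  have hρm : 0 < ρ ^ m := by positivity
  have hxρ : (1 / ρ) ^ m * ρ ^ m = 1 := by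
    rw [← mul_pow, one_div_mul_cancel hρ0.ne', one_pow]
  have hm1 : (0 : ℝ) < m + 1 := by positivity
  refine ⟨ρ, δ, κ, ε, σ, t, δ / (20 * K), m, K, hρ0, hρ1, hδ, hκ1, hκ, hε, hε1, hσ, hσ0, ht,
    by exact_mod_cast hx1.trans hK1, by field_simp, ?_, ?_, ?_⟩
  · have a1 : K * ρ ^ m ≤ 2 := by
      have := mul_le_mul_of_nonneg_right hK2 hρm.le
      rwa [mul_assoc, hxρ, mul_one] at this
    rw [div_lt_iff₀ (by positivity)] at h1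
    rw [show δ / (20 * K) * δ * (m + 1) = δ ^ 2 * (m + 1) / (20 * K) by ring,
      lt_div_iff₀ (by positivity)]
    have a2 : ν ^ 2 * ρ ^ (m + 2) * (20 * K) = 20 * ν ^ 2 * ρ ^ 2 * (K * ρ ^ m) := by ring
    have a3 : 20 * ν ^ 2 * ρ ^ 2 * (K * ρ ^ m) ≤ 20 * ν ^ 2 * ρ ^ 2 * 2 :=
      mul_le_mul_of_nonneg_left a1 (by positivity)
    have a4 : 0 < δ ^ 2 := by positivity
    rw [a2]
    linarith
  · have a1 : 20 * ε * t / δ * (1 / ρ) ^ m ≤ 20 * ε * t / δ * K :=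
      mul_le_mul_of_nonneg_left hK1 (by positivity)
    have a2 := h2.trans_le a1
    rw [div_mul_eq_mul_div, lt_div_iff₀ hδ] at a2
    rw [div_mul_eq_mul_div, div_lt_div_iff₀ (by positivity) hm1]
    linarith
  · have a1 : (σ * (1 - ε) / ρ ^ 2) ^ m ≤ K ^ 2 * (σ ^ m * (1 - ε) ^ m) := by
      have : (σ * (1 - ε) / ρ ^ 2) ^ m = ((1 / ρ) ^ m) ^ 2 * (σ ^ m * (1 - ε) ^ m) := by
        rw [← pow_mul, mul_comm m 2, pow_mul, ← mul_pow, ← mul_pow]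
        congr 1
        field_simp
      rw [this]
      gcongr
    have a2 := h3.trans_le (mul_le_mul_of_nonneg_left a1 (by positivity))
    rw [div_mul_eq_mul_div, lt_div_iff₀ hδ] at a2
    rw [← mul_div_assoc, div_lt_iff₀ (by positivity)]
    refine a2.trans_le (le_of_eq ?_)
    ring

/-- A rapidly increasing sequence of good approximations: choose `(p j, q j)` recursively (a sequence on `ℕ`
with `log q 0 ≥ a`, `log q (j+1) > max a (b * log q j)` and `≥ log q j`; restrict to `Fin m`). -/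
theorem exists_approx (ν : ℝ)
    (h : ∀ Q : ℕ, ∃ (p : ℤ) (q : ℕ), Q ≤ q ∧ |Real.pi - (p : ℝ) / (q : ℝ)| < 1 / (q : ℝ) ^ ν)
    (m : ℕ) (a b : ℝ) :
    ∃ (p : Fin m → ℤ) (q : Fin m → ℕ), (∀ j, |Real.pi - (p j : ℝ) / q j| < 1 / (q j : ℝ) ^ ν) ∧
      (∀ j, a < Real.log (q j)) ∧ ∀ i j, i < j → b * Real.log (q i) < Real.log (q j) := by
  have h' : ∀ B : ℝ, ∃ (p : ℤ) (q : ℕ), B < Real.log q ∧
      |Real.pi - (p : ℝ) / (q : ℝ)| < 1 / (q : ℝ) ^ ν := by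
    intro B
    obtain ⟨p, q, h1, h2⟩ := h (⌈Real.exp B⌉₊ + 1)
    refine ⟨p, q, ?_, h2⟩
    have h3 : Real.exp B < q := by
      have h4 := Nat.le_ceil (Real.exp B)
      have h5 : ((⌈Real.exp B⌉₊ + 1 : ℕ) : ℝ) ≤ q := by exact_mod_cast h1
      push_cast at h5
      linarith
    exact (Real.lt_log_iff_exp_lt ((Real.exp_pos B).trans h3)).2 h3
  choose P Q hQ hPQ using h'
  let B : ℕ → ℝ := fun n => Nat.rec a (fun _ x => max x (b * Real.log (Q x))) n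
  have hB : ∀ n, B (n + 1) = max (B n) (b * Real.log (Q (B n))) := fun n => rfl
  have hmono : Monotone B := monotone_nat_of_le_succ fun n => by rw [hB]; exact le_max_left _ _
  refine ⟨fun j => P (B j), fun j => Q (B j), fun j => hPQ _, fun j => ?_, fun i j hij => ?_⟩
  · exact lt_of_le_of_lt (hmono (Nat.zero_le j)) (hQ _)
  · refine lt_of_le_of_lt ?_ (hQ _)
    refine le_trans ?_ (hmono (show (i : ℕ) + 1 ≤ j from hij))
    rw [hB]; exact le_max_right _ _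

/-- A polynomial is eventually below an exponential. -/
theorem exists_A (ν δ ℓ Λ : ℝ) (m : ℕ) (hδ : 0 < δ) :
    ∃ A : ℝ, Λ ≤ δ * A ∧ (ν * A ^ (m + 1) + 2) * ((ℓ * A + 1) * (2 * A) ^ m) < Real.exp (δ * A) := by
  have h0 := fun n => isLittleO_pow_exp_pos_mul_atTop n hδ
  have h1 := ((((h0 (2 * m + 2)).const_mul_left (ν * ℓ * 2 ^ m)).add
    ((h0 (2 * m + 1)).const_mul_left (ν * 2 ^ m))).add
    ((h0 (m + 1)).const_mul_left (2 * ℓ * 2 ^ m))).add ((h0 m).const_mul_left (2 * 2 ^ m))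
  have h2 := h1.def (show (0 : ℝ) < 1 / 2 by norm_num)
  obtain ⟨A, hA1, hA2⟩ := (h2.and (eventually_ge_atTop (Λ / δ))).exists
  refine ⟨A, by rw [div_le_iff₀ hδ] at hA2; linarith, ?_⟩
  have h3 := Real.exp_pos (δ * A)
  rw [Real.norm_eq_abs, Real.norm_eq_abs, abs_of_pos h3] at hA1
  have h4 := (le_abs_self _).trans hA1
  have h5 : (ν * A ^ (m + 1) + 2) * ((ℓ * A + 1) * (2 * A) ^ m) =
      ν * ℓ * 2 ^ m * A ^ (2 * m + 2) + ν * 2 ^ m * A ^ (2 * m + 1) + 2 * ℓ * 2 ^ m * A ^ (m + 1) +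
        2 * 2 ^ m * A ^ m := by ring
  rw [h5]
  linarith

/-- The irrationality exponent of `π` is at most `2`: combine the three lemmas above with `core`. -/
theorem pi_exponent (ν : ℝ) (hν : 2 < ν) :
    ∃ Q : ℕ, ∀ (p : ℤ) (q : ℕ), Q ≤ q → 1 / (q : ℝ) ^ ν ≤ |Real.pi - (p : ℝ) / (q : ℝ)| := by
  by_contra hcon
  have h : ∀ Q : ℕ, ∃ (p : ℤ) (q : ℕ), Q ≤ q ∧
      |Real.pi - (p : ℝ) / (q : ℝ)| < 1 / (q : ℝ) ^ ν := by
    intro Q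
    by_contra h'
    exact hcon ⟨Q, fun p q hq => not_lt.1 fun h'' => h' ⟨p, q, hq, h''⟩⟩
  obtain ⟨ρ, δ, κ, ε, σ, t, ℓ, m, K, hρ0, hρ1, hδ, hκ1, hκ, hε, hε1, hσ, hσ0, ht, hK, hℓ, hpig,
    hL, hfin⟩ := exists_params ν hν
  have ht0 : 0 < t := by
    have h1 : 0 < t * κ := by rw [ht]; exact mul_pos (by linarith) hσ0
    exact (mul_pos_iff_of_pos_right (by linarith)).1 h1
  obtain ⟨p, q, happ, hqa, hqb⟩ := exists_approx ν h m
    (max κ (max (Real.log ((2 * K + 2) * (1 + 20 * K)) / δ) (Gam m (1 / σ) ε / t)))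
    (Gam m (1 / σ) ε / σ)
  obtain ⟨A, hA1, hA2⟩ := exists_A ν δ ℓ (2 + ν * ∑ j, Real.log (q j)) m hδ
  refine core ν ρ δ κ ε σ t ℓ m K p q A hν hρ0 hρ1 hδ hκ1 hκ hε hε1 hσ hσ0 ht hK hℓ hpig hL hfin
    happ (fun j => ?_) (fun j => ?_) (fun j => ?_) (fun i j hij => ?_) hA1 hA2
  · exact ((le_max_left _ _).trans_lt (hqa j)).le
  · have := ((le_max_left _ _).trans (le_max_right _ _)).trans_lt (hqa j)
    rw [div_lt_iff₀ hδ] at this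
    linarith
  · have := ((le_max_right _ _).trans (le_max_right _ _)).trans_lt (hqa j)
    rw [div_lt_iff₀ ht0] at this
    linarith
  · have := hqb i j hij
    rw [div_mul_eq_mul_div, div_lt_iff₀ hσ0] at this
    linarith

end Crest.Agent.R11
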